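import Mathlib.Analysis.Complex.Conformal
import Mathlib.Analysis.Complex.RemovableSingularity
import Mathlib.Analysis.Complex.Liouville
import Mathlib.Analysis.Normed.Module.Connected
import Mathlib.LinearAlgebra.Complex.FiniteDimensional
import Mathlib.Tactic

set_option linter.all false

/-!
# Conformal homeomorphisms between punctured planes are Moebius maps
-/

namespace Vale.Agent.P207.N3.H158
open Filter Topology Set Bornology

/-! ### the affine case -/

theorem affine_of_biholo {k g : ℂ → ℂ} (hk : Differentiable ℂ k) (hg : Differentiable ℂ g)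
    (gk : ∀ z, g (k z) = z) (kg : ∀ w, k (g w) = w) :
    ∃ c : ℂ, c ≠ 0 ∧ ∀ z, z = c * (k z - k 0) := by
  have hinj : Function.Injective k := fun x y h => by rw [← gk x, ← gk y, h]
  -- derivative at zero
  have hd0 : deriv k 0 ≠ 0 := by
    intro h0
    have h1 : HasDerivAt (fun z => g (k z)) (deriv g (k 0) * deriv k 0) 0 :=
      (hg (k 0)).hasDerivAt.comp 0 (hk 0).hasDerivAt
    have h2 : (fun z => g (k z)) = id := funext gk
    rw [h2, h0, mul_zero] at h1
    exact zero_ne_one (h1.unique (hasDerivAt_id 0))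
  set d : ℂ → ℂ := dslope k 0 with hd
  have hdd : Differentiable ℂ d := by
    have := (Complex.differentiableOn_dslope (f := k) (c := (0 : ℂ)) (s := univ) univ_mem).mpr
      hk.differentiableOn
    exact differentiableOn_univ.mp this
  have hdz : ∀ z, z ≠ 0 → d z = (k z - k 0) / z := by
    intro z hz
    rw [hd, dslope_of_ne _ hz, slope_def_field, sub_zero]
  have hd_ne : ∀ z, d z ≠ 0 := by
    intro z
    by_cases hz : z = 0
    · rw [hz, hd, dslope_same]
      exact hd0
    · rw [hdz z hz]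
      exact div_ne_zero (sub_ne_zero.mpr (fun h => hz (hinj h))) hz
  set f : ℂ → ℂ := fun z => (d z)⁻¹ with hf
  have hfd : Differentiable ℂ f := fun z => (hdd z).inv (hd_ne z)
  -- behaviour at infinity
  let e : ℂ ≃ₜ ℂ := ⟨⟨k, g, gk, kg⟩, hk.continuous, hg.continuous⟩
  have hk_inf : Tendsto k (cocompact ℂ) (cocompact ℂ) := e.isClosedEmbedding.tendsto_cocompact
  have hki : Tendsto (fun z => ‖k z - k 0‖) (cocompact ℂ) atTop := by
    have h1 : Tendsto (fun z => ‖k z‖) (cocompact ℂ) atTop := tendsto_norm_cocompact_atTop.comp hk_inf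
    refine tendsto_atTop_mono (fun z => ?_) (tendsto_atTop_add_const_right _ (-‖k 0‖) h1)
    have := norm_sub_norm_le (k z) (k 0)
    linarith
  set K : ℂ → ℂ := fun w => if w = 0 then 0 else (k w⁻¹ - k 0)⁻¹ with hK
  have hKc : ContinuousAt K 0 := by
    rw [← continuousWithinAt_compl_self]
    have h0 : K 0 = 0 := by simp [hK]
    rw [ContinuousWithinAt, h0, tendsto_zero_iff_norm_tendsto_zero]
    have h1 : Tendsto (fun w : ℂ => w⁻¹) (𝓝[≠] 0) (cocompact ℂ) := by
      rw [← Metric.cobounded_eq_cocompact]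
      exact tendsto_inv₀_nhdsNE_zero
    have h2 := (tendsto_inv_atTop_zero.comp (hki.comp h1))
    refine h2.congr' ?_
    filter_upwards [self_mem_nhdsWithin] with w hw
    have hw' : w ≠ 0 := hw
    simp only [Function.comp, hK, if_neg hw', norm_inv]
  have hKd : DifferentiableAt ℂ K 0 := by
    refine (Complex.analyticAt_of_differentiable_on_punctured_nhds_of_continuousAt ?_
      hKc).differentiableAt
    filter_upwards [self_mem_nhdsWithin] with w hw
    have hw' : w ≠ 0 := hw
    have h1 : DifferentiableAt ℂ (fun w => (k w⁻¹ - k 0)⁻¹) w := by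
      have h2 : DifferentiableAt ℂ (fun w : ℂ => k w⁻¹) w :=
        DifferentiableAt.comp w (hk _) (differentiableAt_inv hw')
      refine (h2.sub_const _).inv (sub_ne_zero.mpr (fun h => ?_))
      exact inv_ne_zero hw' (hinj h)
    refine h1.congr_of_eventuallyEq ?_
    filter_upwards [isOpen_ne.mem_nhds hw'] with v hv
    have hv' : v ≠ 0 := hv
    simp only [hK, if_neg hv']
  have hKO : ∃ C R : ℝ, 0 < R ∧ ∀ w, ‖w‖ < R → ‖K w‖ ≤ C * ‖w‖ := by
    have h1 := hKd.isBigO_sub
    obtain ⟨C, hC⟩ := h1.bound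
    obtain ⟨R, hR, h2⟩ := Metric.eventually_nhds_iff.mp hC
    refine ⟨C, R, hR, fun w hw => ?_⟩
    have h3 := h2 (y := w) (by rwa [dist_zero_right])
    have h0 : K 0 = 0 := by simp [hK]
    simpa [h0] using h3
  obtain ⟨C, R, hR, hCR⟩ := hKO
  have hbd : IsBounded (range f) := by
    rw [isBounded_iff_forall_norm_le]
    obtain ⟨C', hC'⟩ := (isCompact_closedBall (0 : ℂ) (R⁻¹ + 1)).exists_bound_of_continuousOn
      hfd.continuous.continuousOn
    refine ⟨max C C', ?_⟩
    rintro _ ⟨z, rfl⟩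
    by_cases hz : ‖z‖ ≤ R⁻¹ + 1
    · exact (hC' z (by simpa using hz)).trans (le_max_right _ _)
    · push Not at hz
      have hRi : 0 < R⁻¹ := inv_pos.mpr hR
      have hz0 : z ≠ 0 := by
        intro h
        rw [h, norm_zero] at hz
        linarith
      have hzn : 0 < ‖z‖ := norm_pos_iff.mpr hz0
      have h1 : ‖z⁻¹‖ < R := by
        rw [norm_inv, inv_lt_comm₀ hzn hR]
        linarith
      have h2 := hCR z⁻¹ h1
      have h3 : K z⁻¹ = (k z - k 0)⁻¹ := by
        simp only [hK, if_neg (inv_ne_zero hz0), inv_inv]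
      have h4 : f z = z * K z⁻¹ := by
        rw [h3]
        simp only [hf]
        rw [hdz z hz0, inv_div, div_eq_mul_inv]
      rw [h4, norm_mul]
      calc ‖z‖ * ‖K z⁻¹‖ ≤ ‖z‖ * (C * ‖z⁻¹‖) := mul_le_mul_of_nonneg_left h2 hzn.le
        _ = C := by
            rw [norm_inv]
            field_simp
        _ ≤ _ := le_max_left _ _
  obtain ⟨c, hc⟩ := hfd.exists_const_forall_eq_of_bounded hbd
  refine ⟨c, ?_, fun z => ?_⟩
  · rw [← hc 0]
    exact inv_ne_zero (hd_ne 0)
  · by_cases hz : z = 0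
    · rw [hz]
      simp
    · have h1 := hc z
      simp only [hf] at h1
      rw [hdz z hz, inv_div] at h1
      have h2 : k z - k 0 ≠ 0 := sub_ne_zero.mpr (fun h => hz (hinj h))
      rw [← h1]
      field_simp

/-! ### punctured planes -/

/-- the data: two punctured planes and mutually inverse maps exchanging puncture and infinity -/
structure PP (a b : ℂ) (h g : ℂ → ℂ) : Prop where
  hm : ∀ z, z ≠ a → h z ≠ b
  gm : ∀ w, w ≠ b → g w ≠ a
  gh : ∀ z, z ≠ a → g (h z) = z
  hg : ∀ w, w ≠ b → h (g w) = w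
  gc : ContinuousOn g {b}ᶜ
  hinf : Tendsto h (𝓝[≠] a) (cocompact ℂ)
  ginf : Tendsto g (cocompact ℂ) (𝓝 a)

lemma PP.conj {a b : ℂ} {h g : ℂ → ℂ} (p : PP a b h g) :
    PP (starRingEnd ℂ a) b (fun z => h (starRingEnd ℂ z)) (fun w => starRingEnd ℂ (g w)) := by
  have hc : ∀ z, z ≠ starRingEnd ℂ a → starRingEnd ℂ z ≠ a := by
    intro z hz h
    apply hz
    rw [← h, Complex.conj_conj]
  refine ⟨fun z hz => p.hm _ (hc z hz), fun w hw h => ?_, fun z hz => ?_, fun w hw => ?_, ?_, ?_,
    ?_⟩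
  · apply p.gm w hw
    exact (starRingEnd ℂ).injective h
  · rw [p.gh _ (hc z hz), Complex.conj_conj]
  · rw [Complex.conj_conj, p.hg w hw]
  · exact Complex.continuous_conj.comp_continuousOn p.gc
  · refine p.hinf.comp ?_
    rw [tendsto_nhdsWithin_iff]
    refine ⟨?_, ?_⟩
    · have h1 : Tendsto (fun z => starRingEnd ℂ z) (𝓝 (starRingEnd ℂ a)) (𝓝 a) := by
        have := Complex.continuous_conj.tendsto (starRingEnd ℂ a)
        rwa [Complex.conj_conj] at this
      exact h1.mono_left nhdsWithin_le_nhds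
    · filter_upwards [self_mem_nhdsWithin] with z hz
      exact hc z hz
  · exact (Complex.continuous_conj.tendsto a).comp p.ginf

theorem moebius_holo {a b : ℂ} {h g : ℂ → ℂ} (p : PP a b h g)
    (hd : ∀ z, z ≠ a → DifferentiableAt ℂ h z) (hd' : ∀ z, z ≠ a → deriv h z ≠ 0) :
    ∃ c : ℂ, c ≠ 0 ∧ ∀ z, z ≠ a → h z = b + c / (z - a) := by
  have gd : ∀ w, w ≠ b → DifferentiableAt ℂ g w := by
    intro w hw
    have h1 : ContinuousAt g w := p.gc.continuousAt (isOpen_ne.mem_nhds hw)
    have h2 := (hd (g w) (p.gm w hw)).hasDerivAt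
    exact (h2.of_local_left_inverse h1 (hd' _ (p.gm w hw)) (by
      filter_upwards [isOpen_ne.mem_nhds hw] with v hv
      exact p.hg v hv)).differentiableAt
  set k : ℂ → ℂ := fun z => if z = a then 0 else (h z - b)⁻¹ with hk
  set l : ℂ → ℂ := fun w => if w = 0 then a else g (b + w⁻¹) with hl
  have hka : k a = 0 := by simp [hk]
  have hl0 : l 0 = a := by simp [hl]
  have hkz : ∀ z, z ≠ a → k z = (h z - b)⁻¹ := fun z hz => by simp [hk, hz]
  have hlw : ∀ w, w ≠ 0 → l w = g (b + w⁻¹) := fun w hw => by simp [hl, hw]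
  have hbw : ∀ w : ℂ, w ≠ 0 → b + w⁻¹ ≠ b := by
    intro w hw h
    have : w⁻¹ = 0 := by linear_combination h
    exact inv_ne_zero hw this
  have kd : Differentiable ℂ k := by
    intro z
    by_cases hz : z = a
    · rw [hz]
      refine (Complex.analyticAt_of_differentiable_on_punctured_nhds_of_continuousAt ?_
        ?_).differentiableAt
      · filter_upwards [self_mem_nhdsWithin] with w hw
        have hw' : w ≠ a := hw
        refine DifferentiableAt.congr_of_eventuallyEq
          (((hd w hw').sub_const b).inv (sub_ne_zero.mpr (p.hm w hw'))) ?_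
        filter_upwards [isOpen_ne.mem_nhds hw'] with v hv
        exact hkz v hv
      · rw [← continuousWithinAt_compl_self, ContinuousWithinAt, hka,
          tendsto_zero_iff_norm_tendsto_zero]
        have h1 : Tendsto (fun z => ‖h z - b‖) (𝓝[≠] a) atTop := by
          have h1 : Tendsto (fun z => ‖h z‖) (𝓝[≠] a) atTop :=
            tendsto_norm_cocompact_atTop.comp p.hinf
          refine tendsto_atTop_mono (fun z => ?_) (tendsto_atTop_add_const_right _ (-‖b‖) h1)
          have := norm_sub_norm_le (h z) b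
          linarith
        refine (tendsto_inv_atTop_zero.comp h1).congr' ?_
        filter_upwards [self_mem_nhdsWithin] with w hw
        have hw' : w ≠ a := hw
        simp only [Function.comp, hkz w hw', norm_inv]
    · refine DifferentiableAt.congr_of_eventuallyEq
          (((hd z hz).sub_const b).inv (sub_ne_zero.mpr (p.hm z hz))) ?_
      filter_upwards [isOpen_ne.mem_nhds hz] with v hv
      exact hkz v hv
  have ld : Differentiable ℂ l := by
    have hloc : ∀ w, w ≠ 0 → DifferentiableAt ℂ l w := by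
      intro w hw
      have h1 : DifferentiableAt ℂ (fun w : ℂ => b + w⁻¹) w :=
        (differentiableAt_inv hw).const_add b
      have h2 : DifferentiableAt ℂ (fun w : ℂ => g (b + w⁻¹)) w :=
        DifferentiableAt.comp w (gd _ (hbw w hw)) h1
      refine h2.congr_of_eventuallyEq ?_
      filter_upwards [isOpen_ne.mem_nhds hw] with v hv
      exact hlw v hv
    intro w
    by_cases hw : w = 0
    · rw [hw]
      refine (Complex.analyticAt_of_differentiable_on_punctured_nhds_of_continuousAt ?_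
        ?_).differentiableAt
      · filter_upwards [self_mem_nhdsWithin] with w hw
        exact hloc w hw
      · rw [← continuousWithinAt_compl_self, ContinuousWithinAt, hl0]
        have h1 : Tendsto (fun w : ℂ => b + w⁻¹) (𝓝[≠] 0) (cocompact ℂ) := by
          have h2 : Tendsto (fun w : ℂ => w⁻¹) (𝓝[≠] 0) (cocompact ℂ) := by
            rw [← Metric.cobounded_eq_cocompact]
            exact tendsto_inv₀_nhdsNE_zero
          exact (Homeomorph.addLeft b).isClosedEmbedding.tendsto_cocompact.comp h2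
        refine (p.ginf.comp h1).congr' ?_
        filter_upwards [self_mem_nhdsWithin] with w hw
        exact (hlw w hw).symm
    · exact hloc w hw
  have lk : ∀ z, l (k z) = z := by
    intro z
    by_cases hz : z = a
    · rw [hz, hka, hl0]
    · have h1 : k z ≠ 0 := by
        rw [hkz z hz]
        exact inv_ne_zero (sub_ne_zero.mpr (p.hm z hz))
      rw [hlw _ h1, hkz z hz, inv_inv, add_sub_cancel, p.gh z hz]
  have kl : ∀ w, k (l w) = w := by
    intro w
    by_cases hw : w = 0
    · rw [hw, hl0, hka]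
    · rw [hlw w hw, hkz _ (p.gm _ (hbw w hw)), p.hg _ (hbw w hw), add_sub_cancel_left, inv_inv]
  obtain ⟨c, hc, H⟩ := affine_of_biholo kd ld lk kl
  refine ⟨c, hc, fun z hz => ?_⟩
  have h1 := H z
  have h2 := H a
  rw [hka] at h2
  have h3 : z - a = c * k z := by linear_combination h1 - h2
  rw [hkz z hz] at h3
  have h4 : h z - b ≠ 0 := sub_ne_zero.mpr (p.hm z hz)
  have h5 : z - a ≠ 0 := sub_ne_zero.mpr hz
  have h6 : h z - b = c / (z - a) := by
    rw [h3]
    field_simp
  rw [← h6]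
  ring

/-- the derivative is complex linear -/
def Lin (f : ℂ → ℂ) (z : ℂ) : Prop := fderiv ℝ f z Complex.I = Complex.I * fderiv ℝ f z 1

/-- the derivative is complex antilinear -/
def Ant (f : ℂ → ℂ) (z : ℂ) : Prop := fderiv ℝ f z Complex.I = -Complex.I * fderiv ℝ f z 1

lemma lin_or_ant {f : ℂ → ℂ} {z : ℂ} (hc : ConformalAt f z) : Lin f z ∨ Ant f z := by
  obtain ⟨f', hf', hcf⟩ := hc
  have e : fderiv ℝ f z = f' := hf'.fderiv
  have hI : ∀ m : ℂ →L[ℂ] ℂ, m Complex.I = Complex.I * m 1 := by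
    intro m
    have : m Complex.I = Complex.I • m 1 := by rw [← map_smul, smul_eq_mul, mul_one]
    rw [this, smul_eq_mul]
  rcases hcf.is_complex_or_conj_linear with ⟨m, hm⟩ | ⟨m, hm⟩
  · left
    show fderiv ℝ f z Complex.I = _
    rw [e, ← hm]
    exact hI m
  · right
    show fderiv ℝ f z Complex.I = _
    have h1 : f' Complex.I = - m Complex.I := by
      have h2 : m (starRingEnd ℂ Complex.I) = f' (starRingEnd ℂ (starRingEnd ℂ Complex.I)) := by
        have := congrArg (fun q : ℂ →L[ℝ] ℂ => q (starRingEnd ℂ Complex.I)) hm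
        exact this
      rw [Complex.conj_conj, Complex.conj_I, map_neg] at h2
      rw [← h2]
    have h2 : f' 1 = m 1 := by
      have h3 : m (starRingEnd ℂ 1) = f' (starRingEnd ℂ (starRingEnd ℂ 1)) := by
        have := congrArg (fun q : ℂ →L[ℝ] ℂ => q (starRingEnd ℂ 1)) hm
        exact this
      have h4 : starRingEnd ℂ 1 = 1 := map_one _
      rw [h4, h4] at h3
      exact h3.symm
    rw [e, h1, h2, hI]
    ring

lemma fd_ne {f : ℂ → ℂ} {z : ℂ} (hc : ConformalAt f z) : fderiv ℝ f z ≠ 0 := by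
  obtain ⟨f', hf', hcf⟩ := hc
  rw [hf'.fderiv]
  exact hcf.ne_zero

lemma not_both {f : ℂ → ℂ} {z : ℂ} (hc : ConformalAt f z) (h1 : Lin f z) (h2 : Ant f z) :
    False := by
  apply fd_ne hc
  have e1 : fderiv ℝ f z Complex.I = Complex.I * fderiv ℝ f z 1 := h1
  have e2 : fderiv ℝ f z Complex.I = -Complex.I * fderiv ℝ f z 1 := h2
  have h3 : fderiv ℝ f z 1 = 0 := by
    have e3 : (2 * Complex.I) * fderiv ℝ f z 1 = 0 := by linear_combination e2 - e1
    exact (mul_eq_zero.mp e3).resolve_left (mul_ne_zero two_ne_zero Complex.I_ne_zero)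
  have h4 : fderiv ℝ f z Complex.I = 0 := by
    rw [e1, h3, mul_zero]
  refine ContinuousLinearMap.ext (fun x => ?_)
  rw [← Complex.re_add_im x, map_add]
  have e5 : fderiv ℝ f z ((x.re : ℂ)) = 0 := by
    have : (x.re : ℂ) = x.re • (1 : ℂ) := by simp
    rw [this, map_smul, h3, smul_zero]
  have e6 : fderiv ℝ f z ((x.im : ℂ) * Complex.I) = 0 := by
    have : (x.im : ℂ) * Complex.I = x.im • Complex.I := by simp
    rw [this, map_smul, h4, smul_zero]
  rw [e5, e6]
  simp

/-- the dichotomy holomorphic / antiholomorphic on a punctured plane -/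
theorem lin_or_ant_all {a : ℂ} {f : ℂ → ℂ} (hc : ∀ z, z ≠ a → ConformalAt f z)
    (hC : ContinuousOn (fderiv ℝ f) {a}ᶜ) :
    (∀ z, z ≠ a → Lin f z) ∨ (∀ z, z ≠ a → Ant f z) := by
  have hconn : IsPreconnected ({a}ᶜ : Set ℂ) :=
    (isConnected_compl_singleton_of_one_lt_rank
      (Complex.rank_real_complex ▸ Nat.one_lt_ofNat) a).isPreconnected
  have hev : ∀ v : ℂ, ContinuousOn (fun z => fderiv ℝ f z v) {a}ᶜ := fun v =>
    hC.clm_apply continuousOn_const
  have hop : ∀ s : ℂ, IsOpen ({a}ᶜ ∩ {z | fderiv ℝ f z Complex.I ≠ s * fderiv ℝ f z 1}) := by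
    intro s
    have h1 : ContinuousOn (fun z => fderiv ℝ f z Complex.I - s * fderiv ℝ f z 1) {a}ᶜ :=
      (hev _).sub (continuousOn_const.mul (hev _))
    have h2 := h1.isOpen_inter_preimage isOpen_compl_singleton (isOpen_ne (x := (0 : ℂ)))
    refine (congrArg IsOpen ?_).mp h2
    ext z
    simp only [mem_inter_iff, mem_preimage, mem_setOf_eq, sub_ne_zero]
  by_contra hcon
  push Not at hcon
  obtain ⟨⟨z1, hz1, hz1A⟩, ⟨z2, hz2, hz2A⟩⟩ := hcon
  have h3 := hconn _ _ (hop Complex.I) (hop (-Complex.I)) (fun z hz => by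
    by_cases hzA : Lin f z
    · right
      exact ⟨hz, fun h => not_both (hc z hz) hzA h⟩
    · left
      exact ⟨hz, hzA⟩)
    ⟨z1, hz1, hz1, hz1A⟩ ⟨z2, hz2, hz2, hz2A⟩
  obtain ⟨z, hz, ⟨_, hzA⟩, ⟨_, hzA'⟩⟩ := h3
  rcases lin_or_ant (hc z hz) with h | h
  · exact hzA h
  · exact hzA' h

lemma diff_of_lin {f : ℂ → ℂ} {z : ℂ} (hc : ConformalAt f z) (hl : Lin f z) :
    DifferentiableAt ℂ f z := by
  rw [differentiableAt_complex_iff_differentiableAt_real]
  exact ⟨hc.differentiableAt, by rw [smul_eq_mul]; exact hl⟩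

lemma deriv_ne_of_lin {f : ℂ → ℂ} {z : ℂ} (hc : ConformalAt f z) (hl : Lin f z) :
    deriv f z ≠ 0 := by
  intro h0
  have hd := (diff_of_lin hc hl).hasDerivAt
  rw [h0] at hd
  have h1 : HasFDerivAt f (0 : ℂ →L[ℝ] ℂ) z := by
    have := hd.hasFDerivAt.restrictScalars ℝ
    refine this.congr_fderiv ?_
    ext x
    simp
  exact fd_ne hc h1.fderiv

lemma lin_conj_of_ant {f : ℂ → ℂ} {z : ℂ} (hc : ConformalAt f (starRingEnd ℂ z))
    (ha : Ant f (starRingEnd ℂ z)) :
    ConformalAt (fun w => f (starRingEnd ℂ w)) z ∧ Lin (fun w => f (starRingEnd ℂ w)) z := by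
  have hconj : HasFDerivAt (fun w : ℂ => starRingEnd ℂ w)
      (Complex.conjCLE : ℂ →L[ℝ] ℂ) z := Complex.conjCLE.hasFDerivAt
  have h1 : HasFDerivAt (fun w => f (starRingEnd ℂ w))
      ((fderiv ℝ f (starRingEnd ℂ z)).comp (Complex.conjCLE : ℂ →L[ℝ] ℂ)) z :=
    hc.differentiableAt.hasFDerivAt.comp z hconj
  refine ⟨?_, ?_⟩
  · obtain ⟨f', hf', hcf⟩ := hc
    refine ⟨_, h1, ?_⟩
    rw [hf'.fderiv]
    exact hcf.comp isConformalMap_conj
  · show fderiv ℝ _ z Complex.I = _
    rw [h1.fderiv]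
    have e1 : fderiv ℝ f (starRingEnd ℂ z) Complex.I =
      -Complex.I * fderiv ℝ f (starRingEnd ℂ z) 1 := ha
    show fderiv ℝ f (starRingEnd ℂ z) (starRingEnd ℂ Complex.I) =
      Complex.I * fderiv ℝ f (starRingEnd ℂ z) (starRingEnd ℂ 1)
    have h4 : starRingEnd ℂ 1 = 1 := map_one _
    rw [Complex.conj_I, map_neg, e1, h4]
    ring

/-- **conformal homeomorphisms between punctured planes, metric form** -/
theorem moebius_metric {a b : ℂ} {f g : ℂ → ℂ} (p : PP a b f g)
    (hc : ∀ z, z ≠ a → ConformalAt f z) (hC : ContinuousOn (fderiv ℝ f) {a}ᶜ) :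
    ∃ c : ℝ, 0 < c ∧ (∀ z, z ≠ a → ‖f z - b‖ = c / ‖z - a‖) ∧
      (∀ z z', z ≠ a → z' ≠ a → ‖f z - f z'‖ = c * ‖z - z'‖ / (‖z - a‖ * ‖z' - a‖)) := by
  have fin : ∀ c : ℂ, c ≠ 0 → ∀ (f : ℂ → ℂ) (a : ℂ), (∀ z, z ≠ a → f z = b + c / (z - a)) →
      (∀ z, z ≠ a → ‖f z - b‖ = ‖c‖ / ‖z - a‖) ∧
      (∀ z z', z ≠ a → z' ≠ a → ‖f z - f z'‖ = ‖c‖ * ‖z - z'‖ / (‖z - a‖ * ‖z' - a‖)) := by
    intro c hc0 f a hf
    refine ⟨fun z hz => ?_, fun z z' hz hz' => ?_⟩
    · rw [hf z hz, add_sub_cancel_left, norm_div]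
    · rw [hf z hz, hf z' hz', add_sub_add_left_eq_sub]
      have h1 : z - a ≠ 0 := sub_ne_zero.mpr hz
      have h2 : z' - a ≠ 0 := sub_ne_zero.mpr hz'
      have e : c / (z - a) - c / (z' - a) = c * (z' - z) / ((z - a) * (z' - a)) := by
        field_simp
        ring
      rw [e, norm_div, norm_mul, norm_mul, norm_sub_rev z' z]
  rcases lin_or_ant_all hc hC with hl | ha
  · obtain ⟨c, hc0, H⟩ := moebius_holo p (fun z hz => diff_of_lin (hc z hz) (hl z hz))
      (fun z hz => deriv_ne_of_lin (hc z hz) (hl z hz))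
    exact ⟨‖c‖, norm_pos_iff.mpr hc0, fin c hc0 f a H⟩
  · have hz' : ∀ z, z ≠ starRingEnd ℂ a → starRingEnd ℂ z ≠ a := by
      intro z hz h
      apply hz
      rw [← h, Complex.conj_conj]
    have h1 := fun z hz => lin_conj_of_ant (hc _ (hz' z hz)) (ha _ (hz' z hz))
    obtain ⟨c, hc0, H⟩ := moebius_holo p.conj (fun z hz => diff_of_lin (h1 z hz).1 (h1 z hz).2)
      (fun z hz => deriv_ne_of_lin (h1 z hz).1 (h1 z hz).2)
    obtain ⟨F1, F2⟩ := fin c hc0 _ _ H
    have hn : ∀ x y : ℂ, ‖starRingEnd ℂ x - starRingEnd ℂ y‖ = ‖x - y‖ := by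
      intro x y
      rw [← map_sub, RCLike.norm_conj]
    have hcz : ∀ z, z ≠ a → starRingEnd ℂ z ≠ starRingEnd ℂ a := fun z hz h =>
      hz ((starRingEnd ℂ).injective h)
    refine ⟨‖c‖, norm_pos_iff.mpr hc0, fun z hz => ?_, fun z z' hz hz' => ?_⟩
    · have := F1 (starRingEnd ℂ z) (hcz z hz)
      simp only [Complex.conj_conj, hn] at this
      exact this
    · have := F2 (starRingEnd ℂ z) (starRingEnd ℂ z') (hcz z hz) (hcz z' hz')
      simp only [Complex.conj_conj, hn] at this
      exact this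

end Vale.Agent.P207.N3.H158
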