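import Mathlib
import Vale.Agent.P207.N3.H158.Mob

set_option linter.all false

/-!
# Maps of planar domains with a strong metric derivative are conformal

`MD h z lam`: near `z` the map `h` multiplies distances by `lam + o(1)` (both points moving).
`moebius_of_metric`: a homeomorphism of punctured planes exchanging puncture and infinity, with a
strong metric derivative `> 0` at every point, is a Moebius map composed with an isometry.
-/

namespace Vale.Agent.P207.N3.H158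
open Filter Topology Set Bornology MeasureTheory Metric
open scoped NNReal ENNReal

/-- strong metric derivative -/
def MD (h : ℂ → ℂ) (z0 : ℂ) (lam : ℝ) : Prop :=
  ∀ ε > 0, ∃ r > 0, ∀ z z', dist z z0 < r → dist z' z0 < r →
    |‖h z - h z'‖ - lam * ‖z - z'‖| ≤ ε * ‖z - z'‖

lemma MD.lip {h : ℂ → ℂ} {z0 : ℂ} {lam : ℝ} (hm : MD h z0 lam) :
    ∃ r > 0, LipschitzOnWith (Real.toNNReal (|lam| + 1)) h (ball z0 r) := by
  obtain ⟨r, hr, H⟩ := hm 1 one_pos
  refine ⟨r, hr, LipschitzOnWith.of_dist_le_mul (fun x hx y hy => ?_)⟩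
  have h1 := H x y hx hy
  rw [Real.coe_toNNReal _ (by positivity), dist_eq_norm, dist_eq_norm]
  have h2 := (abs_le.mp h1).2
  have h3 : lam * ‖x - y‖ ≤ |lam| * ‖x - y‖ :=
    mul_le_mul_of_nonneg_right (le_abs_self _) (norm_nonneg _)
  linarith

lemma MD.norm_fderiv {h : ℂ → ℂ} {z : ℂ} {lam : ℝ} (hm : MD h z lam) {L : ℂ →L[ℝ] ℂ}
    (hL : HasFDerivAt h L z) (v : ℂ) : ‖L v‖ = lam * ‖v‖ := by
  -- difference quotients along `t v`
  have h1 : Tendsto (fun t : ℝ => t⁻¹ • (h (z + t • v) - h z)) (𝓝[>] 0) (𝓝 (L v)) :=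
    (hL.hasLineDerivAt v).tendsto_slope_zero_right
  have h2 := h1.norm
  have h3 : Tendsto (fun t : ℝ => ‖t⁻¹ • (h (z + t • v) - h z)‖) (𝓝[>] 0) (𝓝 (lam * ‖v‖)) := by
    rw [Metric.tendsto_nhds]
    intro ε hε
    obtain ⟨r, hr, H⟩ := hm (ε / (2 * (‖v‖ + 1))) (by positivity)
    have h4 : ∀ᶠ t : ℝ in 𝓝[>] 0, dist (z + t • v) z < r := by
      have : Tendsto (fun t : ℝ => z + t • v) (𝓝 0) (𝓝 (z + (0 : ℝ) • v)) := by
        exact (Continuous.tendsto (by fun_prop) 0)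
      rw [zero_smul, add_zero] at this
      exact (Metric.tendsto_nhds.mp this r hr).filter_mono nhdsWithin_le_nhds
    filter_upwards [h4, self_mem_nhdsWithin] with t ht ht0
    have ht0' : (0 : ℝ) < t := ht0
    have h5 := H (z + t • v) z ht (by simpa using hr)
    rw [add_sub_cancel_left, norm_smul, Real.norm_of_nonneg ht0'.le] at h5
    rw [Real.dist_eq, norm_smul, norm_inv, Real.norm_of_nonneg ht0'.le]
    have e : t⁻¹ * ‖h (z + t • v) - h z‖ - lam * ‖v‖ =
        t⁻¹ * (‖h (z + t • v) - h z‖ - lam * (t * ‖v‖)) := by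
      field_simp
    rw [e, abs_mul, abs_of_pos (inv_pos.mpr ht0')]
    calc t⁻¹ * |‖h (z + t • v) - h z‖ - lam * (t * ‖v‖)|
        ≤ t⁻¹ * (ε / (2 * (‖v‖ + 1)) * (t * ‖v‖)) :=
          mul_le_mul_of_nonneg_left h5 (inv_pos.mpr ht0').le
      _ = ε / 2 * (‖v‖ / (‖v‖ + 1)) := by field_simp
      _ ≤ ε / 2 * 1 := by
          refine mul_le_mul_of_nonneg_left ?_ (by positivity)
          rw [div_le_one (by positivity)]
          linarith [norm_nonneg v]
      _ < ε := by linarith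
  exact tendsto_nhds_unique h2 h3

lemma MD.conformalAt {h : ℂ → ℂ} {z : ℂ} {lam : ℝ} (hlam : 0 < lam) (hm : MD h z lam)
    (hd : DifferentiableAt ℝ h z) : ConformalAt h z := by
  refine ⟨fderiv ℝ h z, hd.hasFDerivAt, ?_⟩
  have hn := fun v => hm.norm_fderiv hd.hasFDerivAt v
  set L := fderiv ℝ h z
  let li : ℂ →ₗᵢ[ℝ] ℂ :=
    { toLinearMap := ((lam⁻¹ • L : ℂ →L[ℝ] ℂ) : ℂ →ₗ[ℝ] ℂ)
      norm_map' := by
        intro v
        show ‖lam⁻¹ • L v‖ = ‖v‖
        rw [norm_smul, hn v, norm_inv, Real.norm_of_nonneg hlam.le]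
        field_simp }
  refine ⟨lam, hlam.ne', li, ?_⟩
  refine ContinuousLinearMap.ext (fun v => ?_)
  show L v = lam • (lam⁻¹ • L v)
  rw [smul_smul, mul_inv_cancel₀ hlam.ne', one_smul]

/-- the orientation form -/
noncomputable def Phi (h : ℂ → ℂ) (p : ℂ × ℝ) : ℝ :=
  ((starRingEnd ℂ) (h (p.1 + p.2) - h p.1) * (h (p.1 + Complex.I * p.2) - h p.1)).im

lemma im_ne_of_near {a b : ℂ} {l : ℝ} (hl : 0 < l)
    (h1 : |‖a‖ - l| ≤ l / 100) (h2 : |‖b‖ - l| ≤ l / 100)
    (h3 : |‖a - b‖ - Real.sqrt 2 * l| ≤ Real.sqrt 2 * l / 100) :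
    ((starRingEnd ℂ) a * b).im ≠ 0 := by
  intro h0
  have hre : ((starRingEnd ℂ) a * b).re = (‖a‖ ^ 2 + ‖b‖ ^ 2 - ‖a - b‖ ^ 2) / 2 := by
    rw [Complex.sq_norm, Complex.sq_norm, Complex.sq_norm, Complex.normSq_apply,
      Complex.normSq_apply, Complex.normSq_apply]
    simp only [Complex.mul_re, Complex.conj_re, Complex.conj_im, Complex.sub_re, Complex.sub_im]
    ring
  have hn : ‖a‖ ^ 2 * ‖b‖ ^ 2 = ((starRingEnd ℂ) a * b).re ^ 2 + ((starRingEnd ℂ) a * b).im ^ 2 := by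
    rw [Complex.sq_norm, Complex.sq_norm, Complex.normSq_apply, Complex.normSq_apply]
    simp only [Complex.mul_re, Complex.mul_im, Complex.conj_re, Complex.conj_im]
    ring
  rw [h0, hre] at hn
  obtain ⟨a1, a2⟩ := abs_le.mp h1
  obtain ⟨b1, b2⟩ := abs_le.mp h2
  obtain ⟨c1, c2⟩ := abs_le.mp h3
  have ha : (99 / 100 * l) ^ 2 ≤ ‖a‖ ^ 2 := by
    apply pow_le_pow_left₀ (by positivity)
    linarith
  have ha' : ‖a‖ ^ 2 ≤ (101 / 100 * l) ^ 2 := by
    apply pow_le_pow_left₀ (norm_nonneg _)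
    linarith
  have hb : (99 / 100 * l) ^ 2 ≤ ‖b‖ ^ 2 := by
    apply pow_le_pow_left₀ (by positivity)
    linarith
  have hb' : ‖b‖ ^ 2 ≤ (101 / 100 * l) ^ 2 := by
    apply pow_le_pow_left₀ (norm_nonneg _)
    linarith
  have hs : Real.sqrt 2 ^ 2 = 2 := Real.sq_sqrt (by norm_num)
  have hc : 2 * (99 / 100 * l) ^ 2 ≤ ‖a - b‖ ^ 2 := by
    have : (Real.sqrt 2 * (99 / 100 * l)) ^ 2 ≤ ‖a - b‖ ^ 2 := by
      apply pow_le_pow_left₀ (by positivity)
      linarith
    rwa [mul_pow, hs] at this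
  have hc' : ‖a - b‖ ^ 2 ≤ 2 * (101 / 100 * l) ^ 2 := by
    have : ‖a - b‖ ^ 2 ≤ (Real.sqrt 2 * (101 / 100 * l)) ^ 2 := by
      apply pow_le_pow_left₀ (norm_nonneg _)
      linarith
    rwa [mul_pow, hs] at this
  set A := ‖a‖ ^ 2
  set B := ‖b‖ ^ 2
  set C := ‖a - b‖ ^ 2
  have hl2 : 0 < l ^ 2 := by positivity
  have hX1 : (A + B - C) / 2 ≤ 1 / 2 * l ^ 2 := by nlinarith
  have hX2 : -(1 / 2 * l ^ 2) ≤ (A + B - C) / 2 := by nlinarith
  have hX : ((A + B - C) / 2) ^ 2 ≤ (1 / 2 * l ^ 2) ^ 2 := sq_le_sq' hX2 hX1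
  have hAB : (99 / 100 * l) ^ 2 * (99 / 100 * l) ^ 2 ≤ A * B :=
    mul_le_mul ha hb (by positivity) (by positivity)
  have : 0 < l ^ 2 * l ^ 2 := by positivity
  nlinarith

lemma lin_ant_local {h : ℂ → ℂ} {z0 : ℂ} {l0 : ℝ} (hl0 : 0 < l0) (hm : MD h z0 l0)
    (hpos : ∀ᶠ z in 𝓝 z0, ∃ l > 0, MD h z l) :
    ∃ r > 0, (∀ z ∈ ball z0 r, DifferentiableAt ℝ h z → Lin h z) ∨
      (∀ z ∈ ball z0 r, DifferentiableAt ℝ h z → Ant h z) := by
  obtain ⟨r0, hr0, H⟩ := hm (l0 / 100) (by positivity)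
  obtain ⟨r1, hr1, H1⟩ := Metric.eventually_nhds_iff.mp hpos
  obtain ⟨r2, hr2, hLip⟩ := hm.lip
  set r := min r0 (min r1 r2) / 2 with hr
  have hrp : 0 < r := by positivity
  have hr0' : 2 * r ≤ r0 := by rw [hr]; linarith [min_le_left r0 (min r1 r2)]
  have hr1' : 2 * r ≤ r1 := by
    rw [hr]; linarith [min_le_right r0 (min r1 r2), min_le_left r1 r2]
  have hr2' : 2 * r ≤ r2 := by
    rw [hr]; linarith [min_le_right r0 (min r1 r2), min_le_right r1 r2]
  set S : Set (ℂ × ℝ) := ball z0 r ×ˢ Ioo 0 r with hS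
  have hconv : IsPreconnected S := ((convex_ball z0 r).prod (convex_Ioo 0 r)).isPreconnected
  have hin : ∀ p ∈ S, p.1 ∈ ball z0 (2 * r) ∧ p.1 + p.2 ∈ ball z0 (2 * r) ∧
      p.1 + Complex.I * p.2 ∈ ball z0 (2 * r) := by
    rintro ⟨z, t⟩ ⟨hz, ht⟩
    simp only [mem_ball, dist_eq_norm] at hz ⊢
    have ht1 : |t| < r := by
      rw [abs_of_pos ht.1]
      exact ht.2
    refine ⟨by linarith, ?_, ?_⟩
    · calc ‖z + t - z0‖ = ‖(z - z0) + t‖ := by ring_nf
        _ ≤ ‖z - z0‖ + ‖(t : ℂ)‖ := norm_add_le _ _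
        _ < 2 * r := by
            rw [Complex.norm_real, Real.norm_eq_abs]
            linarith
    · calc ‖z + Complex.I * t - z0‖ = ‖(z - z0) + Complex.I * t‖ := by ring_nf
        _ ≤ ‖z - z0‖ + ‖Complex.I * (t : ℂ)‖ := norm_add_le _ _
        _ < 2 * r := by
            rw [norm_mul, Complex.norm_I, one_mul, Complex.norm_real, Real.norm_eq_abs]
            linarith
  have hhc : ContinuousOn h (ball z0 (2 * r)) := hLip.continuousOn.mono (ball_subset_ball hr2')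
  have hPc : ContinuousOn (Phi h) S := by
    have c1 : ContinuousOn (fun p : ℂ × ℝ => h p.1) S :=
      hhc.comp continuousOn_fst (fun p hp => (hin p hp).1)
    have c2 : ContinuousOn (fun p : ℂ × ℝ => h (p.1 + p.2)) S :=
      hhc.comp (by fun_prop) (fun p hp => (hin p hp).2.1)
    have c3 : ContinuousOn (fun p : ℂ × ℝ => h (p.1 + Complex.I * p.2)) S :=
      hhc.comp (by fun_prop) (fun p hp => (hin p hp).2.2)
    exact Complex.continuous_im.comp_continuousOn
      ((Complex.continuous_conj.comp_continuousOn (c2.sub c1)).mul (c3.sub c1))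
  have hne : ∀ p ∈ S, Phi h p ≠ 0 := by
    intro p hp
    obtain ⟨i1, i2, i3⟩ := hin p hp
    have hm1 : ∀ q, q ∈ ball z0 (2 * r) → dist q z0 < r0 := fun q hq =>
      lt_of_lt_of_le hq hr0'
    have ht0 : 0 < p.2 := hp.2.1
    have e1 := H _ _ (hm1 _ i2) (hm1 _ i1)
    have e2 := H _ _ (hm1 _ i3) (hm1 _ i1)
    have e3 := H _ _ (hm1 _ i2) (hm1 _ i3)
    have n1 : ‖p.1 + (p.2 : ℂ) - p.1‖ = p.2 := by
      rw [add_sub_cancel_left, Complex.norm_real, Real.norm_of_nonneg ht0.le]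
    have n2 : ‖p.1 + Complex.I * (p.2 : ℂ) - p.1‖ = p.2 := by
      rw [add_sub_cancel_left, norm_mul, Complex.norm_I, one_mul, Complex.norm_real,
        Real.norm_of_nonneg ht0.le]
    have n3 : ‖p.1 + (p.2 : ℂ) - (p.1 + Complex.I * (p.2 : ℂ))‖ = Real.sqrt 2 * p.2 := by
      have : p.1 + (p.2 : ℂ) - (p.1 + Complex.I * (p.2 : ℂ)) = (1 - Complex.I) * (p.2 : ℂ) := by
        ring
      rw [this, norm_mul, Complex.norm_real, Real.norm_of_nonneg ht0.le]
      congr 1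
      rw [Complex.norm_def, Complex.normSq_apply]
      simp
      norm_num
    rw [n1] at e1
    rw [n2] at e2
    rw [n3] at e3
    have hsub : (h (p.1 + p.2) - h p.1) - (h (p.1 + Complex.I * p.2) - h p.1) =
      h (p.1 + p.2) - h (p.1 + Complex.I * p.2) := by ring
    refine im_ne_of_near (l := l0 * p.2) (by positivity) ?_ ?_ ?_
    · refine e1.trans (le_of_eq (by ring))
    · refine e2.trans (le_of_eq (by ring))
    · rw [hsub]
      have : Real.sqrt 2 * (l0 * p.2) = l0 * (Real.sqrt 2 * p.2) := by ring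
      rw [this]
      refine e3.trans (le_of_eq (by ring))
  -- the sign is constant
  have hsign : (∀ p ∈ S, 0 < Phi h p) ∨ (∀ p ∈ S, Phi h p < 0) := by
    by_contra hcon
    push Not at hcon
    obtain ⟨⟨p, hp, hp1⟩, ⟨q, hq, hq1⟩⟩ := hcon
    have := hconv.intermediate_value hp hq hPc
    obtain ⟨s, hs, hs0⟩ := this ⟨hp1, hq1⟩
    exact hne s hs hs0
  -- the limit of `Phi / t^2` at a point of differentiability
  have hlim : ∀ z ∈ ball z0 r, DifferentiableAt ℝ h z →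
      Tendsto (fun t : ℝ => Phi h (z, t) / t ^ 2) (𝓝[>] 0)
        (𝓝 (((starRingEnd ℂ) (fderiv ℝ h z 1) * fderiv ℝ h z Complex.I).im)) := by
    intro z hz hd
    have t1 : Tendsto (fun t : ℝ => t⁻¹ • (h (z + t • (1 : ℂ)) - h z)) (𝓝[>] 0)
      (𝓝 (fderiv ℝ h z 1)) := (hd.hasFDerivAt.hasLineDerivAt 1).tendsto_slope_zero_right
    have t2 : Tendsto (fun t : ℝ => t⁻¹ • (h (z + t • Complex.I) - h z)) (𝓝[>] 0)
      (𝓝 (fderiv ℝ h z Complex.I)) := (hd.hasFDerivAt.hasLineDerivAt _).tendsto_slope_zero_right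
    have t3 := (Complex.continuous_im.tendsto _).comp
      (((Complex.continuous_conj.tendsto _).comp t1).mul t2)
    refine t3.congr' ?_
    filter_upwards [self_mem_nhdsWithin] with t ht
    have ht0 : (0 : ℝ) < t := ht
    simp only [Function.comp, Phi]
    have e1 : t • (1 : ℂ) = (t : ℂ) := by simp
    have e2 : t • Complex.I = Complex.I * (t : ℂ) := by
      rw [Complex.real_smul, mul_comm]
    rw [e1, e2]
    simp only [Complex.real_smul, map_mul, Complex.conj_ofReal]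
    set a := h (z + (t : ℂ)) - h z
    set b := h (z + Complex.I * (t : ℂ)) - h z
    have : ((t⁻¹ : ℝ) : ℂ) * (starRingEnd ℂ) a * (((t⁻¹ : ℝ) : ℂ) * b) =
      ((t⁻¹ ^ 2 : ℝ) : ℂ) * ((starRingEnd ℂ) a * b) := by
      push_cast
      ring
    rw [this, Complex.im_ofReal_mul]
    rw [inv_pow]
    ring
  refine ⟨r, hrp, ?_⟩
  have hIm : ∀ x : ℂ, ((starRingEnd ℂ) x * (Complex.I * x)).im = ‖x‖ ^ 2 := by
    intro x
    rw [Complex.sq_norm, Complex.normSq_apply]
    simp only [Complex.mul_im, Complex.mul_re, Complex.conj_re, Complex.conj_im, Complex.I_re,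
      Complex.I_im]
    ring
  have hpos1 : ∀ z ∈ ball z0 r, DifferentiableAt ℝ h z → 0 < ‖fderiv ℝ h z 1‖ := by
    intro z hz hd
    obtain ⟨l, hl, hml⟩ := H1 (y := z) (lt_of_lt_of_le hz (by linarith))
    rw [hml.norm_fderiv hd.hasFDerivAt]
    simp [hl]
  have hev : ∀ z ∈ ball z0 r, ∀ᶠ t : ℝ in 𝓝[>] 0, (z, t) ∈ S := by
    intro z hz
    have : ∀ᶠ t : ℝ in 𝓝[>] 0, t < r := (gt_mem_nhds hrp).filter_mono nhdsWithin_le_nhds
    filter_upwards [this, self_mem_nhdsWithin] with t ht ht0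
    exact ⟨hz, ht0, ht⟩
  rcases hsign with hs | hs
  · left
    intro z hz hd
    obtain ⟨l, hl, hml⟩ := H1 (y := z) (lt_of_lt_of_le hz (by linarith))
    rcases lin_or_ant (hml.conformalAt hl hd) with h1 | h1
    · exact h1
    · exfalso
      have h2 := hlim z hz hd
      have h3 : fderiv ℝ h z Complex.I = -(Complex.I * fderiv ℝ h z 1) := by
        have : fderiv ℝ h z Complex.I = -Complex.I * fderiv ℝ h z 1 := h1
        rw [this]
        ring
      rw [h3, mul_neg, Complex.neg_im, hIm] at h2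
      have h4 := ge_of_tendsto h2 (b := 0) (by
        filter_upwards [hev z hz, self_mem_nhdsWithin] with t ht ht0
        have ht0' : (0 : ℝ) < t := ht0
        exact div_nonneg (hs _ ht).le (by positivity))
      have := hpos1 z hz hd
      nlinarith
  · right
    intro z hz hd
    obtain ⟨l, hl, hml⟩ := H1 (y := z) (lt_of_lt_of_le hz (by linarith))
    rcases lin_or_ant (hml.conformalAt hl hd) with h1 | h1
    · exfalso
      have h2 := hlim z hz hd
      have h3 : fderiv ℝ h z Complex.I = Complex.I * fderiv ℝ h z 1 := h1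
      rw [h3, hIm] at h2
      have h4 := le_of_tendsto h2 (b := 0) (by
        filter_upwards [hev z hz, self_mem_nhdsWithin] with t ht ht0
        have ht0' : (0 : ℝ) < t := ht0
        exact div_nonpos_of_nonpos_of_nonneg (hs _ ht).le (by positivity))
      have := hpos1 z hz hd
      nlinarith
    · exact h1

end Vale.Agent.P207.N3.H158
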