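import Mathlib
import Vale.Agent.P207.N3.H158.Met

set_option linter.all false

/-!
# Lipschitz maps with almost everywhere complex linear derivative are holomorphic
-/

namespace Vale.Agent.P207.N3.H158
open Filter Topology Set Bornology MeasureTheory Metric
open scoped NNReal ENNReal

/-- average over a small ball -/
noncomputable def avg (h : ℂ → ℂ) (ε : ℝ) (z : ℂ) : ℂ :=
  ((volume (ball (0 : ℂ) ε)).toReal)⁻¹ • ∫ w in ball (0 : ℂ) ε, h (z + w)

lemma vol_pos {ε : ℝ} (hε : 0 < ε) : 0 < (volume (ball (0 : ℂ) ε)).toReal :=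
  ENNReal.toReal_pos (measure_ball_pos _ _ hε).ne' measure_ball_lt_top.ne

lemma finBall (ε : ℝ) : IsFiniteMeasure (volume.restrict (ball (0 : ℂ) ε)) :=
  ⟨by rw [Measure.restrict_apply_univ]; exact measure_ball_lt_top⟩

section
variable {h : ℂ → ℂ} {z0 : ℂ} {r : ℝ} {K : ℝ≥0}

lemma shift_mem {ε : ℝ} (hε : ε < r) {z w : ℂ} (hz : z ∈ ball z0 r) (hw : w ∈ ball (0 : ℂ) ε) :
    z + w ∈ ball z0 (2 * r) := by
  simp only [mem_ball, dist_eq_norm, sub_zero] at *
  calc ‖z + w - z0‖ = ‖(z - z0) + w‖ := by ring_nf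
    _ ≤ ‖z - z0‖ + ‖w‖ := norm_add_le _ _
    _ < 2 * r := by linarith

lemma int_shift (hL : LipschitzOnWith K h (ball z0 (2 * r))) {ε : ℝ} (hε : ε < r)
    {z : ℂ} (hz : z ∈ ball z0 r) :
    AEStronglyMeasurable (fun w => h (z + w)) (volume.restrict (ball (0 : ℂ) ε)) ∧
    IntegrableOn (fun w => h (z + w)) (ball (0 : ℂ) ε) := by
  have hc : ContinuousOn (fun w => h (z + w)) (ball (0 : ℂ) ε) :=
    hL.continuousOn.comp (by fun_prop) (fun w hw => shift_mem hε hz hw)
  have hm := hc.aestronglyMeasurable (μ := volume) measurableSet_ball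
  refine ⟨hm, ?_⟩
  haveI := finBall ε
  refine Integrable.of_bound hm (‖h z‖ + K * ε) ?_
  filter_upwards [ae_restrict_mem measurableSet_ball] with w hw
  have hz2 : z ∈ ball z0 (2 * r) := by
    have h0 := hz
    rw [mem_ball] at h0 ⊢
    have : 0 ≤ dist z z0 := dist_nonneg
    linarith
  have h1 := hL.dist_le_mul _ (shift_mem hε hz hw) _ hz2
  rw [dist_eq_norm, dist_eq_norm, add_sub_cancel_left] at h1
  have h2 : ‖w‖ ≤ ε := by
    have := hw
    rw [mem_ball, dist_zero_right] at this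
    exact this.le
  calc ‖h (z + w)‖ = ‖h z + (h (z + w) - h z)‖ := by ring_nf
    _ ≤ ‖h z‖ + ‖h (z + w) - h z‖ := norm_add_le _ _
    _ ≤ ‖h z‖ + K * ε := by
        have := mul_le_mul_of_nonneg_left h2 K.coe_nonneg
        linarith

lemma avg_diff (hL : LipschitzOnWith K h (ball z0 (2 * r)))
    (hd : ∀ᵐ z, z ∈ ball z0 (2 * r) → DifferentiableAt ℂ h z) {ε : ℝ} (hε : ε < r)
    {z : ℂ} (hz : z ∈ ball z0 r) : DifferentiableAt ℂ (avg h ε) z := by
  haveI := finBall ε
  have key : DifferentiableAt ℂ (fun z => ∫ w in ball (0 : ℂ) ε, h (z + w)) z := by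
    have hnb : ball z0 r ∈ 𝓝 z := isOpen_ball.mem_nhds hz
    have := hasDerivAt_integral_of_dominated_loc_of_lip (μ := volume.restrict (ball (0 : ℂ) ε))
      (F := fun z w => h (z + w)) (F' := fun w => deriv h (z + w)) (x₀ := z) (s := ball z0 r)
      (bound := fun _ => (K : ℝ)) hnb ?_ ?_ ?_ ?_ ?_ ?_
    · exact this.2.differentiableAt
    · filter_upwards [hnb] with x hx
      exact (int_shift hL hε hx).1
    · exact (int_shift hL hε hz).2
    · exact ((measurable_deriv h).comp (measurable_const_add z)).aestronglyMeasurable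
    · filter_upwards [ae_restrict_mem measurableSet_ball] with w hw
      refine LipschitzOnWith.of_dist_le_mul (fun x hx y hy => ?_)
      have h1 := hL.dist_le_mul _ (shift_mem hε hx hw) _ (shift_mem hε hy hw)
      rw [dist_add_right] at h1
      simpa using h1
    · exact integrable_const _
    · rw [ae_restrict_iff' measurableSet_ball]
      have h1 := (measurePreserving_add_left volume z).quasiMeasurePreserving.ae hd
      filter_upwards [h1] with w hw hwb
      have h2 := hw (shift_mem hε hz hwb)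
      have h3 := h2.hasDerivAt
      exact h3.comp_add_const z w
  have e : avg h ε = fun z => (((volume (ball (0 : ℂ) ε)).toReal)⁻¹ : ℝ) •
      ∫ w in ball (0 : ℂ) ε, h (z + w) := rfl
  rw [e]
  exact key.fun_const_smul _

lemma avg_close (hL : LipschitzOnWith K h (ball z0 (2 * r))) {ε : ℝ} (hε0 : 0 < ε) (hε : ε < r)
    {z : ℂ} (hz : z ∈ ball z0 r) : ‖avg h ε z - h z‖ ≤ K * ε := by
  have hV := vol_pos hε0
  set V := (volume (ball (0 : ℂ) ε)).toReal with hVd
  have hr : 0 < r := hε0.trans hε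
  haveI := finBall ε
  have hz2 : z ∈ ball z0 (2 * r) := ball_subset_ball (by linarith) hz
  have e1 : avg h ε z - h z = V⁻¹ • ∫ w in ball (0 : ℂ) ε, (h (z + w) - h z) := by
    rw [integral_sub (int_shift hL hε hz).2 (integrable_const _), smul_sub]
    congr 1
    rw [setIntegral_const, smul_smul]
    show h z = (V⁻¹ * V) • h z
    rw [inv_mul_cancel₀ hV.ne', one_smul]
  rw [e1, norm_smul, norm_inv, Real.norm_of_nonneg hV.le]
  have h2 : ‖∫ w in ball (0 : ℂ) ε, (h (z + w) - h z)‖ ≤ (K * ε) * V := by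
    refine norm_setIntegral_le_of_norm_le_const measure_ball_lt_top (fun w hw => ?_)
    have h1 := hL.dist_le_mul _ (shift_mem hε hz hw) _ hz2
    rw [dist_eq_norm, dist_eq_norm, add_sub_cancel_left] at h1
    refine h1.trans (mul_le_mul_of_nonneg_left ?_ K.coe_nonneg)
    have := hw
    rw [mem_ball, dist_zero_right] at this
    exact this.le
  calc V⁻¹ * ‖∫ w in ball (0 : ℂ) ε, (h (z + w) - h z)‖ ≤ V⁻¹ * ((K * ε) * V) :=
        mul_le_mul_of_nonneg_left h2 (inv_pos.mpr hV).le
    _ = K * ε := by field_simp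

theorem holo_of_ae (hr : 0 < r) (hL : LipschitzOnWith K h (ball z0 (2 * r)))
    (hd : ∀ᵐ z, z ∈ ball z0 (2 * r) → DifferentiableAt ℂ h z) :
    DifferentiableOn ℂ h (ball z0 r) := by
  set ε : ℕ → ℝ := fun n => r / (n + 2) with hεd
  have hε0 : ∀ n, 0 < ε n := fun n => by positivity
  have hε : ∀ n, ε n < r := by
    intro n
    rw [hεd]
    have : (0 : ℝ) < n + 2 := by positivity
    rw [div_lt_iff₀ this]
    nlinarith [n.cast_nonneg (α := ℝ)]
  have hlim : Tendsto (fun n => (K : ℝ) * ε n) atTop (𝓝 0) := by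
    have h1 : Tendsto (fun n : ℕ => (n : ℝ) + 2) atTop atTop :=
      tendsto_atTop_add_const_right _ _ tendsto_natCast_atTop_atTop
    have h2 := (h1.const_div_atTop r).const_mul (K : ℝ)
    rwa [mul_zero] at h2
  have hu : TendstoUniformlyOn (fun n => avg h (ε n)) h atTop (ball z0 r) := by
    rw [Metric.tendstoUniformlyOn_iff]
    intro δ hδ
    filter_upwards [(tendsto_order.1 hlim).2 δ hδ] with n hn z hz
    rw [dist_comm, dist_eq_norm]
    exact (avg_close hL (hε0 n) (hε n) hz).trans_lt hn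
  exact hu.tendstoLocallyUniformlyOn.differentiableOn
    (Eventually.of_forall fun n z hz => (avg_diff hL hd (hε n) hz).differentiableWithinAt)
    isOpen_ball

end

/-- local form -/
theorem contDiff_of_md {h : ℂ → ℂ} {z0 : ℂ} {l0 : ℝ} (hl0 : 0 < l0) (hm : MD h z0 l0)
    (hpos : ∀ᶠ z in 𝓝 z0, ∃ l > 0, MD h z l) : ContDiffAt ℝ 1 h z0 := by
  obtain ⟨r1, hr1, hor⟩ := lin_ant_local hl0 hm hpos
  obtain ⟨r2, hr2, hLip⟩ := hm.lip
  obtain ⟨r3, hr3, H3⟩ := Metric.eventually_nhds_iff.mp hpos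
  set r := min r1 (min r2 r3) / 2 with hr
  have hrp : 0 < r := by positivity
  have hr1' : 2 * r ≤ r1 := by rw [hr]; linarith [min_le_left r1 (min r2 r3)]
  have hr2' : 2 * r ≤ r2 := by
    rw [hr]; linarith [min_le_right r1 (min r2 r3), min_le_left r2 r3]
  have hr3' : 2 * r ≤ r3 := by
    rw [hr]; linarith [min_le_right r1 (min r2 r3), min_le_right r2 r3]
  have hL := hLip.mono (ball_subset_ball hr2')
  have hae : ∀ᵐ z, z ∈ ball z0 (2 * r) → DifferentiableAt ℝ h z := by
    filter_upwards [hL.ae_differentiableWithinAt_of_mem (μ := volume)] with z hz hzb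
    exact (hz hzb).differentiableAt (isOpen_ball.mem_nhds hzb)
  have hconf : ∀ z ∈ ball z0 (2 * r), DifferentiableAt ℝ h z → ConformalAt h z := by
    intro z hz hd
    obtain ⟨l, hl, hml⟩ := H3 (y := z) (lt_of_lt_of_le hz hr3')
    exact hml.conformalAt hl hd
  rcases hor with hlin | hant
  · have h1 : DifferentiableOn ℂ h (ball z0 r) := by
      refine holo_of_ae hrp hL ?_
      filter_upwards [hae] with z hz hzb
      exact diff_of_lin (hconf z hzb (hz hzb)) (hlin z (ball_subset_ball hr1' hzb) (hz hzb))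
    have h2 : ContDiffAt ℂ 1 h z0 :=
      (h1.analyticAt (isOpen_ball.mem_nhds (mem_ball_self hrp))).contDiffAt
    exact h2.restrict_scalars ℝ
  · set k : ℂ → ℂ := fun z => (starRingEnd ℂ) (h z) with hk
    have h1 : DifferentiableOn ℂ k (ball z0 r) := by
      refine holo_of_ae (K := Real.toNNReal (|l0| + 1)) hrp ?_ ?_
      · refine LipschitzOnWith.of_dist_le_mul (fun x hx y hy => ?_)
        have := hL.dist_le_mul _ hx _ hy
        rwa [hk, dist_eq_norm, ← map_sub, RCLike.norm_conj, ← dist_eq_norm]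
      · filter_upwards [hae] with z hz hzb
        have hd := hz hzb
        have ha : Ant h z := hant z (ball_subset_ball hr1' hzb) hd
        have hkd : HasFDerivAt k ((Complex.conjCLE : ℂ →L[ℝ] ℂ).comp (fderiv ℝ h z)) z :=
          Complex.conjCLE.hasFDerivAt.comp z hd.hasFDerivAt
        rw [differentiableAt_complex_iff_differentiableAt_real]
        refine ⟨hkd.differentiableAt, ?_⟩
        rw [hkd.fderiv, smul_eq_mul]
        show (starRingEnd ℂ) (fderiv ℝ h z Complex.I) = Complex.I * (starRingEnd ℂ) (fderiv ℝ h z 1)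
        have e1 : fderiv ℝ h z Complex.I = -Complex.I * fderiv ℝ h z 1 := ha
        rw [e1, map_mul, map_neg, Complex.conj_I, neg_neg]
    have h2 : ContDiffAt ℂ 1 k z0 :=
      (h1.analyticAt (isOpen_ball.mem_nhds (mem_ball_self hrp))).contDiffAt
    have h3 : ContDiffAt ℝ 1 k z0 := h2.restrict_scalars ℝ
    have h4 : ContDiffAt ℝ 1 (fun z => Complex.conjCLE (k z)) z0 :=
      Complex.conjCLE.contDiff.contDiffAt.comp z0 h3
    refine h4.congr_of_eventuallyEq (Eventually.of_forall fun z => ?_)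
    show h z = (starRingEnd ℂ) ((starRingEnd ℂ) (h z))
    rw [Complex.conj_conj]

/-- **homeomorphisms of punctured planes with a strong metric derivative are Moebius maps** -/
theorem moebius_of_metric {a b : ℂ} {h g : ℂ → ℂ} (p : PP a b h g)
    (hmd : ∀ z, z ≠ a → ∃ l > 0, MD h z l) :
    ∃ c : ℝ, 0 < c ∧ (∀ z, z ≠ a → ‖h z - b‖ = c / ‖z - a‖) ∧
      (∀ z z', z ≠ a → z' ≠ a → ‖h z - h z'‖ = c * ‖z - z'‖ / (‖z - a‖ * ‖z' - a‖)) := by
  have hC : ∀ z, z ≠ a → ContDiffAt ℝ 1 h z := by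
    intro z hz
    obtain ⟨l, hl, hm⟩ := hmd z hz
    refine contDiff_of_md hl hm ?_
    filter_upwards [isOpen_ne.mem_nhds hz] with w hw
    exact hmd w hw
  refine moebius_metric p (fun z hz => ?_) (fun z hz => ?_)
  · obtain ⟨l, hl, hm⟩ := hmd z hz
    exact hm.conformalAt hl ((hC z hz).differentiableAt (by norm_num))
  · exact ((hC z hz).fderiv_right (m := 0) (by norm_num)).continuousAt.continuousWithinAt

end Vale.Agent.P207.N3.H158
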