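import Vale.Agent.P207.N3.H158.RegE
import Vale.Agent.P207.N3.H738.Out

/-!
# P207, line N3, package P14 (4.3): the field `good2` of `Outs`, from the forward coordinates
-/

open Set Filter Topology Metric
open scoped ContDiff

set_option maxSynthPendingDepth 3
set_option linter.unusedSectionVars false

noncomputable section

namespace Vale.Agent.P207.N3.H158

open Vale.Agent.P207.N3
open Vale.Agent.P207.N3.H854 (ee)
open Vale.Agent.P207.N3.H545 (CkB Wf)

theorem iter_inv_zero (μ₁ μ₂ : ℝ) (k m : ℕ) (v : E2) :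
    ((H790.NF.tri μ₁ μ₂ 0 k).inv^[m] v) 0 = (μ₁ ^ m)⁻¹ * v 0 := by
  induction m generalizing v with
  | zero => simp
  | succ m ih =>
    rw [Function.iterate_succ_apply, ih, H790.NF.inv_tri_zero, zero_mul, sub_zero, pow_succ,
      mul_inv]
    ring

theorem iter_inv_one (μ₁ μ₂ : ℝ) (k m : ℕ) (v : E2) :
    ((H790.NF.tri μ₁ μ₂ 0 k).inv^[m] v) 1 = (μ₂ ^ m)⁻¹ * v 1 := by
  induction m generalizing v with
  | zero => simp
  | succ m ih =>
    rw [Function.iterate_succ_apply, ih, H790.NF.inv_tri_one, pow_succ, mul_inv]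
    ring

theorem dg_zero {μ₁ μ₂ : ℝ} (k : ℕ) (h1 : 1 < |μ₁|) (h2 : 1 < |μ₂|) :
    Dg 0 μ₁ μ₂ (fun m => (H790.NF.tri μ₁ μ₂ 0 k).inv^[m]) :=
  ⟨h1, h2, fun m v => iter_inv_zero μ₁ μ₂ k m v, fun m v => iter_inv_one μ₁ μ₂ k m v⟩

theorem dg_one {μ₁ μ₂ : ℝ} (k : ℕ) (h1 : 1 < |μ₁|) (h2 : 1 < |μ₂|) :
    Dg 1 μ₂ μ₁ (fun m => (H790.NF.tri μ₁ μ₂ 0 k).inv^[m]) :=
  ⟨h2, h1, fun m v => iter_inv_one μ₁ μ₂ k m v, fun m v => iter_inv_zero μ₁ μ₂ k m v⟩

variable {Γ X B : Type} [Group Γ] [MetricSpace X] [ProperSpace X] [MulAction Γ X]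
  [IsIsometricSMul Γ X] [TopologicalSpace B] [CompactSpace B] [T2Space B] [MulAction Γ B]
  [ContinuousConstSMul Γ B] [MeasurableSpace B] [BorelSpace B] {L : Leaf Γ X B}

/-- the multiplier of the level function -/
theorem mult_eq {A : Area L} {T : Tens L} {k₀ : ℕ} {o : Orb L} (t : LevForm A T k₀ o) :
    t.ε * Real.exp (t.χ * o.l) = (t.n.N.fn (ee t.i)) t.i := by
  have h1 := t.equiv _ (t.n.inv_ne (ee t.i))
  rw [t.n.equiv _ (t.n.inv_ne _), t.n.inv_right, H854.ee_same, mul_one] at h1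
  exact h1.symm

/-- the special types are diagonal, and the other multiplier is less than the square -/
theorem dg_special {A : Area L} {T : Tens L} {k₀ : ℕ} (p : Typed A T k₀) (hp : p.Special) :
    ∃ b : ℝ, Dg p.t.i (p.t.ε * Real.exp (p.t.χ * p.o.l)) b (fun m => p.t.n.N.inv^[m]) ∧
      |b| < |p.t.ε * Real.exp (p.t.χ * p.o.l)| ^ 2 := by
  rw [mult_eq]
  have hok := p.t.n.ok
  have sq : ∀ x y : ℝ, 1 < x → y ≤ x → y < x ^ 2 := fun x y hx hy => by nlinarith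
  rcases hp with ⟨-, ⟨μ₁, μ₂, k, hN⟩, hi, -⟩ | ⟨⟨μ, k, hN⟩, hi, -⟩ | ⟨⟨hs, hi, -⟩, hlam⟩
  · rw [hN] at hok ⊢
    rw [hi]
    obtain ⟨h1, h2, -⟩ := hok
    have e1 : ((H790.NF.tri μ₁ μ₂ 0 k).fn (ee 0)) 0 = μ₁ := by
      rw [H790.NF.fn_tri_zero, H854.ee_00]; ring
    rw [e1]
    exact ⟨μ₂, dg_zero k (h1.trans_le h2) h1, sq _ _ (h1.trans_le h2) h2⟩
  · rw [hN] at hok ⊢
    rw [hi]
    obtain ⟨h1, -, -⟩ := hok
    have e1 : ((H790.NF.tri μ μ 0 k).fn (ee 1)) 1 = μ := by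
      rw [H790.NF.fn_tri_one, H854.ee_11, mul_one]
    rw [e1]
    exact ⟨μ, dg_one k h1 h1, sq _ _ h1 le_rfl⟩
  · have hl := p.o.ax.pos
    obtain ⟨N, hN⟩ : ∃ N, p.t.n.N = N := ⟨_, rfl⟩
    unfold Nor.lam1 Nor.lam2 at hlam
    unfold H790.NF.Split at hs
    rw [hN] at hok hs hlam ⊢
    rw [hi]
    cases N with
    | cx c s => exact absurd hs (lt_irrefl _)
    | tri μ₁ μ₂ a k =>
      obtain ⟨h1, h2, h3⟩ := hok
      have hs' : |μ₂| < |μ₁| := hs
      have hμ2 : 0 < |μ₂| := one_pos.trans h1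
      have hμ1 : 0 < |μ₁| := hμ2.trans hs'
      have hlt : |μ₁| < |μ₂| ^ 2 := by
        have h4 : Real.log |μ₁| / p.o.l < 2 * (Real.log |μ₂| / p.o.l) := hlam
        have h5 : Real.log |μ₁| < 2 * Real.log |μ₂| := by
          have h6 : 2 * (Real.log |μ₂| / p.o.l) = (2 * Real.log |μ₂|) / p.o.l := by ring
          rw [h6] at h4
          exact (div_lt_div_iff_of_pos_right hl).1 h4
        have h7 : Real.log |μ₁| < Real.log (|μ₂| ^ 2) := by
          rw [Real.log_pow]; exact_mod_cast h5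
        exact (Real.log_lt_log_iff hμ1 (by positivity)).1 h7
      have ha : a = 0 := by
        by_contra ha
        obtain ⟨hk, he⟩ := h3 ha
        have h4 : |μ₁| = |μ₂| ^ k := by rw [he, abs_pow]
        rcases hk.lt_or_eq with h5 | h5
        · have h6 : |μ₂| ^ 2 ≤ |μ₂| ^ k := pow_le_pow_right₀ h1.le h5
          rw [← h4] at h6
          linarith
        · rw [← h5, pow_one] at h4
          linarith
      subst ha
      have e1 : ((H790.NF.tri μ₁ μ₂ 0 k).fn (ee 1)) 1 = μ₂ := by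
        rw [H790.NF.fn_tri_one, H854.ee_11, mul_one]
      rw [e1]
      exact ⟨μ₁, dg_one k (h1.trans hs') h1, hlt⟩

/-- **the homoclinic points of the special typed orbits are regular** -/
theorem reg_of_special {A : Area L} {T : Tens L} {k₀ : ℕ} (hR : Rough T k₀) (p : Typed A T k₀)
    (hp : p.Special) {c : ℝ} (W : H147.Fwd p.o p.t.n.x p.t.n.N.fn c) {k : Γ}
    (hk : k • p.o.pos ≠ p.o.neg) : H738.Reg p.t k := by
  obtain ⟨b, hD, hb⟩ := dg_special p hp
  have hf : L.SmoothOn p.o.neg (fun η => p.t.n.x η p.t.i) := fun y hy =>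
    contDiffOn_coord (k := ⊤) (p.t.n.smooth y hy) p.t.i
  obtain ⟨d, hd, hlim⟩ := exists_reg W hk hR
    (fun y hy => Wf_smooth A hf p.t.V_smooth p.t.form hy) hD hb
  refine ⟨d, hd, ?_⟩
  rw [Metric.tendstoUniformlyOn_iff]
  intro ε hε
  filter_upwards [hlim (ε / 2) (by positivity)] with m hm u hu
  have hu3 : u ∈ ball (0 : E2) 3 := closedBall_subset_ball (by norm_num) hu
  have h1 := hm u hu3
  rw [dist_comm, Real.dist_eq]
  exact h1.trans_lt (by linarith)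

/-- all homoclinic points of the special typed orbits are regular -/
theorem regSpecial (A : Area L) (T : Tens L)
    (hF : ∀ (o : Orb L) (n : Nor L o), ∃ c : ℝ, Nonempty (H147.Fwd o n.x n.N.fn c)) :
    H738.RegSpecial A T := by
  intro k₀ hR p hp k hk
  obtain ⟨c, ⟨W⟩⟩ := hF p.o p.t.n
  exact reg_of_special hR p hp W hk

/-- **the field `good2` of `Outs`** -/
theorem out_good2 (A : Area L) (T : Tens L)
    (hF : ∀ (o : Orb L) (n : Nor L o), ∃ c : ℝ, Nonempty (H147.Fwd o n.x n.N.fn c)) :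
    ∀ k₀, Rough T k₀ → Types A T k₀ → ∀ p : Typed A T k₀, p.Special → p.DenseGood :=
  H738.out_good2 A T (regSpecial A T hF)

end Vale.Agent.P207.N3.H158
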