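import Vale.Agent.P207.N3.Spec
import Vale.Agent.P207.N3.H158.Avg

set_option linter.all false

/-!
# P207, line N3, package P8 (8d): flat leaves have conformal stable holonomy

`FlatD L k`: a continuous family of flat metrics on the leaves, scaled by `e^{k t}` by the flow.
`ratio_one`: the distances of asymptotic frames agree to first order at the common end point.
-/

namespace Vale.Agent.P207.N3.H158
open Set Filter Topology Metric

noncomputable section

variable {Γ X B : Type} [Group Γ] [MetricSpace X] [ProperSpace X] [MulAction Γ X]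
  [IsIsometricSMul Γ X] [TopologicalSpace B] [CompactSpace B] [T2Space B] [MulAction Γ B]
  [ContinuousConstSMul Γ B]

/-- a continuous equivariant family of flat metrics on the leaves -/
structure FlatD (L : Leaf Γ X B) (k : ℝ) where
  k_pos : 0 < k
  /-- the distance of the leaf of `w`, in the unit of `w` -/
  d : X → B → B → ℝ
  d_cont : ContinuousOn (fun p : X × B × B => d p.1 p.2.1 p.2.2)
    {p | p.2.1 ≠ L.em p.1 ∧ p.2.2 ≠ L.em p.1}
  d_smul : ∀ (g : Γ) w η η', η ≠ L.em w → η' ≠ L.em w → d (g • w) (g • η) (g • η') = d w η η'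
  d_leaf : ∀ w w', L.em w = L.em w' → ∀ η η', η ≠ L.em w → η' ≠ L.em w →
    d w η η' = Real.exp (k * (L.lv w - L.lv w')) * d w' η η'
  d_proper : ∀ w η, η ≠ L.em w → Tendsto (fun p : X × B × B => d p.1 p.2.1 p.2.2)
    (𝓝[{p | p.2.1 ≠ L.em p.1 ∧ p.2.2 ≠ L.em p.1}] (w, η, L.em w)) atTop
  /-- the isometry of the leaf with the plane -/
  Z : X → B → E2
  Z_dist : ∀ w η η', η ≠ L.em w → η' ≠ L.em w → dist (Z w η) (Z w η') = d w η η'
  Z_bij : ∀ w, BijOn (Z w) {L.em w}ᶜ univ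

section basic

variable (L : Leaf Γ X B)

lemma ep_cont : Continuous L.ep := by
  have : L.ep = fun x => L.em (L.flip x) := funext L.ep_flip
  rw [this]
  exact L.em_cont.comp L.flip_cont

lemma ep_smul (g : Γ) (x : X) : L.ep (g • x) = g • L.ep x := by
  rw [L.ep_flip, L.ep_flip, L.flip_smul, L.em_smul]

lemma ep_φ (t : ℝ) (x : X) : L.ep (L.φ t x) = L.ep x := by
  rw [L.ep_flip, L.ep_flip, L.flip_φ, L.em_φ]

lemma ep_rot (a : O2) (x : X) : L.ep (L.rot a x) = L.ep x := by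
  rw [L.ep_flip, L.ep_flip, L.flip_rot, L.em_rot]

end basic

section flat

variable {L : Leaf Γ X B} {k : ℝ} (F : FlatD L k)

include F in
lemma FlatD.self {w : X} {η : B} (h : η ≠ L.em w) : F.d w η η = 0 := by
  rw [← F.Z_dist w η η h h, dist_self]

lemma FlatD.nonneg {w : X} {η η' : B} (h : η ≠ L.em w) (h' : η' ≠ L.em w) :
    0 ≤ F.d w η η' := by
  rw [← F.Z_dist w η η' h h']
  exact dist_nonneg

lemma FlatD.symm {w : X} {η η' : B} (h : η ≠ L.em w) (h' : η' ≠ L.em w) :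
    F.d w η η' = F.d w η' η := by
  rw [← F.Z_dist w η η' h h', ← F.Z_dist w η' η h' h, dist_comm]

lemma FlatD.pos {w : X} {η η' : B} (h : η ≠ L.em w) (h' : η' ≠ L.em w) (hne : η ≠ η') :
    0 < F.d w η η' := by
  rw [← F.Z_dist w η η' h h', dist_pos]
  exact fun he => hne ((F.Z_bij w).injOn h h' he)

lemma isOpen_off (L : Leaf Γ X B) :
    IsOpen {p : X × B × B | p.2.1 ≠ L.em p.1 ∧ p.2.2 ≠ L.em p.1} := by
  have h1 : IsOpen {p : X × B × B | p.2.1 ≠ L.em p.1} :=
    isOpen_ne_fun (continuous_fst.comp continuous_snd) (L.em_cont.comp continuous_fst)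
  have h2 : IsOpen {p : X × B × B | p.2.2 ≠ L.em p.1} :=
    isOpen_ne_fun (continuous_snd.comp continuous_snd) (L.em_cont.comp continuous_fst)
  exact h1.inter h2

lemma FlatD.contAt {w : X} {η η' : B} (h : η ≠ L.em w) (h' : η' ≠ L.em w) :
    ContinuousAt (fun p : X × B × B => F.d p.1 p.2.1 p.2.2) (w, η, η') :=
  F.d_cont.continuousAt ((isOpen_off L).mem_nhds ⟨h, h'⟩)

/-- **the distances of asymptotic frames agree to first order at the common end point** -/
theorem FlatD.ratio_one (y : X) (ξ' : B) (hξ : ξ' ≠ L.ep y) :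
    Tendsto (fun p : B × B => F.d (L.hol ξ' y) p.1 p.2 / F.d y p.1 p.2)
      (𝓝 (L.ep y, L.ep y) ⊓ 𝓟 {p | p.1 ≠ p.2}) (𝓝 1) := by
  have kp := F.k_pos
  rw [tendsto_iff_ultrafilter]
  intro U hU
  set η := L.ep y with hη
  set ξ := L.em y with hξd
  have hne : ξ ≠ η := L.em_ne_ep y
  have U1 : Tendsto (fun p : B × B => p) U (𝓝 (η, η)) := hU.trans inf_le_left
  have U1a : Tendsto (fun p : B × B => p.1) U (𝓝 η) := (continuous_fst.tendsto (η, η)).comp U1
  have U1b : Tendsto (fun p : B × B => p.2) U (𝓝 η) := (continuous_snd.tendsto (η, η)).comp U1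
  have U2 : ∀ᶠ p : B × B in U, p.1 ≠ p.2 := hU (mem_inf_of_right (mem_principal_self _))
  have a1 : ∀ᶠ p : B × B in U, p.1 ≠ ξ := U1a.eventually_ne hne.symm
  have a2 : ∀ᶠ p : B × B in U, p.2 ≠ ξ := U1b.eventually_ne hne.symm
  have b1 : ∀ᶠ p : B × B in U, p.1 ≠ ξ' := U1a.eventually_ne hξ.symm
  have b2 : ∀ᶠ p : B × B in U, p.2 ≠ ξ' := U1b.eventually_ne hξ.symm
  -- the small distance and the time
  set δ : B × B → ℝ := fun p => F.d y p.1 p.2 with hδ
  have hδ0 : Tendsto δ U (𝓝 0) := by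
    have h1 := F.contAt (w := y) (η := η) (η' := η) hne.symm hne.symm
    have h2 : Tendsto (fun p : B × B => (y, p.1, p.2)) U (𝓝 (y, η, η)) :=
      tendsto_const_nhds.prodMk_nhds (U1a.prodMk_nhds U1b)
    have h3 := h1.tendsto.comp h2
    rw [show F.d (y, η, η).1 (y, η, η).2.1 (y, η, η).2.2 = 0 from F.self hne.symm] at h3
    exact h3
  have hδp : ∀ᶠ p in U, 0 < δ p := by
    filter_upwards [a1, a2, U2] with p h1 h2 h3
    exact F.pos h1 h2 h3
  set t : B × B → ℝ := fun p => -(Real.log (δ p)) / k with ht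
  have ht_inf : Tendsto t U atTop := by
    have h1 : Tendsto δ U (𝓝[>] 0) := tendsto_nhdsWithin_iff.mpr ⟨hδ0, hδp⟩
    have h2 := Real.tendsto_log_nhdsGT_zero.comp h1
    have h3 := tendsto_neg_atBot_atTop.comp h2
    exact h3.atTop_div_const kp
  have hexp : ∀ᶠ p in U, Real.exp (k * t p) * δ p = 1 := by
    filter_upwards [hδp] with p hp
    have : k * t p = -(Real.log (δ p)) := by
      rw [ht]
      field_simp
    rw [this, Real.exp_neg, Real.exp_log hp]
    exact inv_mul_cancel₀ hp.ne'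
  -- the frames at level `lv y`
  have hz0 : ∀ p : B × B, ∃ x : X, p.1 ≠ ξ → L.em x = ξ ∧ L.ep x = p.1 ∧ L.lv x = L.lv y := by
    intro p
    by_cases hp : p.1 = ξ
    · exact ⟨y, fun h => absurd hp h⟩
    · obtain ⟨x, hx⟩ := L.exists_frame ξ p.1 (fun h => hp h.symm) (L.lv y)
      exact ⟨x, fun _ => hx⟩
  choose z0 hz0 using hz0
  -- a compact neighbourhood of `η`
  obtain ⟨N, hNn, hNs, hNc⟩ : ∃ N ∈ 𝓝 η, N ⊆ {ξ}ᶜ ∩ {ξ'}ᶜ ∧ IsCompact N := by
    have h1 : ({ξ}ᶜ ∩ {ξ'}ᶜ : Set B) ∈ 𝓝 η :=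
      inter_mem (isOpen_compl_singleton.mem_nhds hne.symm) (isOpen_compl_singleton.mem_nhds hξ.symm)
    exact local_compact_nhds h1
  have hNU : ∀ᶠ p : B × B in U, p.1 ∈ N := U1a hNn
  set C0 : Set X := {x | (L.em x, L.ep x) ∈ ({ξ} : Set B) ×ˢ N ∧ |L.lv x| ≤ |L.lv y|} with hC0
  have hC0c : IsCompact C0 := by
    refine L.hopf_proper _ (isCompact_singleton.prod hNc) ?_ _
    rintro ⟨a, b⟩ ⟨ha, hb⟩ hab
    have ha' : a = ξ := ha
    have hb' : b ∈ N := hb
    have hab' : a = b := hab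
    exact (hNs hb').1 (by rw [← hab']; exact ha)
  have hz0C : ∀ᶠ p in U, z0 p ∈ C0 := by
    filter_upwards [a1, hNU] with p h1 h2
    obtain ⟨e1, e2, e3⟩ := hz0 p h1
    refine ⟨⟨e1, ?_⟩, by rw [e3]⟩
    show L.ep (z0 p) ∈ N
    rw [e2]
    exact h2
  obtain ⟨yh, hyh, hlim0⟩ : ∃ x ∈ C0, Tendsto z0 U (𝓝 x) :=
    hC0c.ultrafilter_le_nhds (U.map z0) (by
      rw [le_principal_iff]
      exact hz0C)
  have em_yh : L.em yh = ξ := hyh.1.1
  have ep_yh : L.ep yh = η := by
    refine tendsto_nhds_unique (((ep_cont L).tendsto yh).comp hlim0) (U1a.congr' ?_)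
    filter_upwards [a1] with p h1
    exact (hz0 p h1).2.1.symm
  have lv_yh : L.lv yh = L.lv y := by
    refine tendsto_nhds_unique ((L.lv_cont.tendsto yh).comp hlim0)
      (tendsto_const_nhds.congr' ?_)
    filter_upwards [a1] with p h1
    exact (hz0 p h1).2.2.symm
  obtain ⟨ro, hro⟩ := L.frame_unique y yh em_yh.symm ep_yh.symm lv_yh.symm
  -- the asymptotic frames
  have lim0' : Tendsto (fun p => L.hol ξ' (z0 p)) U (𝓝 (L.hol ξ' yh)) := by
    have h1 := L.hol_cont (ξ', yh) (by show ξ' ≠ L.ep yh; rw [ep_yh]; exact hξ)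
    have h2 : Tendsto (fun p => (ξ', z0 p)) U (𝓝[{p | p.1 ≠ L.ep p.2}] (ξ', yh)) := by
      rw [tendsto_nhdsWithin_iff]
      refine ⟨tendsto_const_nhds.prodMk_nhds hlim0, ?_⟩
      filter_upwards [a1, b1] with p h1 h2
      show ξ' ≠ L.ep (z0 p)
      rw [(hz0 p h1).2.1]
      exact h2.symm
    exact h1.tendsto.comp h2
  have lvlim : Tendsto (fun p => L.lv (L.hol ξ' (z0 p))) U (𝓝 (L.lv (L.hol ξ' y))) := by
    have h1 := (L.lv_cont.tendsto _).comp lim0'
    have h2 : L.lv (L.hol ξ' yh) = L.lv (L.hol ξ' y) := by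
      rw [hro, L.hol_rot ro ξ' y hξ, L.lv_rot]
    rw [h2] at h1
    exact h1
  set z : B × B → X := fun p => L.φ (t p) (z0 p) with hz
  set z' : B × B → X := fun p => L.φ (t p) (L.hol ξ' (z0 p)) with hz'
  have hdist : Tendsto (fun p => dist (z p) (z' p)) U (𝓝 0) := by
    obtain ⟨C, hC⟩ := L.hol_asym (({ξ'} : Set B) ×ˢ C0) (isCompact_singleton.prod hC0c) (by
      rintro ⟨a, x⟩ ⟨ha, hx⟩ hax
      have ha' : a = ξ' := ha
      have hx' : L.ep x ∈ N := hx.1.2
      exact (hNs hx').2 (by rw [← ha']; exact hax.symm))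
    have h1 : Tendsto (fun p => C * Real.exp (-L.χ * t p)) U (𝓝 0) := by
      have h2 : Tendsto (fun p => -L.χ * t p) U atBot :=
        ht_inf.const_mul_atTop_of_neg (neg_neg_of_pos L.χ_pos)
      have h3 := (Real.tendsto_exp_atBot.comp h2).const_mul C
      rwa [mul_zero] at h3
    refine squeeze_zero' (Eventually.of_forall fun p => dist_nonneg) ?_ h1
    filter_upwards [hz0C, ht_inf.eventually_ge_atTop 0] with p h1 h2
    exact hC (ξ', z0 p) ⟨rfl, h1⟩ (t p) h2
  -- cocompactness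
  obtain ⟨K1, hK1, hK1'⟩ := L.cocompact
  choose γ hγ using fun p => hK1' (z p)
  obtain ⟨w, -, hw⟩ : ∃ x ∈ K1, Tendsto (fun p => γ p • z p) U (𝓝 x) :=
    hK1.ultrafilter_le_nhds (U.map fun p => γ p • z p) (by
      rw [le_principal_iff]
      exact mem_map.mpr (Filter.univ_mem' hγ))
  have hw' : Tendsto (fun p => γ p • z' p) U (𝓝 w) := by
    rw [tendsto_iff_dist_tendsto_zero] at hw ⊢
    have h1 : Tendsto (fun p => dist (γ p • z p) w + dist (z p) (z' p)) U (𝓝 0) := by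
      have := hw.add hdist
      rwa [add_zero] at this
    refine squeeze_zero (fun p => dist_nonneg) (fun p => ?_) h1
    calc dist (γ p • z' p) w ≤ dist (γ p • z' p) (γ p • z p) + dist (γ p • z p) w :=
          dist_triangle _ _ _
      _ = dist (γ p • z p) w + dist (z p) (z' p) := by
          rw [dist_smul, dist_comm (z' p) (z p), add_comm]
  have l1 : Tendsto (fun p : B × B => γ p • p.1) U (𝓝 (L.ep w)) := by
    refine (((ep_cont L).tendsto w).comp hw).congr' ?_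
    filter_upwards [a1] with p h1
    show L.ep (γ p • z p) = γ p • p.1
    rw [ep_smul, hz]
    simp only
    rw [ep_φ, (hz0 p h1).2.1]
  obtain ⟨b, -, hb⟩ : ∃ x ∈ (univ : Set B), Tendsto (fun p : B × B => γ p • p.2) U (𝓝 x) :=
    isCompact_univ.ultrafilter_le_nhds (U.map fun p : B × B => γ p • p.2) (by simp)
  have emz : ∀ᶠ p in U, L.em (z p) = ξ := by
    filter_upwards [a1] with p h1
    show L.em (L.φ (t p) (z0 p)) = ξ
    rw [L.em_φ, (hz0 p h1).1]
  have emz' : ∀ᶠ p in U, L.em (z' p) = ξ' := by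
    filter_upwards [a1, b1] with p h1 h2
    show L.em (L.φ (t p) (L.hol ξ' (z0 p))) = ξ'
    rw [L.em_φ, L.hol_em]
    rw [(hz0 p h1).2.1]
    exact h2.symm
  -- the normalised distance
  have done1 : ∀ᶠ p in U, F.d (γ p • z p) (γ p • p.1) (γ p • p.2) = 1 := by
    filter_upwards [a1, a2, hexp, emz] with p h1 h2 h3 h4
    rw [F.d_smul _ _ _ _ (by rw [h4]; exact h1) (by rw [h4]; exact h2),
      F.d_leaf (z p) y h4 _ _ (by rw [h4]; exact h1) (by rw [h4]; exact h2), ← h3]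
    congr 2
    show k * (L.lv (L.φ (t p) (z0 p)) - L.lv y) = _
    rw [L.lv_φ, (hz0 p h1).2.2]
    ring
  have inoff : ∀ᶠ p in U, (γ p • z p, γ p • p.1, γ p • p.2) ∈
      {p : X × B × B | p.2.1 ≠ L.em p.1 ∧ p.2.2 ≠ L.em p.1} := by
    filter_upwards [a1, a2, emz] with p h1 h2 h4
    refine ⟨?_, ?_⟩
    · show γ p • p.1 ≠ L.em (γ p • z p)
      rw [L.em_smul, h4]
      exact fun h => h1 (MulAction.injective (γ p) h)
    · show γ p • p.2 ≠ L.em (γ p • z p)
      rw [L.em_smul, h4]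
      exact fun h => h2 (MulAction.injective (γ p) h)
  have hbne : b ≠ L.em w := by
    intro hbw
    have h1 : Tendsto (fun p : B × B => (γ p • z p, γ p • p.1, γ p • p.2)) U
        (𝓝[{p : X × B × B | p.2.1 ≠ L.em p.1 ∧ p.2.2 ≠ L.em p.1}] (w, L.ep w, L.em w)) := by
      rw [tendsto_nhdsWithin_iff]
      refine ⟨hw.prodMk_nhds (l1.prodMk_nhds ?_), inoff⟩
      rw [← hbw]
      exact hb
    have h2 := (F.d_proper w (L.ep w) (L.em_ne_ep w).symm).comp h1
    have h3 := h2.eventually_gt_atTop 1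
    have h4 : ∀ᶠ p in (U : Filter (B × B)), False := by
      filter_upwards [h3, done1] with p h5 h6
      simp only [Function.comp] at h5
      rw [h6] at h5
      exact lt_irrefl _ h5
    exact (h4.exists).elim fun _ h => h
  have hcw := F.contAt (w := w) (η := L.ep w) (η' := b) (L.em_ne_ep w).symm hbne
  have v1 : F.d w (L.ep w) b = 1 := by
    have h1 : Tendsto (fun p : B × B => F.d (γ p • z p) (γ p • p.1) (γ p • p.2)) U
        (𝓝 (F.d w (L.ep w) b)) :=
      hcw.tendsto.comp (hw.prodMk_nhds (l1.prodMk_nhds hb))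
    exact tendsto_nhds_unique h1 (tendsto_const_nhds.congr' (done1.mono fun p h => h.symm))
  have v2 : Tendsto (fun p : B × B => F.d (γ p • z' p) (γ p • p.1) (γ p • p.2)) U (𝓝 1) := by
    rw [← v1]
    exact hcw.tendsto.comp (hw'.prodMk_nhds (l1.prodMk_nhds hb))
  have v3 : Tendsto (fun p => Real.exp (k * (L.lv (L.hol ξ' y) - L.lv (L.hol ξ' (z0 p)))) *
      F.d (γ p • z' p) (γ p • p.1) (γ p • p.2)) U (𝓝 1) := by
    have h1 : Tendsto (fun p => k * (L.lv (L.hol ξ' y) - L.lv (L.hol ξ' (z0 p)))) U (𝓝 0) := by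
      have := (tendsto_const_nhds (x := L.lv (L.hol ξ' y))).sub lvlim
      rw [sub_self] at this
      have := this.const_mul k
      rwa [mul_zero] at this
    have h2 := ((Real.continuous_exp.tendsto 0).comp h1).mul v2
    rw [Real.exp_zero, one_mul] at h2
    exact h2
  refine v3.congr' ?_
  filter_upwards [a1, a2, b1, b2, hexp, emz', hδp] with p h1 h2 h3 h4 h5 h6 h7
  have hy' : L.em (L.hol ξ' y) = ξ' := L.hol_em ξ' y hξ
  have e1 : F.d (γ p • z' p) (γ p • p.1) (γ p • p.2) = F.d (z' p) p.1 p.2 :=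
    F.d_smul _ _ _ _ (by rw [h6]; exact h3) (by rw [h6]; exact h4)
  have e2 : F.d (L.hol ξ' y) p.1 p.2 =
      Real.exp (k * (L.lv (L.hol ξ' y) - L.lv (z' p))) * F.d (z' p) p.1 p.2 :=
    F.d_leaf _ _ (by rw [hy', h6]) _ _ (by rw [hy']; exact h3) (by rw [hy']; exact h4)
  have e3 : L.lv (z' p) = L.lv (L.hol ξ' (z0 p)) + t p := L.lv_φ _ _
  rw [e1, e2, e3]
  show _ = _ / δ p
  have e4 : k * (L.lv (L.hol ξ' y) - (L.lv (L.hol ξ' (z0 p)) + t p)) =
      k * (L.lv (L.hol ξ' y) - L.lv (L.hol ξ' (z0 p))) - k * t p := by ring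
  rw [e4, Real.exp_sub]
  have e5 : δ p = (Real.exp (k * t p))⁻¹ := by
    refine eq_inv_of_mul_eq_one_right ?_
    exact h5
  rw [e5]
  have := (Real.exp_pos (k * t p)).ne'
  field_simp

end flat

end

end Vale.Agent.P207.N3.H158
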