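import Vale.Agent.P207.N3.H158.Hol

set_option linter.all false

/-!
# P207, line N3, package P8 (8d): the flat metrics of two leaves differ by a Moebius map
-/

namespace Vale.Agent.P207.N3.H158
open Set Filter Topology Metric Bornology

noncomputable section

variable {Γ X B : Type} [Group Γ] [MetricSpace X] [ProperSpace X] [MulAction Γ X]
  [IsIsometricSMul Γ X] [TopologicalSpace B] [CompactSpace B] [T2Space B] [MulAction Γ B]
  [ContinuousConstSMul Γ B]

/-- the complex plane as the Euclidean plane -/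
def io : ℂ ≃ₗᵢ[ℝ] E2 := Complex.orthonormalBasisOneI.repr

section flat

variable {L : Leaf Γ X B} {k : ℝ} (F : FlatD L k)

/-- complex chart of the leaf of `w` -/
def FlatD.zc (w : X) (η : B) : ℂ := io.symm (F.Z w η)

/-- the inverse of the chart -/
def FlatD.inv (w : X) (z : ℂ) : B :=
  haveI : Nonempty B := ⟨L.em w⟩
  Function.invFunOn (F.zc w) {L.em w}ᶜ z

lemma FlatD.zc_dist {w : X} {η η' : B} (h : η ≠ L.em w) (h' : η' ≠ L.em w) :
    ‖F.zc w η - F.zc w η'‖ = F.d w η η' := by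
  rw [← F.Z_dist w η η' h h', ← dist_eq_norm]
  exact io.symm.dist_map _ _

lemma FlatD.zc_bij (w : X) : BijOn (F.zc w) {L.em w}ᶜ univ := by
  refine ⟨fun _ _ => mem_univ _, fun a ha b hb hab => ?_, fun z _ => ?_⟩
  · exact (F.Z_bij w).injOn ha hb (io.symm.injective hab)
  · obtain ⟨b, hb, hbz⟩ := (F.Z_bij w).surjOn (mem_univ (io z))
    refine ⟨b, hb, ?_⟩
    show io.symm (F.Z w b) = z
    rw [hbz, io.symm_apply_apply]

lemma FlatD.inv_ne (w : X) (z : ℂ) : F.inv w z ≠ L.em w := by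
  haveI : Nonempty B := ⟨L.em w⟩
  exact Function.invFunOn_mem ((F.zc_bij w).surjOn (mem_univ z))

lemma FlatD.zc_inv (w : X) (z : ℂ) : F.zc w (F.inv w z) = z := by
  haveI : Nonempty B := ⟨L.em w⟩
  exact Function.invFunOn_eq ((F.zc_bij w).surjOn (mem_univ z))

lemma FlatD.inv_zc {w : X} {η : B} (h : η ≠ L.em w) : F.inv w (F.zc w η) = η :=
  (F.zc_bij w).injOn (F.inv_ne w _) h (F.zc_inv w _)

lemma FlatD.zc_cont {w : X} {η : B} (h : η ≠ L.em w) : ContinuousAt (F.zc w) η := by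
  rw [ContinuousAt, tendsto_iff_norm_sub_tendsto_zero]
  have h1 := F.contAt h h
  have h2 : Tendsto (fun η' : B => (w, η', η)) (𝓝 η) (𝓝 (w, η, η)) :=
    tendsto_const_nhds.prodMk_nhds (tendsto_id.prodMk_nhds tendsto_const_nhds)
  have h3 := h1.tendsto.comp h2
  rw [show F.d (w, η, η).1 (w, η, η).2.1 (w, η, η).2.2 = 0 from F.self h] at h3
  refine h3.congr' ?_
  filter_upwards [isOpen_ne.mem_nhds h] with η' hη'
  exact (F.zc_dist hη' h).symm

lemma FlatD.zc_inf (w : X) : Tendsto (F.zc w) (𝓝[≠] (L.em w)) (cocompact ℂ) := by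
  have hne := (F.inv_ne w 0)
  set η0 := F.inv w 0
  have h1 : Tendsto (fun η : B => (w, η0, η)) (𝓝[≠] (L.em w))
      (𝓝[{p : X × B × B | p.2.1 ≠ L.em p.1 ∧ p.2.2 ≠ L.em p.1}] (w, η0, L.em w)) := by
    rw [tendsto_nhdsWithin_iff]
    refine ⟨tendsto_const_nhds.prodMk_nhds (tendsto_const_nhds.prodMk_nhds
      (tendsto_id.mono_left nhdsWithin_le_nhds)), ?_⟩
    filter_upwards [self_mem_nhdsWithin] with η hη
    exact ⟨hne, hη⟩
  have h2 := (F.d_proper w η0 hne).comp h1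
  rw [← Metric.cobounded_eq_cocompact, ← tendsto_norm_atTop_iff_cobounded]
  refine tendsto_atTop_mono' _ ?_ (tendsto_atTop_add_const_right _ (-‖F.zc w η0‖) h2)
  filter_upwards [self_mem_nhdsWithin] with η hη
  have hη' : η ≠ L.em w := hη
  simp only [Function.comp]
  rw [← F.zc_dist hne hη']
  have := norm_sub_le (F.zc w η0) (F.zc w η)
  linarith

lemma FlatD.inv_tendsto (w : X) (z : ℂ) : Tendsto (F.inv w) (𝓝 z) (𝓝 (F.inv w z)) := by
  rw [tendsto_iff_ultrafilter]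
  intro U hU
  obtain ⟨b, -, hb⟩ : ∃ x ∈ (univ : Set B), Tendsto (F.inv w) U (𝓝 x) :=
    isCompact_univ.ultrafilter_le_nhds (U.map (F.inv w)) (by simp)
  have hbne : b ≠ L.em w := by
    intro h
    rw [h] at hb
    have h1 : Tendsto (F.inv w) U (𝓝[≠] (L.em w)) := by
      rw [tendsto_nhdsWithin_iff]
      exact ⟨hb, Eventually.of_forall (F.inv_ne w)⟩
    have h2 := (F.zc_inf w).comp h1
    have h3 : Tendsto (fun z : ℂ => z) U (cocompact ℂ) :=
      h2.congr (fun z => F.zc_inv w z)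
    have h4 : Disjoint (𝓝 z) (cocompact ℂ) := disjoint_nhds_cocompact z
    exact U.neBot.ne (le_bot_iff.mp (h4 hU h3))
  have h1 : Tendsto (fun z => F.zc w (F.inv w z)) U (𝓝 (F.zc w b)) :=
    (F.zc_cont hbne).tendsto.comp hb
  have h2 : z = F.zc w b :=
    tendsto_nhds_unique (hU : Tendsto (fun z : ℂ => z) U (𝓝 z)) (h1.congr (fun z => F.zc_inv w z))
  rw [h2, F.inv_zc hbne]
  exact hb

lemma FlatD.inv_inf (w : X) : Tendsto (F.inv w) (cocompact ℂ) (𝓝 (L.em w)) := by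
  rw [tendsto_iff_ultrafilter]
  intro U hU
  obtain ⟨b, -, hb⟩ : ∃ x ∈ (univ : Set B), Tendsto (F.inv w) U (𝓝 x) :=
    isCompact_univ.ultrafilter_le_nhds (U.map (F.inv w)) (by simp)
  by_cases hbne : b = L.em w
  · rw [← hbne]
    exact hb
  · exfalso
    have h1 : Tendsto (fun z => F.zc w (F.inv w z)) U (𝓝 (F.zc w b)) :=
      (F.zc_cont hbne).tendsto.comp hb
    have h2 : Tendsto (fun z : ℂ => z) U (𝓝 (F.zc w b)) := h1.congr (fun z => F.zc_inv w z)
    have h4 : Disjoint (𝓝 (F.zc w b)) (cocompact ℂ) := disjoint_nhds_cocompact _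
    exact U.neBot.ne (le_bot_iff.mp (h4 h2 hU))

/-- the transition between the complex charts of two leaves -/
def FlatD.tr (w w' : X) (z : ℂ) : ℂ := F.zc w' (F.inv w z)

lemma FlatD.inv_ne' {w w' : X} (hne : L.em w ≠ L.em w') {z : ℂ}
    (hz : z ≠ F.zc w (L.em w')) : F.inv w z ≠ L.em w' := by
  intro h
  apply hz
  rw [← h, F.zc_inv]

lemma FlatD.pp {w w' : X} (hne : L.em w ≠ L.em w') :
    PP (F.zc w (L.em w')) (F.zc w' (L.em w)) (F.tr w w') (F.tr w' w) := by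
  have key : ∀ w w' : X, L.em w ≠ L.em w' → ∀ z, z ≠ F.zc w (L.em w') →
      F.tr w w' z ≠ F.zc w' (L.em w) ∧ F.tr w' w (F.tr w w' z) = z := by
    intro w w' hne z hz
    have h1 := F.inv_ne' hne hz
    refine ⟨fun h => ?_, ?_⟩
    · exact F.inv_ne w z ((F.zc_bij w').injOn h1 hne h)
    · show F.zc w (F.inv w' (F.zc w' (F.inv w z))) = z
      rw [F.inv_zc h1, F.zc_inv]
  refine ⟨fun z hz => (key w w' hne z hz).1, fun z hz => (key w' w hne.symm z hz).1,
    fun z hz => (key w w' hne z hz).2, fun z hz => (key w' w hne.symm z hz).2, ?_, ?_, ?_⟩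
  · intro z hz
    have h1 : F.inv w' z ≠ L.em w := F.inv_ne' hne.symm hz
    exact ((F.zc_cont h1).tendsto.comp (F.inv_tendsto w' z)).mono_left nhdsWithin_le_nhds
  · refine (F.zc_inf w').comp ?_
    rw [tendsto_nhdsWithin_iff]
    refine ⟨?_, ?_⟩
    · have h1 := F.inv_tendsto w (F.zc w (L.em w'))
      rw [F.inv_zc hne.symm] at h1
      exact h1.mono_left nhdsWithin_le_nhds
    · filter_upwards [self_mem_nhdsWithin] with z hz
      exact F.inv_ne' hne hz
  · exact (F.zc_cont hne.symm).tendsto.comp (F.inv_inf w')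

/-- the multiplier at the common end point of `y` and `hol (em w') y` -/
def mu (L : Leaf Γ X B) (k : ℝ) (w w' y : X) : ℝ :=
  Real.exp (k * ((L.lv w' - L.lv (L.hol (L.em w') y)) - (L.lv w - L.lv y)))

lemma FlatD.ratio {w w' y : X} (hy : L.em y = L.em w) (hy' : L.em w' ≠ L.ep y) :
    Tendsto (fun p : B × B => F.d w' p.1 p.2 / F.d w p.1 p.2)
      (𝓝 (L.ep y, L.ep y) ⊓ 𝓟 {p | p.1 ≠ p.2}) (𝓝 (mu L k w w' y)) := by
  have h0 := F.ratio_one y (L.em w') hy'
  have h1 := h0.const_mul (mu L k w w' y)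
  rw [mul_one] at h1
  refine h1.congr' ?_
  have hc : Tendsto (fun p : B × B => p) (𝓝 (L.ep y, L.ep y) ⊓ 𝓟 {p | p.1 ≠ p.2})
    (𝓝 (L.ep y, L.ep y)) := inf_le_left
  have n1 : L.ep y ≠ L.em w := by rw [← hy]; exact (L.em_ne_ep y).symm
  have A1 : ∀ᶠ p : B × B in 𝓝 (L.ep y, L.ep y) ⊓ 𝓟 {p | p.1 ≠ p.2}, p.1 ≠ L.em w :=
    ((continuous_fst.tendsto _).comp hc).eventually_ne n1
  have A2 : ∀ᶠ p : B × B in 𝓝 (L.ep y, L.ep y) ⊓ 𝓟 {p | p.1 ≠ p.2}, p.2 ≠ L.em w :=
    ((continuous_snd.tendsto _).comp hc).eventually_ne n1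
  have A3 : ∀ᶠ p : B × B in 𝓝 (L.ep y, L.ep y) ⊓ 𝓟 {p | p.1 ≠ p.2}, p.1 ≠ L.em w' :=
    ((continuous_fst.tendsto _).comp hc).eventually_ne hy'.symm
  have A4 : ∀ᶠ p : B × B in 𝓝 (L.ep y, L.ep y) ⊓ 𝓟 {p | p.1 ≠ p.2}, p.2 ≠ L.em w' :=
    ((continuous_snd.tendsto _).comp hc).eventually_ne hy'.symm
  filter_upwards [A1, A2, A3, A4] with p h1 h2 h3 h4
  have e0 : L.em (L.hol (L.em w') y) = L.em w' := L.hol_em _ _ hy'
  rw [F.d_leaf w' (L.hol (L.em w') y) e0.symm p.1 p.2 h3 h4, F.d_leaf w y hy.symm p.1 p.2 h1 h2,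
    mul_div_mul_comm, mu, mul_sub, Real.exp_sub]

theorem FlatD.tr_md {w w' y : X} (hne : L.em w ≠ L.em w') (hy : L.em y = L.em w)
    (hy' : L.em w' ≠ L.ep y) : MD (F.tr w w') (F.zc w (L.ep y)) (mu L k w w' y) := by
  have n1 : L.ep y ≠ L.em w := by rw [← hy]; exact (L.em_ne_ep y).symm
  intro ε hε
  have h1 := Metric.tendsto_nhds.mp (F.ratio hy hy') ε hε
  rw [eventually_inf_principal] at h1
  have h2 : Tendsto (fun p : ℂ × ℂ => (F.inv w p.1, F.inv w p.2))
      (𝓝 (F.zc w (L.ep y), F.zc w (L.ep y))) (𝓝 (L.ep y, L.ep y)) := by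
    have h3 := F.inv_tendsto w (F.zc w (L.ep y))
    rw [F.inv_zc n1] at h3
    rw [nhds_prod_eq, nhds_prod_eq]
    exact h3.prodMap h3
  have h3 := h2.eventually h1
  have h4 : ∀ᶠ z : ℂ in 𝓝 (F.zc w (L.ep y)), F.inv w z ≠ L.em w' := by
    have h5 := F.inv_tendsto w (F.zc w (L.ep y))
    rw [F.inv_zc n1] at h5
    exact h5.eventually_ne hy'.symm
  obtain ⟨r, hr, H⟩ := Metric.eventually_nhds_iff.mp h3
  obtain ⟨r', hr', H'⟩ := Metric.eventually_nhds_iff.mp h4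
  refine ⟨min r r', lt_min hr hr', fun z z' hz hz' => ?_⟩
  by_cases hzz : z = z'
  · rw [hzz]
    simp
  have hin : F.inv w z ≠ F.inv w z' := fun h => hzz (by rw [← F.zc_inv w z, h, F.zc_inv])
  have h5 := H (y := (z, z')) (by
    rw [Prod.dist_eq]
    exact max_lt (hz.trans_le (min_le_left _ _)) (hz'.trans_le (min_le_left _ _))) hin
  have e1 : F.d w (F.inv w z) (F.inv w z') = ‖z - z'‖ := by
    rw [← F.zc_dist (F.inv_ne w z) (F.inv_ne w z'), F.zc_inv, F.zc_inv]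
  have e2 : F.d w' (F.inv w z) (F.inv w z') = ‖F.tr w w' z - F.tr w w' z'‖ :=
    (F.zc_dist (H' (hz.trans_le (min_le_right _ _))) (H' (hz'.trans_le (min_le_right _ _)))).symm
  simp only [e1, e2, Real.dist_eq] at h5
  have hp : 0 < ‖z - z'‖ := norm_pos_iff.mpr (sub_ne_zero.mpr hzz)
  have e3 : ‖F.tr w w' z - F.tr w w' z'‖ - mu L k w w' y * ‖z - z'‖ =
      (‖F.tr w w' z - F.tr w w' z'‖ / ‖z - z'‖ - mu L k w w' y) * ‖z - z'‖ := by
    field_simp
  rw [e3, abs_mul, abs_of_pos hp]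
  exact mul_le_mul_of_nonneg_right h5.le hp.le

/-- **the flat metrics of two leaves: Moebius form** -/
theorem FlatD.moebius {w w' : X} (hne : L.em w ≠ L.em w') :
    ∃ c : ℝ, 0 < c ∧
      (∀ η, η ≠ L.em w → η ≠ L.em w' → F.d w' η (L.em w) = c / F.d w η (L.em w')) ∧
      (∀ η η', η ≠ L.em w → η ≠ L.em w' → η' ≠ L.em w → η' ≠ L.em w' →
        F.d w' η η' = c * F.d w η η' / (F.d w η (L.em w') * F.d w η' (L.em w'))) ∧
      (∀ y, L.em y = L.em w → L.em w' ≠ L.ep y →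
        mu L k w w' y = c / F.d w (L.ep y) (L.em w') ^ 2) := by
  have p := F.pp hne
  obtain ⟨c, hc, H1, H2⟩ := moebius_of_metric p (fun z hz => by
    have hz' := F.inv_ne' hne hz
    obtain ⟨y, hy1, hy2, -⟩ := L.exists_frame (L.em w) (F.inv w z) (F.inv_ne w z).symm 0
    refine ⟨mu L k w w' y, Real.exp_pos _, ?_⟩
    have := F.tr_md hne hy1 (by rw [hy2]; exact hz'.symm)
    rwa [hy2, F.zc_inv] at this)
  have hz : ∀ η, η ≠ L.em w → η ≠ L.em w' → F.zc w η ≠ F.zc w (L.em w') := by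
    intro η h1 h2 h
    exact h2 ((F.zc_bij w).injOn h1 hne.symm h)
  have tr_eq : ∀ η, η ≠ L.em w → F.tr w w' (F.zc w η) = F.zc w' η := by
    intro η h1
    show F.zc w' (F.inv w (F.zc w η)) = _
    rw [F.inv_zc h1]
  refine ⟨c, hc, fun η h1 h2 => ?_, fun η η' h1 h2 h1' h2' => ?_, fun y hy hy' => ?_⟩
  · have := H1 _ (hz η h1 h2)
    rwa [tr_eq η h1, F.zc_dist h2 hne, F.zc_dist h1 hne.symm] at this
  · have := H2 _ _ (hz η h1 h2) (hz η' h1' h2')
    rwa [tr_eq η h1, tr_eq η' h1', F.zc_dist h2 h2', F.zc_dist h1 h1', F.zc_dist h1 hne.symm,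
      F.zc_dist h1' hne.symm] at this
  · have n1 : L.ep y ≠ L.em w := by rw [← hy]; exact (L.em_ne_ep y).symm
    have hmd := F.tr_md hne hy hy'
    set z0 := F.zc w (L.ep y) with hz0
    set a := F.zc w (L.em w') with ha
    have hza : z0 ≠ a := hz _ n1 hy'.symm
    have hzn : 0 < ‖z0 - a‖ := norm_pos_iff.mpr (sub_ne_zero.mpr hza)
    rw [← F.zc_dist n1 hne.symm]
    -- both are the limit of the difference quotients
    have hs : Tendsto (fun t : ℝ => z0 + t) (𝓝[>] 0) (𝓝 z0) := by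
      have : Tendsto (fun t : ℝ => z0 + (t : ℂ)) (𝓝 0) (𝓝 (z0 + ((0 : ℝ) : ℂ))) :=
        Continuous.tendsto (by fun_prop) 0
      rw [Complex.ofReal_zero, add_zero] at this
      exact this.mono_left nhdsWithin_le_nhds
    have q1 : Tendsto (fun t : ℝ => ‖F.tr w w' (z0 + t) - F.tr w w' z0‖ / t) (𝓝[>] 0)
        (𝓝 (mu L k w w' y)) := by
      rw [Metric.tendsto_nhds]
      intro ε hε
      obtain ⟨r, hr, H⟩ := hmd (ε / 2) (by positivity)
      filter_upwards [Metric.tendsto_nhds.mp hs r hr, self_mem_nhdsWithin] with t ht ht0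
      have ht0' : (0 : ℝ) < t := ht0
      have h5 := H (z0 + t) z0 ht (by simpa using hr)
      rw [add_sub_cancel_left, Complex.norm_real, Real.norm_of_nonneg ht0'.le] at h5
      rw [Real.dist_eq]
      have e : ‖F.tr w w' (z0 + t) - F.tr w w' z0‖ / t - mu L k w w' y =
          (‖F.tr w w' (z0 + t) - F.tr w w' z0‖ - mu L k w w' y * t) / t := by
        field_simp
      rw [e, abs_div, abs_of_pos ht0', div_lt_iff₀ ht0']
      refine h5.trans_lt ?_
      nlinarith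
    have q2 : Tendsto (fun t : ℝ => ‖F.tr w w' (z0 + t) - F.tr w w' z0‖ / t) (𝓝[>] 0)
        (𝓝 (c / ‖z0 - a‖ ^ 2)) := by
      have h1 : Tendsto (fun t : ℝ => c / (‖z0 + t - a‖ * ‖z0 - a‖)) (𝓝[>] 0)
          (𝓝 (c / (‖z0 - a‖ * ‖z0 - a‖))) := by
        refine tendsto_const_nhds.div ?_ (by positivity)
        exact ((hs.sub_const a).norm).mul_const _
      rw [← sq] at h1
      refine h1.congr' ?_
      filter_upwards [hs.eventually_ne hza, self_mem_nhdsWithin] with t ht ht0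
      have ht0' : (0 : ℝ) < t := ht0
      rw [H2 _ _ ht hza, add_sub_cancel_left, Complex.norm_real, Real.norm_of_nonneg ht0'.le]
      field_simp
    exact tendsto_nhds_unique q1 q2

end flat

end

end Vale.Agent.P207.N3.H158
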