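import Vale.Agent.P207.N3.H158.HolM
import Vale.Agent.P207.N3.H662.Cross
import Vale.Agent.P207.N3.H662.Moeb

set_option linter.all false

/-!
# P207, line N3, package P8 (8g), first half: the function `D`, derivatives of the flat charts
-/

namespace Vale.Agent.P207.N3.H158
open Set Filter Topology Metric MeasureTheory
open Vale.Agent.P207.N3.H662 (dt dtB)

noncomputable section

variable {Γ X B : Type} [Group Γ] [MetricSpace X] [ProperSpace X] [MulAction Γ X]
  [IsIsometricSMul Γ X] [TopologicalSpace B] [CompactSpace B] [T2Space B] [MulAction Γ B]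
  [ContinuousConstSMul Γ B]

/-! ### the function `D` -/

section D

variable {L : Leaf Γ X B} [MeasurableSpace B] [BorelSpace B] (A : Area L)

lemma em_flip (x : X) : L.em (L.flip x) = L.ep x := (L.ep_flip x).symm

lemma ep_flip' (x : X) : L.ep (L.flip x) = L.em x := by
  rw [L.ep_flip, L.flip_flip]

lemma D_eq' (x : X) : A.D (L.em x) (L.ep x) = L.lv x + L.lv (L.flip x) := A.D_eq x

lemma D_symm {ξ η : B} (h : ξ ≠ η) : A.D ξ η = A.D η ξ := by
  obtain ⟨x, h1, h2, -⟩ := L.exists_frame ξ η h 0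
  have e1 := D_eq' A x
  have e2 := D_eq' A (L.flip x)
  rw [em_flip, ep_flip', L.flip_flip] at e2
  rw [← h1, ← h2, e1, e2, add_comm]

lemma D_hol {y : X} {ξ' : B} (h : ξ' ≠ L.ep y) :
    A.D (L.em y) (L.ep y) - A.D ξ' (L.ep y) = L.lv y - L.lv (L.hol ξ' y) := by
  have e1 := D_eq' A y
  have e2 := D_eq' A (L.hol ξ' y)
  rw [L.hol_em _ _ h, L.hol_ep _ _ h, L.hol_lp _ _ h] at e2
  rw [e1, e2]
  ring

lemma D_contAt {ξ η : B} (h : η ≠ ξ) : ContinuousAt (fun η => A.D ξ η) η := by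
  rw [ContinuousAt, tendsto_iff_ultrafilter]
  intro U hU
  have U1 : Tendsto (fun p : B => p) U (𝓝 η) := hU
  have a1 : ∀ᶠ p : B in U, p ≠ ξ := U1.eventually_ne h
  have hz0 : ∀ p : B, ∃ x : X, p ≠ ξ → L.em x = ξ ∧ L.ep x = p ∧ L.lv x = 0 := by
    intro p
    by_cases hp : p = ξ
    · exact ⟨L.nonempty.some, fun h => absurd hp h⟩
    · obtain ⟨x, hx⟩ := L.exists_frame ξ p (fun h => hp h.symm) 0
      exact ⟨x, fun _ => hx⟩
  choose z0 hz0 using hz0
  obtain ⟨N, hNn, hNs, hNc⟩ : ∃ N ∈ 𝓝 η, N ⊆ {ξ}ᶜ ∧ IsCompact N :=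
    local_compact_nhds (isOpen_compl_singleton.mem_nhds h)
  have hNU : ∀ᶠ p : B in U, p ∈ N := U1 hNn
  set C0 : Set X := {x | (L.em x, L.ep x) ∈ ({ξ} : Set B) ×ˢ N ∧ |L.lv x| ≤ 0} with hC0
  have hC0c : IsCompact C0 := by
    refine L.hopf_proper _ (isCompact_singleton.prod hNc) ?_ _
    rintro ⟨a, b⟩ ⟨ha, hb⟩ hab
    have ha' : a = ξ := ha
    have hb' : b ∈ N := hb
    have hab' : a = b := hab
    exact hNs hb' (by rw [← hab']; exact ha)
  have hz0C : ∀ᶠ p in U, z0 p ∈ C0 := by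
    filter_upwards [a1, hNU] with p h1 h2
    obtain ⟨e1, e2, e3⟩ := hz0 p h1
    refine ⟨⟨e1, ?_⟩, by rw [e3, abs_zero]⟩
    show L.ep (z0 p) ∈ N
    rw [e2]
    exact h2
  obtain ⟨yh, hyh, hlim0⟩ : ∃ x ∈ C0, Tendsto z0 U (𝓝 x) :=
    hC0c.ultrafilter_le_nhds (U.map z0) (by
      rw [le_principal_iff]
      exact hz0C)
  have em_yh : L.em yh = ξ := hyh.1.1
  have ep_yh : L.ep yh = η := by
    refine tendsto_nhds_unique (((ep_cont L).tendsto yh).comp hlim0) (U1.congr' ?_)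
    filter_upwards [a1] with p h1
    exact (hz0 p h1).2.1.symm
  have lv_yh : L.lv yh = 0 := by
    have := hyh.2
    exact abs_eq_zero.mp (le_antisymm this (abs_nonneg _))
  have e1 : A.D ξ η = L.lv (L.flip yh) := by
    have := D_eq' A yh
    rw [em_yh, ep_yh, lv_yh, zero_add] at this
    exact this
  rw [e1]
  have h2 : Tendsto (fun p => L.lv (L.flip (z0 p))) U (𝓝 (L.lv (L.flip yh))) :=
    ((L.lv_cont.comp L.flip_cont).tendsto yh).comp hlim0
  refine h2.congr' ?_
  filter_upwards [a1] with p h1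
  obtain ⟨q1, q2, q3⟩ := hz0 p h1
  have := D_eq' A (z0 p)
  rw [q1, q2, q3, zero_add] at this
  exact this.symm

end D

/-! ### linear algebra in the plane -/

lemma io_symm_re (v : E2) : (io.symm v).re = v 0 := by
  have : io.symm v = (v 0 : ℂ) + (v 1 : ℂ) * Complex.I := by
    show Complex.orthonormalBasisOneI.repr.symm v = _
    simp [Complex.orthonormalBasisOneI_repr_symm_apply]
  rw [this]
  simp

lemma io_symm_im (v : E2) : (io.symm v).im = v 1 := by
  have : io.symm v = (v 0 : ℂ) + (v 1 : ℂ) * Complex.I := by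
    show Complex.orthonormalBasisOneI.repr.symm v = _
    simp [Complex.orthonormalBasisOneI_repr_symm_apply]
  rw [this]
  simp

/-- `io.symm` as a continuous linear map -/
def ioL : E2 →L[ℝ] ℂ := (io.symm.toContinuousLinearEquiv : E2 →L[ℝ] ℂ)

lemma dt_io (N : E2 →L[ℝ] E2) : dt (ioL ∘L N) = N.det := by
  have h1 : N.det = LinearMap.det (N : E2 →ₗ[ℝ] E2) := rfl
  rw [h1, ← LinearMap.det_toMatrix (EuclideanSpace.basisFun (Fin 2) ℝ).toBasis, Matrix.det_fin_two]
  simp only [LinearMap.toMatrix_apply]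
  simp only [OrthonormalBasis.coe_toBasis, EuclideanSpace.basisFun_apply,
    OrthonormalBasis.coe_toBasis_repr_apply, EuclideanSpace.basisFun_repr]
  show (io.symm (N _)).re * (io.symm (N _)).im - (io.symm (N _)).im * (io.symm (N _)).re = _
  rw [io_symm_re, io_symm_im, io_symm_im, io_symm_re]
  show _ = (N _) 0 * (N _) 1 - (N _) 0 * (N _) 1
  ring

lemma abs_dt_comp {P : ℂ →L[ℝ] ℂ} {r : ℝ} (hr : 0 < r) (hP : ∀ v, ‖P v‖ = r * ‖v‖)
    (M : E2 →L[ℝ] ℂ) : |dt (P ∘L M)| = r ^ 2 * |dt M| := by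
  have hn : (P 1).re ^ 2 + (P 1).im ^ 2 = r ^ 2 := by
    have h1 : ‖P 1‖ = r := by rw [hP]; simp
    rw [← h1, Complex.sq_norm, Complex.normSq_apply]
    ring
  have hx : ∀ x : ℂ, P x = (x.re : ℂ) * P 1 + (x.im : ℂ) * P Complex.I := by
    intro x
    conv_lhs => rw [← Complex.re_add_im x]
    rw [map_add]
    have e1 : P ((x.re : ℂ)) = (x.re : ℂ) * P 1 := by
      have : (x.re : ℂ) = x.re • (1 : ℂ) := by simp
      rw [this, map_smul, ← this, Complex.real_smul]
    have e2 : P ((x.im : ℂ) * Complex.I) = (x.im : ℂ) * P Complex.I := by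
      have : (x.im : ℂ) * Complex.I = x.im • Complex.I := by simp
      rw [this, map_smul, Complex.real_smul]
    rw [e1, e2]
  have key : ∀ s : ℝ, s ^ 2 = 1 → P Complex.I = (s : ℂ) * (Complex.I * P 1) →
      |dt (P ∘L M)| = r ^ 2 * |dt M| := by
    intro s hs hI
    have e : dt (P ∘L M) = s * r ^ 2 * dt M := by
      unfold dt
      simp only [ContinuousLinearMap.comp_apply]
      set a := M (EuclideanSpace.single 0 1)
      set b := M (EuclideanSpace.single 1 1)
      rw [hx a, hx b, hI, ← hn]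
      simp only [Complex.add_re, Complex.add_im, Complex.mul_re, Complex.mul_im,
        Complex.ofReal_re, Complex.ofReal_im, Complex.I_re, Complex.I_im]
      ring
    rw [e, abs_mul, abs_mul, abs_of_pos (by positivity : (0 : ℝ) < r ^ 2)]
    have : |s| = 1 := by
      rw [← sq_eq_sq₀ (abs_nonneg s) zero_le_one, sq_abs, hs, one_pow]
    rw [this, one_mul]
  rcases Vale.Agent.P207.N3.H662.sim_cases hr hP with h | h
  · exact key 1 (by norm_num) (by rw [h]; push_cast; ring)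
  · exact key (-1) (by norm_num) (by rw [h]; push_cast; ring)

/-! ### derivatives of the flat charts -/

section flat

variable {L : Leaf Γ X B} {k : ℝ} (F : FlatD L k)

lemma FlatD.tr_contDiff {w w' : X} (hne : L.em w ≠ L.em w') {z : ℂ}
    (hz : z ≠ F.zc w (L.em w')) : ContDiffAt ℝ 1 (F.tr w w') z := by
  have key : ∀ z, z ≠ F.zc w (L.em w') → ∃ l > 0, MD (F.tr w w') z l := by
    intro z hz
    have hz' := F.inv_ne' hne hz
    obtain ⟨y, hy1, hy2, -⟩ := L.exists_frame (L.em w) (F.inv w z) (F.inv_ne w z).symm 0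
    refine ⟨mu L k w w' y, Real.exp_pos _, ?_⟩
    have := F.tr_md hne hy1 (by rw [hy2]; exact hz'.symm)
    rwa [hy2, F.zc_inv] at this
  obtain ⟨l, hl, hm⟩ := key z hz
  refine contDiff_of_md hl hm ?_
  filter_upwards [isOpen_ne.mem_nhds hz] with v hv
  exact key v hv

lemma FlatD.zc_ne {w w' y : X} (hne : L.em w ≠ L.em w') (hy : L.em y = L.em w)
    (hy' : L.em w' ≠ L.ep y) : F.zc w (L.ep y) ≠ F.zc w (L.em w') := by
  intro h
  have n1 : L.ep y ≠ L.em w := by rw [← hy]; exact (L.em_ne_ep y).symm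
  exact hy'.symm ((F.zc_bij w).injOn n1 hne.symm h)

lemma FlatD.tr_norm {w w' y : X} (hne : L.em w ≠ L.em w') (hy : L.em y = L.em w)
    (hy' : L.em w' ≠ L.ep y) (v : ℂ) :
    ‖fderiv ℝ (F.tr w w') (F.zc w (L.ep y)) v‖ = mu L k w w' y * ‖v‖ :=
  (F.tr_md hne hy hy').norm_fderiv
    ((F.tr_contDiff hne (F.zc_ne hne hy hy')).differentiableAt (by norm_num)).hasFDerivAt v

end flat

/-- flat metrics of the leaves whose area is a constant multiple of the Margulis area -/
structure Flat (L : Leaf Γ X B) [MeasurableSpace B] [BorelSpace B] (A : Area L) extends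
    FlatD L (A.h / 2) where
  Z_C1 : ∀ w, ContDiffOn ℝ 1 (fun u => Z w (L.e w u)) (ball 0 2)
  c0 : ℝ
  c0_pos : 0 < c0
  Z_det : ∀ w, ∀ u ∈ ball (0 : E2) 2,
    |(fderiv ℝ (fun u => Z w (L.e w u)) u).det| = c0 * A.s w u

section flat2

variable {L : Leaf Γ X B} [MeasurableSpace B] [BorelSpace B] {A : Area L} (F : Flat L A)

lemma Flat.zc_deriv (w : X) {u : E2} (hu : u ∈ ball (0 : E2) 2) :
    HasFDerivAt (fun u => F.toFlatD.zc w (L.e w u))
      (ioL ∘L (fderiv ℝ (fun u => F.Z w (L.e w u)) u)) u := by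
  have h1 : DifferentiableAt ℝ (fun u => F.Z w (L.e w u)) u :=
    ((F.Z_C1 w).differentiableOn (by norm_num)).differentiableAt (isOpen_ball.mem_nhds hu)
  exact ioL.hasFDerivAt.comp u h1.hasFDerivAt

/-- the derivative of the chart of one leaf in the unit chart of another leaf -/
theorem Flat.cross_deriv {x w : X} (hne : L.em x ≠ L.em w) (hx : L.em w ≠ L.ep x) :
    ∃ M : E2 →L[ℝ] ℂ, HasFDerivAt (fun u => F.toFlatD.zc w (L.e x u)) M 0 ∧
      |dt M| = Real.exp (A.h * (L.lv w - L.lv (L.hol (L.em w) x))) * (F.c0 * A.s x 0) := by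
  have h0 : (0 : E2) ∈ ball (0 : E2) 2 := mem_ball_self (by norm_num)
  have h1 := F.zc_deriv x h0
  have hz := F.toFlatD.zc_ne hne rfl hx
  have e0 : L.e x 0 = L.ep x := L.e_zero x
  have h2 : HasFDerivAt (F.toFlatD.tr x w)
      (fderiv ℝ (F.toFlatD.tr x w) (F.toFlatD.zc x (L.ep x))) (F.toFlatD.zc x (L.e x 0)) := by
    rw [e0]
    exact ((F.toFlatD.tr_contDiff hne hz).differentiableAt (by norm_num)).hasFDerivAt
  have h3 := h2.comp (0 : E2) h1
  refine ⟨_, h3.congr_of_eventuallyEq ?_, ?_⟩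
  · filter_upwards [isOpen_ball.mem_nhds h0] with u hu
    show F.toFlatD.zc w (L.e x u) =
      F.toFlatD.zc w (F.toFlatD.inv x (F.toFlatD.zc x (L.e x u)))
    rw [F.toFlatD.inv_zc]
    exact L.e_ne x u (ball_subset_closedBall (ball_subset_ball (by norm_num) hu))
  · rw [abs_dt_comp (r := mu L (A.h / 2) x w x) (Real.exp_pos _)
      (fun v => F.toFlatD.tr_norm hne rfl hx v), dt_io, F.Z_det x 0 h0, mu, ← Real.exp_nat_mul]
    congr 2
    push_cast
    ring

end flat2

end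

end Vale.Agent.P207.N3.H158
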