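import Vale.Agent.P207.N3.H158.NuA
import Vale.Agent.P207.N3.H662.FDefs

set_option linter.all false

/-!
# P207, line N3, package P8 (8g): the bound of the visual measure
-/

namespace Vale.Agent.P207.N3.H158
open Set Filter Topology Metric MeasureTheory
open Vale.Agent.P207.N3.H662 (dt dtB visual_bound)
open scoped ENNReal

noncomputable section

variable {Γ X B : Type} [Group Γ] [MetricSpace X] [ProperSpace X] [MulAction Γ X]
  [IsIsometricSMul Γ X] [TopologicalSpace B] [CompactSpace B] [T2Space B] [MulAction Γ B]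
  [ContinuousConstSMul Γ B]

/-! ### images of discs are open -/

section disc

variable (L : Leaf Γ X B)

lemma e_contOn (x : X) : ContinuousOn (L.e x) (closedBall 0 3) := by
  have h : ContinuousOn (fun u : E2 => (x, u)) (closedBall 0 3) := by fun_prop
  exact L.e_cont.comp h (fun u hu => ⟨mem_univ _, hu⟩)

lemma isOpen_img3 (x : X) : IsOpen (L.e x '' ball 0 3) := by
  have h : Continuous fun η : B => (x, η) := by fun_prop
  exact L.e_open.preimage h

/-- images of open subsets of the disc are open -/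
lemma isOpen_img (x : X) {V : Set E2} (hV : IsOpen V) (hV3 : V ⊆ ball 0 3) :
    IsOpen (L.e x '' V) := by
  have hc : IsCompact (L.e x '' (closedBall 0 3 \ V)) := by
    have h1 : IsCompact (closedBall (0 : E2) 3 \ V) := (isCompact_closedBall _ _).diff hV
    exact h1.image_of_continuousOn ((e_contOn L x).mono diff_subset)
  have he : L.e x '' V = L.e x '' ball 0 3 \ (L.e x '' (closedBall 0 3 \ V)) := by
    ext η
    constructor
    · rintro ⟨u, hu, rfl⟩
      refine ⟨⟨u, hV3 hu, rfl⟩, ?_⟩
      rintro ⟨v, hv, hvu⟩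
      have : v = u := L.e_inj x hv.1 (ball_subset_closedBall (hV3 hu)) hvu
      exact hv.2 (this ▸ hu)
    · rintro ⟨⟨u, hu, rfl⟩, hn⟩
      refine ⟨u, ?_, rfl⟩
      by_contra hcon
      exact hn ⟨u, ⟨ball_subset_closedBall hu, hcon⟩, rfl⟩
  rw [he]
  exact (isOpen_img3 L x).sdiff hc.isClosed

end disc

/-! ### charts of one leaf at the same level -/

section same

variable {L : Leaf Γ X B} {k : ℝ} (F : FlatD L k)

/-- the inverse chart is an open embedding -/
lemma FlatD.inv_openEmbedding (w : X) : IsOpenEmbedding (F.inv w) := by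
  have hc : Continuous (F.inv w) := continuous_iff_continuousAt.mpr (F.inv_tendsto w)
  have hinj : Function.Injective (F.inv w) := fun a b h => by
    rw [← F.zc_inv w a, h, F.zc_inv]
  refine .of_continuous_injective_isOpenMap hc hinj ?_
  intro O hO
  have he : F.inv w '' O = {L.em w}ᶜ ∩ F.zc w ⁻¹' O := by
    ext η
    constructor
    · rintro ⟨z, hz, rfl⟩
      exact ⟨F.inv_ne w z, by rw [mem_preimage, F.zc_inv]; exact hz⟩
    · rintro ⟨h1, h2⟩
      exact ⟨F.zc w η, h2, F.inv_zc h1⟩
  rw [he]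
  have hcont : ContinuousOn (F.zc w) {L.em w}ᶜ := fun η hη => (F.zc_cont hη).continuousWithinAt
  exact hcont.isOpen_inter_preimage isOpen_compl_singleton hO

lemma FlatD.inv_range (w : X) : range (F.inv w) = {L.em w}ᶜ := by
  ext η
  constructor
  · rintro ⟨z, rfl⟩
    exact F.inv_ne w z
  · intro h
    exact ⟨F.zc w η, F.inv_zc h⟩

/-- two charts of the same leaf at the same level differ by an isometry -/
lemma FlatD.same {w x : X} (h : L.em x = L.em w) (hl : L.lv x = L.lv w) :
    ∃ (G : ℂ ≃ₗᵢ[ℝ] ℂ) (b : ℂ), ∀ η, η ≠ L.em w → F.zc w η = G (F.zc x η) + b := by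
  set f : ℂ → ℂ := fun z => F.zc w (F.inv x z) with hf
  have hne : ∀ z, F.inv x z ≠ L.em w := fun z => by rw [← h]; exact F.inv_ne x z
  have hiso : Isometry f := by
    refine Isometry.of_dist_eq (fun z z' => ?_)
    rw [hf]
    simp only
    rw [dist_eq_norm, F.zc_dist (hne z) (hne z'),
      F.d_leaf w x h.symm _ _ (hne z) (hne z'), hl, sub_self, mul_zero, Real.exp_zero, one_mul,
      ← F.zc_dist (F.inv_ne x z) (F.inv_ne x z'), F.zc_inv, F.zc_inv, dist_eq_norm]
  have hsurj : Function.Surjective f := by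
    intro v
    refine ⟨F.zc x (F.inv w v), ?_⟩
    show F.zc w (F.inv x (F.zc x (F.inv w v))) = v
    rw [F.inv_zc (by rw [h]; exact F.inv_ne w v), F.zc_inv]
  let g : ℂ ≃ᵢ ℂ := ⟨Equiv.ofBijective f ⟨hiso.injective, hsurj⟩, hiso⟩
  set ga := g.toRealAffineIsometryEquiv with hga
  refine ⟨ga.linearIsometryEquiv, f 0, fun η hη => ?_⟩
  have h1 : ∀ z, f z = ga.linearIsometryEquiv z + f 0 := by
    intro z
    have h2 : ga z = f z := rfl
    have h3 : ga 0 = f 0 := rfl
    have h4 := ga.map_vadd 0 z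
    rw [vadd_eq_add, vadd_eq_add, add_zero, h2, h3] at h4
    exact h4
  rw [← h1]
  show _ = F.zc w (F.inv x (F.zc x η))
  rw [F.inv_zc (by rw [h]; exact hη)]

/-- images in the two charts have the same area -/
lemma FlatD.same_vol {w x : X} (h : L.em x = L.em w) (hl : L.lv x = L.lv w) {S : Set B}
    (hS : S ⊆ {L.em w}ᶜ) : volume (F.zc w '' S) = volume (F.zc x '' S) := by
  obtain ⟨G, b, hG⟩ := F.same h hl
  have e1 : F.zc w '' S = (fun z => b + z) '' (G '' (F.zc x '' S)) := by
    rw [image_image, image_image]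
    refine image_congr (fun η hη => ?_)
    rw [hG η (hS hη), add_comm]
  rw [e1]
  have h1 : MeasurePreserving (G.symm) (volume : Measure ℂ) volume := G.symm.measurePreserving
  have h2 : G '' (F.zc x '' S) = G.symm ⁻¹' (F.zc x '' S) := by
    exact G.toEquiv.image_eq_preimage_symm _
  rw [image_add_left, measure_preimage_add, h2]
  exact h1.measure_preimage_equiv (f := G.symm.toHomeomorph.toMeasurableEquiv) _

end same

/-! ### the measure in the flat chart -/

section meas

variable {L : Leaf Γ X B} [MeasurableSpace B] [BorelSpace B] {A : Area L} (F : Flat L A)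

lemma Flat.vol_img (x : X) {V : Set E2} (hV : MeasurableSet V) (hV2 : V ⊆ ball 0 2) :
    volume (F.toFlatD.zc x '' (L.e x '' V)) = ∫⁻ u in V, ENNReal.ofReal (F.c0 * A.s x u) := by
  set f : E2 → E2 := fun u => F.Z x (L.e x u) with hf
  have hV3 : V ⊆ ball (0 : E2) 3 := hV2.trans (ball_subset_ball (by norm_num))
  have hd : ∀ u ∈ V, HasFDerivWithinAt f (fderiv ℝ f u) V u := fun u hu =>
    (((F.Z_C1 x).differentiableOn (by norm_num)).differentiableAt
      (isOpen_ball.mem_nhds (hV2 hu))).hasFDerivAt.hasFDerivWithinAt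
  have hinj : InjOn f V := by
    intro u hu v hv huv
    have h1 : L.e x u ≠ L.em x := L.e_ne x u (ball_subset_closedBall (hV3 hu))
    have h2 : L.e x v ≠ L.em x := L.e_ne x v (ball_subset_closedBall (hV3 hv))
    exact L.e_inj x (ball_subset_closedBall (hV3 hu)) (ball_subset_closedBall (hV3 hv))
      ((F.Z_bij x).injOn h1 h2 huv)
  have h1 := lintegral_abs_det_fderiv_eq_addHaar_image (volume : Measure E2) hV hd hinj
  have h2 : ∫⁻ u in V, ENNReal.ofReal |(fderiv ℝ f u).det| =
      ∫⁻ u in V, ENNReal.ofReal (F.c0 * A.s x u) := by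
    refine setLIntegral_congr_fun hV (fun u hu => ?_)
    exact congrArg ENNReal.ofReal (F.Z_det x u (hV2 hu))
  rw [← h2, h1]
  have h3 : F.toFlatD.zc x '' (L.e x '' V) = io ⁻¹' (f '' V) := by
    ext z
    constructor
    · rintro ⟨_, ⟨u, hu, rfl⟩, rfl⟩
      exact ⟨u, hu, (io.apply_symm_apply _).symm⟩
    · rintro ⟨u, hu, hz⟩
      refine ⟨_, ⟨u, hu, rfl⟩, ?_⟩
      show io.symm (F.Z x (L.e x u)) = z
      have : F.Z x (L.e x u) = io z := hz
      rw [this, io.symm_apply_apply]
  rw [h3]
  have h4 : MeasurePreserving io (volume : Measure ℂ) volume := io.measurePreserving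
  exact h4.measure_preimage_equiv (f := io.toHomeomorph.toMeasurableEquiv) _

open Classical in
lemma Flat.key {w x : X} (h : L.em x = L.em w) (hw : L.lv w = 0) (hx : L.lv x = 0) {S : Set ℂ}
    (hS : MeasurableSet S) (hSx : ∀ z ∈ S, F.toFlatD.inv w z ∈ L.e x '' ball 0 2) :
    ∫⁻ η in F.toFlatD.inv w '' S, ENNReal.ofReal (Real.exp (-A.h * A.D (L.em w) η)) ∂A.ν =
      ENNReal.ofReal (1 / F.c0) * volume S := by
  set g : E2 → ℂ := fun u => F.toFlatD.zc w (L.e x u) with hg
  have hb3 : ball (0 : E2) 2 ⊆ ball 0 3 := ball_subset_ball (by norm_num)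
  have hne : ∀ u ∈ ball (0 : E2) 2, L.e x u ≠ L.em w := by
    intro u hu
    rw [← h]
    exact L.e_ne x u (ball_subset_closedBall (hb3 hu))
  have hgc : ContinuousOn g (ball 0 2) := by
    intro u hu
    have h1 : ContinuousAt (L.e x) u :=
      (e_contOn L x).continuousAt (Filter.mem_of_superset (isOpen_ball.mem_nhds (hb3 hu))
        ball_subset_closedBall)
    exact ((F.toFlatD.zc_cont (hne u hu)).comp h1).continuousWithinAt
  set V : Set E2 := ball 0 2 ∩ g ⁻¹' S with hV
  have hVm : MeasurableSet V := by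
    have h1 : Measurable ((ball (0 : E2) 2).piecewise g (fun _ => 0)) :=
      hgc.measurable_piecewise continuousOn_const measurableSet_ball
    have h2 : V = ball 0 2 ∩ ((ball (0 : E2) 2).piecewise g (fun _ => 0)) ⁻¹' S := by
      ext u
      constructor
      · rintro ⟨h1, h2⟩
        refine ⟨h1, ?_⟩
        rw [mem_preimage, piecewise_eq_of_mem _ _ _ h1]
        exact h2
      · rintro ⟨h1, h2⟩
        refine ⟨h1, ?_⟩
        rw [mem_preimage, piecewise_eq_of_mem _ _ _ h1] at h2
        exact h2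
    rw [h2]
    exact measurableSet_ball.inter (h1 hS)
  have hV2 : V ⊆ ball 0 2 := inter_subset_left
  have hV3 : V ⊆ ball 0 3 := hV2.trans hb3
  have himg : L.e x '' V = F.toFlatD.inv w '' S := by
    ext η
    constructor
    · rintro ⟨u, ⟨hu, huS⟩, rfl⟩
      exact ⟨_, huS, F.toFlatD.inv_zc (hne u hu)⟩
    · rintro ⟨z, hz, rfl⟩
      obtain ⟨u, hu, hu'⟩ := hSx z hz
      refine ⟨u, ⟨hu, ?_⟩, hu'⟩
      show F.toFlatD.zc w (L.e x u) ∈ S
      rw [hu', F.toFlatD.zc_inv]
      exact hz
  have h1 := A.ν_chart x V hVm hV3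
  rw [hx, mul_zero, Real.exp_zero, himg, h] at h1
  simp only [one_mul] at h1
  rw [← h1]
  have h2 := F.vol_img x hVm hV2
  have hc := F.c0_pos
  have h3 : ∫⁻ u in V, ENNReal.ofReal (F.c0 * A.s x u) =
      ENNReal.ofReal F.c0 * ∫⁻ u in V, ENNReal.ofReal (A.s x u) := by
    rw [← lintegral_const_mul' _ _ ENNReal.ofReal_ne_top]
    refine lintegral_congr (fun u => ?_)
    rw [ENNReal.ofReal_mul hc.le]
  have h4 : volume (F.toFlatD.zc w '' (L.e x '' V)) = volume (F.toFlatD.zc x '' (L.e x '' V)) := by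
    refine F.toFlatD.same_vol h (by rw [hx, hw]) ?_
    rintro _ ⟨u, hu, rfl⟩
    exact hne u (hV2 hu)
  have h5 : F.toFlatD.zc w '' (L.e x '' V) = S := by
    rw [himg, image_image]
    simp only [F.toFlatD.zc_inv, image_id']
  rw [h5] at h4
  rw [h4, h2, h3, ← mul_assoc, ← ENNReal.ofReal_mul (by positivity), one_div,
    inv_mul_cancel₀ hc.ne', ENNReal.ofReal_one, one_mul]

/-- **the total mass in the flat chart** -/
theorem Flat.nu_total {w : X} (hw : L.lv w = 0) :
    A.ν univ = ∫⁻ z : ℂ, ENNReal.ofReal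
      (Real.exp (A.h * A.D (L.em w) (F.toFlatD.inv w z)) * (1 / F.c0)) := by
  have hc := F.c0_pos
  have hemb : MeasurableEmbedding (F.toFlatD.inv w) :=
    (F.toFlatD.inv_openEmbedding w).measurableEmbedding
  have hDc : Continuous fun z => A.D (L.em w) (F.toFlatD.inv w z) :=
    continuous_iff_continuousAt.mpr (fun z =>
      (D_contAt A (F.toFlatD.inv_ne w z)).tendsto.comp (F.toFlatD.inv_tendsto w z))
  set g : B → ℝ≥0∞ := fun η => ENNReal.ofReal (Real.exp (-A.h * A.D (L.em w) η)) with hg
  set m0 : Measure ℂ := A.ν.comap (F.toFlatD.inv w) with hm0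
  set gg : ℂ → ℝ≥0∞ := fun z => g (F.toFlatD.inv w z) with hgg
  have hggm : Measurable gg :=
    ENNReal.measurable_ofReal.comp (Real.continuous_exp.comp (continuous_const.mul hDc)).measurable
  have hset : ∀ S : Set ℂ, ∫⁻ z in S, gg z ∂m0 = ∫⁻ η in F.toFlatD.inv w '' S, g η ∂A.ν := by
    intro S
    have h1 := hemb.restrict_map m0 (F.toFlatD.inv w '' S)
    rw [preimage_image_eq _ hemb.injective, hm0, hemb.map_comap,
      Measure.restrict_restrict_of_subset (image_subset_range _ _)] at h1
    rw [h1, hemb.lintegral_map]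
  -- the two measures
  have hmm : m0.withDensity gg = ENNReal.ofReal (1 / F.c0) • (volume : Measure ℂ) := by
    have hxz : ∀ z : ℂ, ∃ x : X, L.em x = L.em w ∧ L.ep x = F.toFlatD.inv w z ∧ L.lv x = 0 :=
      fun z => L.exists_frame _ _ (F.toFlatD.inv_ne w z).symm 0
    choose xz hx1 hx2 hx3 using hxz
    set O : ℂ → Set ℂ := fun z => F.toFlatD.inv w ⁻¹' (L.e (xz z) '' ball 0 2) with hO
    have hOn : ∀ z, O z ∈ 𝓝 z := by
      intro z
      have h1 : IsOpen (O z) := (isOpen_img L (xz z) isOpen_ball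
        (ball_subset_ball (by norm_num))).preimage (F.toFlatD.inv_openEmbedding w).continuous
      refine h1.mem_nhds ⟨0, mem_ball_self (by norm_num), ?_⟩
      rw [L.e_zero, hx2]
    obtain ⟨t, htc, htu⟩ := TopologicalSpace.countable_cover_nhds hOn
    rw [Measure.ext_iff_of_biUnion_eq_univ htc htu]
    intro z _
    ext S hS
    have hOm : MeasurableSet (O z) :=
      ((isOpen_img L (xz z) isOpen_ball (ball_subset_ball (by norm_num))).preimage
        (F.toFlatD.inv_openEmbedding w).continuous).measurableSet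
    rw [Measure.restrict_apply hS, Measure.restrict_apply hS, withDensity_apply _ (hS.inter hOm),
      hset, F.key (hx1 z) hw (hx3 z) (hS.inter hOm) (fun v hv => hv.2)]
    simp
  have e1 : A.ν univ = m0 univ := by
    rw [hm0, hemb.comap_apply, image_univ, F.toFlatD.inv_range]
    have h1 := measure_add_measure_compl (μ := A.ν) (measurableSet_singleton (L.em w))
    rw [A.ν_point, zero_add] at h1
    exact h1.symm
  set f2 : ℂ → ℝ≥0∞ := fun z =>
    ENNReal.ofReal (Real.exp (A.h * A.D (L.em w) (F.toFlatD.inv w z))) with hf2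
  have hf2m : Measurable f2 :=
    ENNReal.measurable_ofReal.comp (Real.continuous_exp.comp (continuous_const.mul hDc)).measurable
  have e2 : m0 univ = ∫⁻ z, f2 z ∂(m0.withDensity gg) := by
    rw [lintegral_withDensity_eq_lintegral_mul _ hggm hf2m]
    have : ∀ z, (gg * f2) z = 1 := by
      intro z
      show gg z * f2 z = 1
      rw [hgg, hf2, hg]
      simp only
      rw [← ENNReal.ofReal_mul (Real.exp_pos _).le, ← Real.exp_add]
      simp
    simp only [this, lintegral_one]
  rw [e1, e2, hmm, lintegral_smul_measure, smul_eq_mul, ← lintegral_const_mul' _ _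
    ENNReal.ofReal_ne_top]
  refine lintegral_congr (fun z => ?_)
  rw [hf2]
  simp only
  rw [← ENNReal.ofReal_mul (by positivity), mul_comm]

end meas

end

end Vale.Agent.P207.N3.H158
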