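import Vale.Agent.P207.N3.H158.NuB

set_option linter.all false

/-!
# P207, line N3, package P8 (8g): `nu_of_flat`
-/

namespace Vale.Agent.P207.N3.H158
open Set Filter Topology Metric MeasureTheory
open Vale.Agent.P207.N3.H662 (dt dtB visual_bound Calib)
open scoped ENNReal

noncomputable section

variable {Γ X B : Type} [Group Γ] [MetricSpace X] [ProperSpace X] [MulAction Γ X]
  [IsIsometricSMul Γ X] [TopologicalSpace B] [CompactSpace B] [T2Space B] [MulAction Γ B]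
  [ContinuousConstSMul Γ B]

variable {L : Leaf Γ X B} [MeasurableSpace B] [BorelSpace B] {A : Area L}

/-- the structure of `H662/FDefs.lean` -/
def ofFlat (F : Vale.Agent.P207.N3.H662.Flat L A) : Flat L A where
  k_pos := by
    have := A.h_pos
    positivity
  d := F.d
  d_cont := F.d_cont
  d_smul := F.d_smul
  d_leaf := fun w w' h η η' hη hη' => F.d_leaf w w' η η' h hη hη'
  d_proper := by
    intro w η hη
    rw [Filter.tendsto_atTop]
    intro R
    have hopen : IsOpen {p : X × B | p.2 ≠ L.em p.1} :=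
      isOpen_ne_fun continuous_snd (L.em_cont.comp continuous_fst)
    obtain ⟨K, hKn, hKs, hKc⟩ := local_compact_nhds (hopen.mem_nhds (x := (w, η)) hη)
    obtain ⟨V, hVo, hVm, hV⟩ := F.d_proper K hKc (fun p hp => hKs hp) R
    have t1 : Tendsto (fun p : X × B × B => (p.1, p.2.1)) (𝓝 (w, η, L.em w)) (𝓝 (w, η)) :=
      Continuous.tendsto (by fun_prop) (w, η, L.em w)
    have t2 : Tendsto (fun p : X × B × B => (p.1, p.2.2)) (𝓝 (w, η, L.em w)) (𝓝 (w, L.em w)) :=
      Continuous.tendsto (by fun_prop) (w, η, L.em w)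
    filter_upwards [mem_nhdsWithin_of_mem_nhds (t1 hKn),
      mem_nhdsWithin_of_mem_nhds (t2 (hVo.mem_nhds (hVm w))), self_mem_nhdsWithin] with p h1 h2 h3
    exact hV _ h1 _ h2 h3.2
  Z := F.Z
  Z_dist := F.Z_dist
  Z_bij := F.Z_bij
  Z_C1 := F.Z_C1
  c0 := F.c₀
  c0_pos := F.c₀_pos
  Z_det := F.Z_det

/-- the visual measure at the base point has mass at most `4π/h` -/
theorem nu_of_flat' (F : Flat L A) (C : Calib L A) :
    A.ν univ ≤ ENNReal.ofReal (4 / A.h * Real.pi) := by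
  have hh := A.h_pos
  have hc := F.c0_pos
  set x := C.x with hx
  -- the base point at infinity
  obtain ⟨ξ0, hξ1, hξ2⟩ : ∃ ξ0 : B, ξ0 ≠ L.em x ∧ ξ0 ≠ L.ep x := by
    obtain ⟨z, hz⟩ := exists_ne (F.toFlatD.zc x (L.ep x))
    refine ⟨F.toFlatD.inv x z, F.toFlatD.inv_ne x z, fun h => hz ?_⟩
    rw [← h, F.toFlatD.zc_inv]
  obtain ⟨w, hw1, -, hw3⟩ := L.exists_frame ξ0 (L.em x) hξ1 0
  have n1 : L.em x ≠ L.em w := by rw [hw1]; exact hξ1.symm
  have n2 : L.ep x ≠ L.em w := by rw [hw1]; exact hξ2.symm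
  set inv := F.toFlatD.inv w with hinv
  set zc := F.toFlatD.zc w with hzc
  set D0 : ℂ → ℝ := fun z => A.D (L.em w) (inv z) with hD0
  set D' : ℂ → ℂ → ℝ := fun ξ z => A.D (inv ξ) (inv z) with hD'
  have inv_inj : ∀ {a b : ℂ}, a ≠ b → inv a ≠ inv b := by
    intro a b hab h
    exact hab (by rw [← F.toFlatD.zc_inv w a, ← F.toFlatD.zc_inv w b]; exact congrArg zc h)
  -- Moebius constants
  have hM : ∀ ξ : ℂ, ∃ c : ℝ, 0 < c ∧ ∀ z, ξ ≠ z →
      c ^ 2 / ‖z - ξ‖ ^ 4 = Real.exp (A.h * (D0 z - D' ξ z)) := by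
    intro ξ
    obtain ⟨w', hw1', -, hw3'⟩ := L.exists_frame (inv ξ) (L.em w) (F.toFlatD.inv_ne w ξ) 0
    have hne : L.em w ≠ L.em w' := by rw [hw1']; exact (F.toFlatD.inv_ne w ξ).symm
    obtain ⟨c, hc0, -, -, H⟩ := F.toFlatD.moebius hne
    refine ⟨c, hc0, fun z hz => ?_⟩
    obtain ⟨y, hy1, hy2, -⟩ := L.exists_frame (L.em w) (inv z) (F.toFlatD.inv_ne w z).symm 0
    have hy' : L.em w' ≠ L.ep y := by
      rw [hw1', hy2]
      exact inv_inj hz
    have h1 := H y hy1 hy'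
    have h2 : F.d w (L.ep y) (L.em w') = ‖z - ξ‖ := by
      rw [hy2, hw1', ← F.toFlatD.zc_dist (F.toFlatD.inv_ne w z) (F.toFlatD.inv_ne w ξ),
        F.toFlatD.zc_inv, F.toFlatD.zc_inv]
    have h3 := D_hol A hy'
    rw [hy1, hy2, hw1'] at h3
    rw [h2, mu, hw3, hw3', hw1'] at h1
    have e1 : A.h / 2 * (0 - L.lv (L.hol (inv ξ) y) - (0 - L.lv y)) =
        A.h * (D0 z - D' ξ z) / 2 := by
      rw [hD0, hD']
      simp only
      rw [h3]
      ring
    rw [e1] at h1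
    have h4 : Real.exp (A.h * (D0 z - D' ξ z)) =
        (Real.exp (A.h * (D0 z - D' ξ z) / 2)) ^ 2 := by
      rw [← Real.exp_nat_mul]
      congr 1
      push_cast
      ring
    rw [h4, h1, div_pow]
    congr 1
    ring
  choose c hc0 hcz using hM
  set A0 : ℝ := 1 / F.c0 with hA0
  have hA0p : 0 < A0 := by positivity
  set Af : ℂ → ℝ := fun ξ => A0 * c ξ ^ 2 with hAf
  have hAfp : ∀ ξ, 0 < Af ξ := fun ξ => mul_pos hA0p (pow_pos (hc0 ξ) 2)
  have hb : ∀ ξ z, ξ ≠ z → Af ξ / ‖z - ξ‖ ^ 4 = Real.exp (A.h * (D0 z - D' ξ z)) * A0 := by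
    intro ξ z hz
    rw [← hcz ξ z hz, hAf]
    ring
  have hD0c : Continuous D0 := continuous_iff_continuousAt.mpr (fun z =>
    (D_contAt A (F.toFlatD.inv_ne w z)).tendsto.comp (F.toFlatD.inv_tendsto w z))
  have hsym : ∀ ξ z, ξ ≠ z → D' ξ z = D' z ξ := fun ξ z h => D_symm A (inv_inj h)
  have hneg : ∀ ξ z, ξ ≠ z → D' ξ z ≤ 0 := fun ξ z h => C.D_nonpos _ _ (inv_inj h)
  -- the calibration
  set ξ1 := zc (L.em x) with hξ1d
  set η1 := zc (L.ep x) with hη1d
  have i1 : inv ξ1 = L.em x := F.toFlatD.inv_zc n1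
  have i2 : inv η1 = L.ep x := F.toFlatD.inv_zc n2
  have hne1 : ξ1 ≠ η1 := by
    intro h
    apply L.em_ne_ep x
    rw [← i1, ← i2, h]
  have hDx : D' ξ1 η1 = 0 := by
    rw [hD']
    simp only
    rw [i1, i2]
    exact C.D_zero
  have q1 : L.em w ≠ L.ep x := n2.symm
  have q2 : L.em (L.flip x) ≠ L.em w := by rw [em_flip]; exact n2
  have q3 : L.em w ≠ L.ep (L.flip x) := by rw [ep_flip']; exact n1.symm
  obtain ⟨Lb, hLb, hLb'⟩ := F.cross_deriv n1 q1
  obtain ⟨La, hLa, hLa'⟩ := F.cross_deriv q2 q3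
  have ex0 : L.e x 0 = L.ep x := L.e_zero x
  have ef0 : L.e (L.flip x) 0 = L.em x := by rw [L.e_zero, ep_flip']
  -- areas
  have dh1 := D_hol A q1
  have dh2 := D_hol A q3
  rw [em_flip, ep_flip'] at dh2
  have D1 : D0 η1 = A.D (L.em w) (L.ep x) := by
    rw [hD0]
    simp only
    rw [i2]
  have D2 : D0 ξ1 = A.D (L.em w) (L.em x) := by
    rw [hD0]
    simp only
    rw [i1]
  have D3 : D' ξ1 η1 = A.D (L.em x) (L.ep x) := by
    rw [hD']
    simp only
    rw [i1, i2]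
  have D4 : D' η1 ξ1 = A.D (L.ep x) (L.em x) := by
    rw [hD']
    simp only
    rw [i1, i2]
  have h1 : Af ξ1 / ‖η1 - ξ1‖ ^ 4 * |dt Lb| = Real.exp (-(A.h * L.lv x)) * A.s x 0 := by
    rw [hb ξ1 η1 hne1, hLb', D1, D3, hw3]
    have e : Real.exp (A.h * (A.D (L.em w) (L.ep x) - A.D (L.em x) (L.ep x))) * A0 *
        (Real.exp (A.h * (0 - L.lv (L.hol (L.em w) x))) * (F.c0 * A.s x 0)) =
        (Real.exp (A.h * (A.D (L.em w) (L.ep x) - A.D (L.em x) (L.ep x))) *
        Real.exp (A.h * (0 - L.lv (L.hol (L.em w) x)))) * A.s x 0 * (A0 * F.c0) := by ring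
    rw [e, ← Real.exp_add]
    have e2 : A0 * F.c0 = 1 := by rw [hA0]; field_simp
    have e3 : A.h * (A.D (L.em w) (L.ep x) - A.D (L.em x) (L.ep x)) +
        A.h * (0 - L.lv (L.hol (L.em w) x)) = -(A.h * L.lv x) := by
      have : A.D (L.em w) (L.ep x) - A.D (L.em x) (L.ep x) =
        -(L.lv x - L.lv (L.hol (L.em w) x)) := by linarith
      rw [this]
      ring
    rw [e2, e3, mul_one]
  have h2 : Af η1 / ‖η1 - ξ1‖ ^ 4 * |dt La| =
      Real.exp (-(A.h * L.lv (L.flip x))) * A.s (L.flip x) 0 := by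
    rw [norm_sub_rev, hb η1 ξ1 hne1.symm, hLa', D2, D4, hw3]
    have e : Real.exp (A.h * (A.D (L.em w) (L.em x) - A.D (L.ep x) (L.em x))) * A0 *
        (Real.exp (A.h * (0 - L.lv (L.hol (L.em w) (L.flip x)))) *
          (F.c0 * A.s (L.flip x) 0)) =
        (Real.exp (A.h * (A.D (L.em w) (L.em x) - A.D (L.ep x) (L.em x))) *
        Real.exp (A.h * (0 - L.lv (L.hol (L.em w) (L.flip x))))) * A.s (L.flip x) 0 *
          (A0 * F.c0) := by ring
    rw [e, ← Real.exp_add]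
    have e2 : A0 * F.c0 = 1 := by rw [hA0]; field_simp
    have e3 : A.h * (A.D (L.em w) (L.em x) - A.D (L.ep x) (L.em x)) +
        A.h * (0 - L.lv (L.hol (L.em w) (L.flip x))) = -(A.h * L.lv (L.flip x)) := by
      have : A.D (L.em w) (L.em x) - A.D (L.ep x) (L.em x) =
        -(L.lv (L.flip x) - L.lv (L.hol (L.em w) (L.flip x))) := by linarith
      rw [this]
      ring
    rw [e2, e3, mul_one]
  have he : (Real.exp (-(A.h * L.lv x)) * A.s x 0) *
      (Real.exp (-(A.h * L.lv (L.flip x))) * A.s (L.flip x) 0) = dtB C.T := by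
    rw [← C.s_mul]
    have e : (Real.exp (-(A.h * L.lv x)) * A.s x 0) *
      (Real.exp (-(A.h * L.lv (L.flip x))) * A.s (L.flip x) 0) =
      (Real.exp (-(A.h * L.lv x)) * Real.exp (-(A.h * L.lv (L.flip x)))) *
        (A.s x 0 * A.s (L.flip x) 0) := by ring
    rw [e, ← Real.exp_add]
    have e2 : -(A.h * L.lv x) + -(A.h * L.lv (L.flip x)) = 0 := by
      have h3 := D_eq' A x
      rw [C.D_zero] at h3
      have : -(A.h * L.lv x) + -(A.h * L.lv (L.flip x)) =
        -A.h * (L.lv x + L.lv (L.flip x)) := by ring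
      rw [this, ← h3, mul_zero]
    rw [e2, Real.exp_zero, one_mul]
  have hlim : ∀ Xv Yv : E2, Tendsto (fun s : ℝ =>
      (D' (zc (L.e (L.flip x) (s • Yv))) (zc (L.e x (s • Xv))) + D' ξ1 η1 -
      D' ξ1 (zc (L.e x (s • Xv))) - D' (zc (L.e (L.flip x) (s • Yv))) η1) / s ^ 2)
      (𝓝[>] 0) (𝓝 (-C.T Xv Yv)) := by
    intro Xv Yv
    refine (C.lim Xv Yv).congr' ?_
    have tb : ∀ᶠ s : ℝ in 𝓝[>] 0, L.e x (s • Xv) ≠ L.em w := by
      have h3 : ContinuousAt (L.e x) ((0 : ℝ) • Xv) := by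
        rw [zero_smul]
        exact (e_contOn L x).continuousAt (closedBall_mem_nhds _ (by norm_num))
      have h4 : Tendsto (fun s : ℝ => s • Xv) (𝓝 0) (𝓝 ((0 : ℝ) • Xv)) :=
        Continuous.tendsto (by fun_prop) 0
      have h5 := h3.tendsto.comp h4
      have h6 : L.e x ((0 : ℝ) • Xv) ≠ L.em w := by
        rw [zero_smul, ex0]
        exact n2
      exact (h5.eventually_ne h6).filter_mono nhdsWithin_le_nhds
    have ta : ∀ᶠ s : ℝ in 𝓝[>] 0, L.e (L.flip x) (s • Yv) ≠ L.em w := by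
      have h3 : ContinuousAt (L.e (L.flip x)) ((0 : ℝ) • Yv) := by
        rw [zero_smul]
        exact (e_contOn L (L.flip x)).continuousAt (closedBall_mem_nhds _ (by norm_num))
      have h4 : Tendsto (fun s : ℝ => s • Yv) (𝓝 0) (𝓝 ((0 : ℝ) • Yv)) :=
        Continuous.tendsto (by fun_prop) 0
      have h5 := h3.tendsto.comp h4
      have h6 : L.e (L.flip x) ((0 : ℝ) • Yv) ≠ L.em w := by
        rw [zero_smul, ef0]
        exact n1
      exact (h5.eventually_ne h6).filter_mono nhdsWithin_le_nhds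
    filter_upwards [ta, tb] with s hs1 hs2
    rw [hD']
    simp only
    have j1 : inv (zc (L.e (L.flip x) (s • Yv))) = L.e (L.flip x) (s • Yv) :=
      F.toFlatD.inv_zc hs1
    have j2 : inv (zc (L.e x (s • Xv))) = L.e x (s • Xv) := F.toFlatD.inv_zc hs2
    rw [j1, j2, i1, i2]
  have key := visual_bound hh hA0p hAfp hD0c.measurable hsym hneg hb hne1 hDx hLa hLb
    (by rw [ef0]) (by rw [ex0]) C.T_pos hlim he h1 h2
  rw [F.nu_total hw3]
  exact key

/-- **(8g)** the visual measure at the base point has mass at most `4π/h` -/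
theorem nu_of_flat (F : Vale.Agent.P207.N3.H662.Flat L A) (C : Calib L A) :
    A.ν univ ≤ ENNReal.ofReal (4 / A.h * Real.pi) :=
  nu_of_flat' (ofFlat F) C

end

end Vale.Agent.P207.N3.H158
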