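import Vale.Agent.P207.N3.H147.Fwd
import Vale.Agent.P207.N3.H147.Chart
import Vale.Agent.P207.N3.H854.Dens

/-!
# P207, line N3, package P14 (4.3): the normal coordinate near a homoclinic point

For `κ = k β⁺ ≠ β⁻` the discs `e (φ_{ml} z0) u`, `z0 = hol β⁻ (k x)`, of the leaf of `β⁻` near `κ`
are, in the normal coordinate, `Φ (N^{-m} v)` with `v` close to `x (e y u)`, `y` on the axis.
-/

open Set Filter Topology Metric
open scoped ContDiff

set_option maxSynthPendingDepth 3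
set_option linter.unusedSectionVars false

noncomputable section

namespace Vale.Agent.P207.N3.H158

open Vale.Agent.P207.N3

variable {Γ X B : Type} [Group Γ] [MetricSpace X] [ProperSpace X] [MulAction Γ X]
  [IsIsometricSMul Γ X] [TopologicalSpace B] [CompactSpace B] [T2Space B] [MulAction Γ B]
  [ContinuousConstSMul Γ B] {L : Leaf Γ X B} {o : Orb L}

/-! ### frames -/

/-- the frames on the axis at the level of `o.x` -/
def Ax0 (o : Orb L) : Set X := {y | L.em y = o.neg ∧ L.ep y = o.pos ∧ L.lv y = L.lv o.x}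

theorem isCompact_Ax0 (o : Orb L) : IsCompact (Ax0 o) := by
  have h := L.hopf_proper {(o.neg, o.pos)} isCompact_singleton
    (by rintro p rfl; exact (H854.pos_ne_neg o).symm) |L.lv o.x|
  refine h.of_isClosed_subset ?_ ?_
  · exact (isClosed_eq L.em_cont continuous_const).inter
      ((isClosed_eq (H147.ep_cont L) continuous_const).inter
        (isClosed_eq L.lv_cont continuous_const))
  · rintro y ⟨h1, h2, h3⟩
    refine ⟨?_, ?_⟩
    · rw [h1, h2]; rfl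
    · rw [h3]

theorem self_mem_Ax0 (o : Orb L) : o.x ∈ Ax0 o := ⟨rfl, rfl, rfl⟩

theorem rot_mem_Ax0 (b : O2) : L.rot b o.x ∈ Ax0 o :=
  ⟨L.em_rot b o.x, H147.ep_rot L b o.x, L.lv_rot b o.x⟩

theorem inv_smul_ne {k : Γ} (hk : k • o.pos ≠ o.neg) : k⁻¹ • o.neg ≠ o.pos := by
  intro h
  exact hk (by rw [← h, smul_inv_smul])

theorem inv_pow_ne {ζ : B} (hζ : ζ ≠ o.pos) (m : ℕ) : (o.β ^ m)⁻¹ • ζ ≠ o.pos := by
  intro h
  apply hζ
  have h1 : ζ = o.β ^ m • o.pos := by rw [← h, smul_inv_smul]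
  rw [h1]; exact H147.Ax.pow_smul_ep o.ax m

/-- the frame of the leaf of `β⁻` at the homoclinic point `k β⁺` -/
def z0 (o : Orb L) (k : Γ) : X := L.hol o.neg (k • o.x)

theorem ne_ep {k : Γ} (hk : k • o.pos ≠ o.neg) {y : X} (hy : L.ep y = o.pos) :
    o.neg ≠ L.ep (k • y) := by
  rw [H147.ep_smul, hy]; exact hk.symm

theorem em_z0 {k : Γ} (hk : k • o.pos ≠ o.neg) : L.em (z0 o k) = o.neg :=
  L.hol_em _ _ (ne_ep hk rfl)

theorem ep_z0 {k : Γ} (hk : k • o.pos ≠ o.neg) : L.ep (z0 o k) = k • o.pos := by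
  rw [z0, L.hol_ep _ _ (ne_ep hk rfl), H147.ep_smul]; rfl

theorem pow_smul_rot (m : ℕ) (b : O2) :
    o.β ^ m • L.rot b o.x = L.φ (m * o.l) (L.rot (o.a ^ m * b) o.x) := by
  rw [← L.rot_smul, H147.Ax.pow_smul o.ax, L.rot_φ, ← L.rot_mul]

/-- `hol β⁻ (k β^m rot b x) = rot (a^m b) φ_{ml} z0` -/
theorem hol_rot_kb {k : Γ} (hk : k • o.pos ≠ o.neg) (m : ℕ) (b : O2) :
    L.hol o.neg (k • o.β ^ m • L.rot b o.x) =
      L.rot (o.a ^ m * b) (L.φ (m * o.l) (z0 o k)) := by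
  have h1 : ∀ c : O2, o.neg ≠ L.ep (L.rot c (k • o.x)) := fun c => by
    rw [H147.ep_rot]; exact ne_ep hk rfl
  rw [pow_smul_rot, ← L.φ_smul, ← L.rot_smul, L.hol_φ _ _ _ (h1 _), L.hol_rot _ _ _ (ne_ep hk rfl),
    ← L.rot_φ]
  rfl

/-- `hol β⁻ (k β^m y) = k β^m hol (β^{-m} k⁻¹ β⁻) y` -/
theorem hol_kb {k : Γ} (hk : k • o.pos ≠ o.neg) {y : X} (hy : L.ep y = o.pos) (m : ℕ) :
    L.hol o.neg (k • o.β ^ m • y) = (k * o.β ^ m) • L.hol ((o.β ^ m)⁻¹ • k⁻¹ • o.neg) y := by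
  have h1 : (o.β ^ m)⁻¹ • k⁻¹ • o.neg ≠ L.ep y := by
    rw [hy]; exact inv_pow_ne (inv_smul_ne hk) m
  have h2 := L.hol_smul (k * o.β ^ m) _ y h1
  rw [← h2, mul_smul, mul_smul, smul_inv_smul, smul_inv_smul]

/-! ### the small discs -/

/-- the discs `e (φ_t z)` in the chart `e z` -/
theorem small_disc (L : Leaf Γ X B) (z : X) {t : ℝ} (ht : L.t1 ≤ t) {u : E2}
    (hu : u ∈ ball (0 : E2) 3) :
    ∃ u' ∈ ball (0 : E2) 1, L.e (L.φ t z) u = L.e z u' ∧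
      ‖u'‖ ≤ H545.cc L 1 * Real.exp (-L.χ * t) * 3 := by
  have hu3 := ball_subset_closedBall hu
  refine ⟨L.τ (L.φ t z) z u, H545.tau_step_mem L ht z hu3, (H545.e_tau_step L ht z hu3).symm, ?_⟩
  have h2 : L.τ (L.φ t z) z 0 = 0 := by
    refine H545.tau_eq_of L (by simp) ?_
    rw [L.e_zero, L.e_zero, H147.ep_φ]
  have h3 : ‖L.τ (L.φ t z) z u - L.τ (L.φ t z) z 0‖ ≤
      (H545.cc L 1 * Real.exp (-L.χ * t)) * ‖u - 0‖ := by
    refine (convex_ball (0 : E2) 3).norm_image_sub_le_of_norm_fderiv_le (𝕜 := ℝ) (fun v hv => ?_)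
      (fun v hv => ?_) (by simp) hu
    · exact ((H545.tau_step_smooth L ht z).contDiffAt (isOpen_ball.mem_nhds hv)).differentiableAt
        (by simp)
    · have := H545.contract_cc L le_rfl ht z hv
      rwa [norm_iteratedFDeriv_one] at this
  rw [h2, sub_zero, sub_zero] at h3
  have hu' : ‖u‖ ≤ 3 := by simpa using hu3
  have h4 : 0 ≤ H545.cc L 1 * Real.exp (-L.χ * t) := by
    have := H545.one_le_cc L 1
    positivity
  exact h3.trans (mul_le_mul_of_nonneg_left hu' h4)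

theorem tendsto_ml (o : Orb L) : Tendsto (fun m : ℕ => (m : ℝ) * o.l) atTop atTop :=
  tendsto_natCast_atTop_atTop.atTop_mul_const o.ax.pos

theorem tendsto_small (o : Orb L) :
    Tendsto (fun m : ℕ => H545.cc L 1 * Real.exp (-L.χ * (m * o.l)) * 3) atTop (𝓝 0) := by
  have h1 : Tendsto (fun m : ℕ => L.χ * ((m : ℝ) * o.l)) atTop atTop :=
    (tendsto_ml o).const_mul_atTop L.χ_pos
  have h2 := ((Real.tendsto_exp_neg_atTop_nhds_zero.comp h1).const_mul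
    (H545.cc L 1)).mul_const 3
  rw [mul_zero, zero_mul] at h2
  refine h2.congr fun m => ?_
  simp only [Function.comp]
  congr 3
  ring

/-! ### the normal coordinate -/

theorem x_contAt (n : Nor L o) {η : B} (h : η ≠ o.neg) : ContinuousAt n.x η := by
  obtain ⟨y, hy1, hy2, -⟩ := L.exists_frame o.neg η h.symm 0
  have h0 : (0 : E2) ∈ ball (0 : E2) 3 := by simp
  have h1 : ContinuousOn (fun u => n.x (L.e y u)) (ball 0 3) := (n.smooth y hy1).continuousOn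
  intro V hV
  have he : L.e y 0 = η := by rw [L.e_zero, hy2]
  obtain ⟨V', hV', hV'o, hηV'⟩ := _root_.mem_nhds_iff.mp hV
  have h2 : IsOpen (ball (0 : E2) 3 ∩ (fun u => n.x (L.e y u)) ⁻¹' V') :=
    h1.isOpen_inter_preimage isOpen_ball hV'o
  have h3 := H854.isOpen_image_of L y h2 inter_subset_left
  have h4 : L.e y '' (ball (0 : E2) 3 ∩ (fun u => n.x (L.e y u)) ⁻¹' V') ∈ 𝓝 η := by
    refine h3.mem_nhds ⟨0, ⟨h0, ?_⟩, he⟩
    show n.x (L.e y 0) ∈ V'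
    rwa [he]
  refine Filter.mem_map.mpr (mem_of_superset h4 ?_)
  rintro _ ⟨u, ⟨-, hu⟩, rfl⟩
  exact hV' hu

theorem inv_fn_iter {N : H790.NF} (h : N.OK) (m : ℕ) (x : E2) : N.inv^[m] (N.fn^[m] x) = x :=
  (Function.LeftInverse.iterate (H790.NF.inv_fn h) m) x

/-- a local inverse of a smooth map of the plane -/
theorem exists_local_inv {g : E2 → E2} (hg : ContDiffAt ℝ ∞ g 0) (hd : (fderiv ℝ g 0).det ≠ 0)
    (h0 : g 0 = 0) : ∃ ψ : E2 → E2, ContDiffAt ℝ ∞ ψ 0 ∧ ψ 0 = 0 ∧ (∀ᶠ u in 𝓝 (0 : E2), ψ (g u) = u) ∧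
      fderiv ℝ ψ 0 = ((H854.equivOfDet (fderiv ℝ g 0) hd).symm : E2 →L[ℝ] E2) := by
  have hd' : HasFDerivAt g (H854.equivOfDet (fderiv ℝ g 0) hd : E2 →L[ℝ] E2) 0 := by
    rw [H854.coe_equivOfDet]
    exact (hg.differentiableAt (by simp)).hasFDerivAt
  have hn : (∞ : WithTop ℕ∞) ≠ 0 := by simp
  have hs : HasStrictFDerivAt g (H854.equivOfDet (fderiv ℝ g 0) hd : E2 →L[ℝ] E2) 0 :=
    hg.hasStrictFDerivAt' hd' hn
  have h1 := hg.to_localInverse hd' hn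
  have h2 := hs.eventually_left_inverse
  have h3 := hs.to_localInverse.hasFDerivAt
  have e1 : hg.localInverse hd' hn = hs.localInverse g _ 0 := rfl
  rw [e1, h0] at h1
  rw [h0] at h3
  refine ⟨hs.localInverse g _ 0, h1, ?_, h2, h3.fderiv⟩
  have := h2.self_of_nhds
  rwa [h0] at this

theorem det_symm_ne (A : E2 ≃L[ℝ] E2) : (A.symm : E2 →L[ℝ] E2).det ≠ 0 := by
  refine H147.det_ne (C := (A : E2 →L[ℝ] E2)) ?_
  ext v : 1
  simp

/-- **the normal coordinate near the homoclinic point** -/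
theorem exists_Phi (n : Nor L o) {c : ℝ} (W : H147.Fwd o n.x n.N.fn c) {k : Γ}
    (hk : k • o.pos ≠ o.neg) :
    ∃ (Φ : E2 → E2) (V : ℕ → O2 → E2 → E2), ContDiffAt ℝ ∞ Φ 0 ∧ Φ 0 = n.x (k • o.pos) ∧
      (fderiv ℝ Φ 0).det ≠ 0 ∧
      (∀ ε > 0, ∀ᶠ m : ℕ in atTop, ∀ b : O2, ∀ u ∈ ball (0 : E2) 3,
        ‖V m b u - n.x (L.e (L.rot b o.x) u)‖ ≤ ε) ∧
      ∀ᶠ m : ℕ in atTop, ∀ b : O2, ∀ u ∈ ball (0 : E2) 3,
        n.x (L.e (L.rot (o.a ^ m * b) (L.φ (m * o.l) (z0 o k))) u) =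
          Φ (n.N.inv^[m] (V m b u)) := by
  set ζ : B := k⁻¹ • o.neg with hζ
  have hζp : ζ ≠ o.pos := inv_smul_ne hk
  have hζe : ζ ≠ L.ep o.x := hζp
  have hb0 : (0 : E2) ∈ ball (0 : E2) 1 := by simp
  -- the map `g`
  set g : E2 → E2 := fun u => W.F ζ (L.e (L.hol ζ o.x) u) with hgdef
  have hg : ContDiffAt ℝ ∞ g 0 := (W.smooth ζ hζp).contDiffAt (isOpen_ball.mem_nhds hb0)
  have hgd : (fderiv ℝ g 0).det ≠ 0 := W.deriv ζ hζp
  have hg0 : g 0 = 0 := by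
    have e1 : L.ep (L.hol ζ o.x) = o.pos := L.hol_ep _ _ hζe
    simp only [hgdef]
    rw [L.e_zero, e1, W.base ζ hζp]
  obtain ⟨ψ, hψ, hψ0, hψg, hψd⟩ := exists_local_inv hg hgd hg0
  -- the map `h`
  set h : E2 → E2 := fun u => n.x (L.e (z0 o k) u) with hhdef
  have hh : ContDiffAt ℝ ∞ h 0 := H854.jj_contDiffAt n (em_z0 hk) (by simp)
  have hhd : (fderiv ℝ h 0).det ≠ 0 := n.deriv _ (em_z0 hk) 0 (by simp)
  have hdψ : HasFDerivAt ψ (fderiv ℝ ψ 0) 0 := (hψ.differentiableAt (by simp)).hasFDerivAt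
  have hdh : HasFDerivAt h (fderiv ℝ h 0) (ψ 0) := by
    rw [hψ0]; exact (hh.differentiableAt (by simp)).hasFDerivAt
  have hK : o.pos ∉ ({ζ} : Set B) := fun h => hζp h.symm
  have hQ : ∀ y ∈ Ax0 o, L.em y = o.neg := fun y hy => hy.1
  refine ⟨h ∘ ψ, fun m b u => n.N.fn^[m] (W.F ζ (o.β ^ m •
    L.e (L.hol ((o.β ^ m)⁻¹ • ζ) (L.rot b o.x)) u)), ?_, ?_, ?_, ?_, ?_⟩
  · refine ContDiffAt.comp 0 ?_ hψ
    rw [hψ0]; exact hh
  · show h (ψ 0) = _
    rw [hψ0]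
    simp only [hhdef]
    rw [L.e_zero, ep_z0 hk]
  · rw [(hdh.comp 0 hdψ).fderiv, H854.det_comp', hψd]
    exact mul_ne_zero hhd (det_symm_ne _)
  · intro ε hε
    have hC3 := W.conv3 {ζ} isCompact_singleton hK (Ax0 o) (isCompact_Ax0 o) hQ 0 ε hε
    filter_upwards [hC3] with m hm3 b u hu
    have hm3' := hm3 ζ rfl _ (rot_mem_Ax0 b) u hu
    have e4 : ∀ (A A' : E2 → E2), ‖iteratedFDeriv ℝ 0 A u - iteratedFDeriv ℝ 0 A' u‖ =
        ‖A u - A' u‖ := by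
      intro A A'
      rw [iteratedFDeriv_zero_eq_comp, iteratedFDeriv_zero_eq_comp]
      simp only [Function.comp]
      rw [← map_sub, LinearIsometryEquiv.norm_map]
    rw [e4] at hm3'
    exact hm3'
  obtain ⟨C, hC⟩ := W.conv {ζ} isCompact_singleton hK (Ax0 o) (isCompact_Ax0 o) hQ 0
  obtain ⟨δ, hδ, hδg⟩ := Metric.eventually_nhds_iff.mp hψg
  have hsmall2 := (tendsto_small o).eventually (gt_mem_nhds hδ)
  have ht1 : ∀ᶠ m : ℕ in atTop, L.t1 ≤ m * o.l := (tendsto_ml o).eventually_ge_atTop _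
  filter_upwards [hC, hsmall2, ht1] with m hm hms hmt b u hu
  have hyQ : L.rot b o.x ∈ Ax0 o := rot_mem_Ax0 b
  have hyep : L.ep (L.rot b o.x) = o.pos := hyQ.2.1
  obtain ⟨-, hm1, -, -⟩ := hm ζ rfl _ hyQ
  have hu3 := ball_subset_closedBall hu
  obtain ⟨u', hu', he'⟩ := hm1 u hu3
  have hu'3 : u' ∈ closedBall (0 : E2) 3 := H147.cb3 (by norm_num) hu'
  -- `e (hol β⁻ (k β^m y)) u = e z0 u'`
  have e1 : L.e (L.hol o.neg (k • o.β ^ m • L.rot b o.x)) u = L.e (z0 o k) u' := by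
    rw [hol_kb hk hyep, L.e_smul _ _ _ hu3, mul_smul, ← he', ← L.e_smul _ _ _ hu'3,
      ← L.hol_smul _ _ _ hζe, hζ, smul_inv_smul]
    rfl
  have e2 := hol_rot_kb hk m b
  rw [e2] at e1
  -- `u'` is small
  obtain ⟨v0, hv0, hv1, hv2⟩ := small_disc L (z0 o k) hmt (u := (o.a ^ m * b) u)
    (H147.isom_mem hu)
  have e3 : u' = v0 := by
    refine L.e_inj (z0 o k) hu'3 (H147.cb3 (by norm_num) hv0) ?_
    rw [← hv1, ← e1, L.e_rot _ _ _ hu3]
  have hu'δ : dist u' 0 < δ := by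
    rw [dist_zero_right, e3]
    exact hv2.trans_lt hms
  have hgu' : g u' = W.F ζ (o.β ^ m • L.e (L.hol ((o.β ^ m)⁻¹ • ζ) (L.rot b o.x)) u) := by
    simp only [hgdef]
    rw [he']
  rw [← hgu', inv_fn_iter n.ok, e1]
  show _ = h (ψ (g u'))
  rw [hδg hu'δ]

/-- the normal coordinate is bounded on the unit discs of the axis -/
theorem exists_bd (n : Nor L o) : ∃ R : ℝ, 0 ≤ R ∧ ∀ b : O2, ∀ u ∈ ball (0 : E2) 3,
    ‖n.x (L.e (L.rot b o.x) u)‖ ≤ R := by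
  have hc : ContinuousOn (fun u => n.x (L.e o.x u)) (closedBall (0 : E2) 3) := by
    intro u hu
    have hne : L.e o.x u ≠ o.neg := L.e_ne o.x u hu
    exact (x_contAt n hne).comp_continuousWithinAt (H545.e_contOn L o.x u hu)
  obtain ⟨R, hR⟩ := (isCompact_closedBall (0 : E2) 3).exists_bound_of_continuousOn hc
  refine ⟨R, (norm_nonneg _).trans (hR 0 (by simp)), fun b u hu => ?_⟩
  have hu3 := ball_subset_closedBall hu
  rw [L.e_rot b o.x u hu3]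
  exact hR _ (H147.isom_mem' hu3)

end Vale.Agent.P207.N3.H158
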