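import Vale.Agent.P207.N3.H158.RegA
import Vale.Agent.P207.N3.H545.Dir
import Vale.Agent.P207.N3.H545.Lim

/-!
# P207, line N3, package P14 (4.3): the wrong direction

If `E^s` is rough and `E^s(df, ·)` is smooth on the leaf of `β⁻`, `f` a coordinate of the normal
coordinate, then the rescaled functions near a homoclinic point can not converge to a function of
the normal coordinate with a nonzero derivative in the other direction.
-/

open Set Filter Topology Metric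
open scoped ContDiff

set_option maxSynthPendingDepth 3
set_option linter.unusedSectionVars false

noncomputable section

namespace Vale.Agent.P207.N3.H158

open Vale.Agent.P207.N3
open Vale.Agent.P207.N3.H854 (ee)
open Vale.Agent.P207.N3.H545 (CkB Wf)

variable {Γ X B : Type} [Group Γ] [MetricSpace X] [ProperSpace X] [MulAction Γ X]
  [IsIsometricSMul Γ X] [TopologicalSpace B] [CompactSpace B] [T2Space B] [MulAction Γ B]
  [ContinuousConstSMul Γ B] {L : Leaf Γ X B} {o : Orb L}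

/-! ### the field `E^s(df, ·)` of a level function -/

theorem inner_perp [MeasurableSpace B] [BorelSpace B] (A : Area L) (y : X) (f : B → ℝ) (u : E2) :
    inner ℝ (perp A y f u) (gradient (fun u => f (L.e y u)) u) = 0 := by
  unfold perp
  rw [inner_smul_left, H854.inner2]
  simp [J]
  right
  ring

theorem grad_smooth {F : E2 → ℝ} {u : E2} (h : ContDiffAt ℝ ∞ F u) :
    ContDiffAt ℝ ∞ (gradient F) u := by
  rw [H545.gradient_eq_riesz]
  exact (H545.riesz.contDiff.contDiffAt).comp u (h.fderiv_right (m := ∞) (by simp))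

theorem Wf_smooth [MeasurableSpace B] [BorelSpace B] (A : Area L) {T : Tens L} {ξ : B} {f : B → ℝ}
    {b : ℝ → ℝ} {V : X → E2 → E2 →L[ℝ] E2} (hf : L.SmoothOn ξ f)
    (hV : ∀ y, L.em y = ξ → ContDiffOn ℝ ∞ (V y) (ball 0 3))
    (form : ∀ y, L.em y = ξ → ∀ u ∈ ball (0 : E2) 3, ∀ v,
      T.N y u v = V y u v + (b (f (L.e y u)) * inner ℝ (perp A y f u) v) • perp A y f u)
    {y : X} (hy : L.em y = ξ) : ContDiffOn ℝ ∞ (Wf T f y) (ball 0 3) := by
  have h1 : ∀ u ∈ ball (0 : E2) 3,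
      Wf T f y u = V y u (gradient (fun u => f (L.e y u)) u) := by
    intro u hu
    show T.N y u (gradient (fun u => f (L.e y u)) u) = _
    rw [form y hy u hu, inner_perp, mul_zero, zero_smul, add_zero]
  have hg : ContDiffOn ℝ ∞ (gradient (fun u => f (L.e y u))) (ball 0 3) := fun u hu =>
    (grad_smooth ((hf y hy).contDiffAt (isOpen_ball.mem_nhds hu))).contDiffWithinAt
  exact ((hV y hy).clm_apply hg).congr h1

/-! ### suprema over real times -/

theorem exp_pow {μ l : ℝ} (hμ : 1 ≤ |μ|) (hl : 0 < l) (m : ℕ) :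
    (|μ| ^ m)⁻¹ = Real.exp (-(Real.log |μ| / l) * (m * l)) := by
  have h1 : -(Real.log |μ| / l) * (m * l) = -(m * Real.log |μ|) := by field_simp
  rw [h1, Real.exp_neg, Real.exp_nat_mul, Real.exp_log (one_pos.trans_le hμ)]

theorem sup_real {f : B → ℝ} (hf : L.SmoothOn o.neg f) {z : X} (hz : L.em z = o.neg) {μ : ℝ}
    (hμ : 1 ≤ |μ|) {C : ℝ} (hb : ∀ᶠ m : ℕ in atTop, ∀ u ∈ ball (0 : E2) 3,
      |f (L.e (L.φ (m * o.l) z) u) - f (L.ep z)| ≤ C * (|μ| ^ m)⁻¹) :
    ∃ C', 0 ≤ C' ∧ ∀ s ≥ L.t1, ∀ u ∈ closedBall (0 : E2) 3,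
      |f (L.e (L.φ s z) u) - f (L.ep z)| ≤ C' * Real.exp (-(Real.log |μ| / o.l) * s) := by
  obtain ⟨m0, hm0⟩ := eventually_atTop.mp hb
  have hl := o.ax.pos
  have ht1 := L.t1_pos
  have hexp := exp_pow hμ hl
  set κ := Real.log |μ| / o.l with hκ
  have hκ0 : 0 ≤ κ := div_nonneg (Real.log_nonneg hμ) hl.le
  have hc : ContinuousOn (fun u => f (L.e z u) - f (L.ep z)) (closedBall (0 : E2) 1) :=
    ((hf z hz).continuousOn.mono (closedBall_subset_ball (by norm_num))).sub continuousOn_const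
  obtain ⟨C1, hC1⟩ := (isCompact_closedBall (0 : E2) 1).exists_bound_of_continuousOn hc
  have hC1' : 0 ≤ C1 := (norm_nonneg _).trans (hC1 0 (by simp))
  refine ⟨|C| * Real.exp (κ * (L.t1 + o.l)) + C1 * Real.exp (κ * (L.t1 + m0 * o.l)),
    by positivity, fun s hs u hu => ?_⟩
  have hes := Real.exp_pos (-κ * s)
  rcases le_or_gt (L.t1 + m0 * o.l) s with h | h
  · set j : ℕ := ⌊(s - L.t1) / o.l⌋₊ with hj
    have hj1 : (j : ℝ) * o.l ≤ s - L.t1 := by
      have := Nat.floor_le (div_nonneg (sub_nonneg.mpr hs) hl.le)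
      rw [← hj] at this
      rwa [le_div_iff₀ hl] at this
    have hj2 : s - L.t1 < ((j : ℝ) + 1) * o.l := by
      have := Nat.lt_floor_add_one ((s - L.t1) / o.l)
      rw [← hj] at this
      rwa [div_lt_iff₀ hl] at this
    have hj3 : m0 ≤ j := Nat.le_floor (by rw [le_div_iff₀ hl]; linarith)
    have e1 : L.φ s z = L.φ (s - j * o.l) (L.φ (j * o.l) z) := by
      rw [← L.φ_add]; congr 1; ring
    obtain ⟨v, hv, hve⟩ := L.engulf (L.φ (j * o.l) z) (s - j * o.l) (by linarith) ⟨u, hu, rfl⟩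
    rw [e1, ← hve]
    have h2 := hm0 j hj3 v (ball_subset_ball (by norm_num) hv)
    rw [hexp] at h2
    refine h2.trans ?_
    have e2 : Real.exp (-κ * (j * o.l)) ≤ Real.exp (κ * (L.t1 + o.l)) * Real.exp (-κ * s) := by
      rw [← Real.exp_add]
      apply Real.exp_le_exp.mpr
      nlinarith
    calc C * Real.exp (-κ * (j * o.l))
        ≤ |C| * (Real.exp (κ * (L.t1 + o.l)) * Real.exp (-κ * s)) :=
          mul_le_mul (le_abs_self C) e2 (Real.exp_pos _).le (abs_nonneg _)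
      _ = |C| * Real.exp (κ * (L.t1 + o.l)) * Real.exp (-κ * s) := by ring
      _ ≤ _ := by
          refine mul_le_mul_of_nonneg_right ?_ hes.le
          have : 0 ≤ C1 * Real.exp (κ * (L.t1 + m0 * o.l)) := by positivity
          linarith
  · obtain ⟨v, hv, hve⟩ := L.engulf z s hs ⟨u, hu, rfl⟩
    rw [← hve]
    have h2 := hC1 v (ball_subset_closedBall hv)
    rw [Real.norm_eq_abs] at h2
    have e2 : 1 ≤ Real.exp (κ * (L.t1 + m0 * o.l)) * Real.exp (-κ * s) := by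
      rw [← Real.exp_add]
      apply Real.one_le_exp
      nlinarith
    calc |f (L.e z v) - f (L.ep z)| ≤ C1 * 1 := by rw [mul_one]; exact h2
      _ ≤ C1 * (Real.exp (κ * (L.t1 + m0 * o.l)) * Real.exp (-κ * s)) := by gcongr
      _ = C1 * Real.exp (κ * (L.t1 + m0 * o.l)) * Real.exp (-κ * s) := by ring
      _ ≤ _ := by
          refine mul_le_mul_of_nonneg_right ?_ hes.le
          have : 0 ≤ |C| * Real.exp (κ * (L.t1 + o.l)) := by positivity
          linarith

/-! ### the rescaled functions are bounded -/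

theorem CkB_smul' {E F : Type*} [NormedAddCommGroup E] [NormedSpace ℝ E]
    [NormedAddCommGroup F] [NormedSpace ℝ F] {f : E → F} {k : ℕ} {r C : ℝ} (a : ℝ)
    (h : CkB k r C f) : CkB k r (|a| * C) (fun u => a • f u) := by
  refine ⟨h.1.const_smul a, fun i hi u hu => ?_⟩
  have h2 : (fun u => a • f u) = a • f := rfl
  rw [h2, iteratedFDeriv_const_smul_apply ((h.contDiffAt hu).of_le (by exact_mod_cast hi)),
    norm_smul, Real.norm_eq_abs]
  exact mul_le_mul_of_nonneg_left (h.2 i hi u hu) (abs_nonneg _)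

theorem gradient_mul_sub {F : E2 → ℝ} {u : E2} (hF : DifferentiableAt ℝ F u) (a c : ℝ) :
    gradient (fun u => a * (F u - c)) u = a • gradient F u := by
  rw [H545.gradient_eq_riesz, H545.gradient_eq_riesz]
  simp only [Function.comp]
  rw [fderiv_const_mul (hF.sub_const c), fderiv_sub_const, map_smul]

theorem resc_bdd (T : Tens L) {f : B → ℝ} (hf : L.SmoothOn o.neg f) {z : X} (hz : L.em z = o.neg)
    (hW : ContDiffOn ℝ ∞ (Wf T f z) (ball 0 3)) {μ : ℝ} (hμ : 1 ≤ |μ|) {C : ℝ}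
    (hb : ∀ᶠ m : ℕ in atTop, ∀ u ∈ ball (0 : E2) 3,
      |f (L.e (L.φ (m * o.l) z) u) - f (L.ep z)| ≤ C * (|μ| ^ m)⁻¹) (k : ℕ) :
    ∃ C' : ℝ, ∀ᶠ m : ℕ in atTop,
      CkB k 2 C' (fun u => μ ^ m * (f (L.e (L.φ (m * o.l) z) u) - f (L.ep z))) ∧
      CkB k 2 C' (fun u => T.N (L.φ (m * o.l) z) u
        (gradient (fun u => μ ^ m * (f (L.e (L.φ (m * o.l) z) u) - f (L.ep z))) u)) := by
  obtain ⟨C', hC', hsup⟩ := sup_real hf hz hμ hb
  have hl := o.ax.pos
  have hexp := exp_pow hμ hl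
  set κ := Real.log |μ| / o.l with hκ
  have hκ0 : 0 ≤ κ := div_nonneg (Real.log_nonneg hμ) hl.le
  obtain ⟨k₀, hk₀⟩ := H545.dir_bdd T hκ0
  set k' := max k k₀ with hk'
  obtain ⟨C2, hC2, hd⟩ := hk₀ k' (le_max_right _ _)
  obtain ⟨c1, hc10, hc1⟩ := H545.exists_CkB_of_contDiffOn (k := k' + 1) (r := 1) (R := 3)
    (by norm_num) ((hf z hz).of_le (by exact_mod_cast le_top))
  obtain ⟨c2, hc20, hc2⟩ := H545.exists_CkB_of_contDiffOn (k := k') (r := 1) (R := 3)
    (by norm_num) (hW.of_le (by exact_mod_cast le_top))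
  set C0 := c1 + c2 with hC0
  set M0 := C' + C0 with hM0
  have hC00 : 0 ≤ C0 := by positivity
  have hM00 : 0 ≤ M0 := by positivity
  refine ⟨C2 * M0, ?_⟩
  filter_upwards [(tendsto_ml o).eventually_ge_atTop L.t1] with m hm
  have hE := Real.exp_pos (-κ * (m * o.l))
  have hμm : |μ ^ m| * Real.exp (-κ * (m * o.l)) = 1 := by
    rw [← hexp, abs_pow]
    exact mul_inv_cancel₀ (by positivity)
  obtain ⟨h1, h2⟩ := hd f (f (L.ep z)) z C0 (m * o.l) (M0 * Real.exp (-κ * (m * o.l))) hC00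
    (by positivity) hm (hc1.mono le_rfl le_rfl (by linarith))
    (hc2.mono le_rfl le_rfl (by linarith)) (by
      have e1 : M0 * Real.exp (-κ * (m * o.l)) * Real.exp (κ * (m * o.l)) = M0 := by
        rw [mul_assoc, ← Real.exp_add]
        have : -κ * (m * o.l) + κ * (m * o.l) = 0 := by ring
        rw [this, Real.exp_zero, mul_one]
      rw [e1]; linarith) (by
      intro s hs u hu
      have h3 := hsup s hs.1 u (ball_subset_closedBall (ball_subset_ball (by norm_num) hu))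
      rw [Real.norm_eq_abs]
      refine h3.trans ?_
      have e1 : M0 * Real.exp (-κ * (m * o.l)) * Real.exp (κ * (m * o.l - s)) =
          M0 * Real.exp (-κ * s) := by
        rw [mul_assoc, ← Real.exp_add]
        congr 2; ring
      rw [e1]
      have := Real.exp_pos (-κ * s)
      gcongr
      linarith)
  have e2 : |μ ^ m| * (C2 * (M0 * Real.exp (-κ * (m * o.l)))) = C2 * M0 := by
    calc _ = C2 * M0 * (|μ ^ m| * Real.exp (-κ * (m * o.l))) := by ring
      _ = C2 * M0 := by rw [hμm, mul_one]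
  have h3 := CkB_smul' (μ ^ m) h1
  have h4 := CkB_smul' (μ ^ m) h2
  rw [e2] at h3 h4
  refine ⟨h3.mono (by omega) le_rfl le_rfl, ?_⟩
  have h5 : CkB k' 2 (C2 * M0) (fun u => T.N (L.φ (m * o.l) z) u
      (gradient (fun u => μ ^ m * (f (L.e (L.φ (m * o.l) z) u) - f (L.ep z))) u)) := by
    refine H545.CkB_congr h4 fun u hu => ?_
    have hdf : DifferentiableAt ℝ (fun u => f (L.e (L.φ (m * o.l) z) u)) u := by
      have h6 := hf (L.φ (m * o.l) z) (by rw [L.em_φ, hz])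
      exact (h6.contDiffAt (isOpen_ball.mem_nhds
        (ball_subset_ball (by norm_num) hu))).differentiableAt (by simp)
    rw [gradient_mul_sub hdf, map_smul]
    rfl
  exact h5.mono (le_max_left _ _) le_rfl le_rfl

/-! ### roughness -/

theorem contDiffOn_coord {F : E2 → E2} {k : ℕ∞} {s : Set E2} (h : ContDiffOn ℝ k F s) (i : Fin 2) :
    ContDiffOn ℝ k (fun u => F u i) s :=
  (EuclideanSpace.proj (𝕜 := ℝ) i : E2 →L[ℝ] ℝ).contDiff.comp_contDiffOn h

theorem rough_contra {T : Tens L} {k₀ : ℕ} (hr : Rough T k₀) {w : X} {F1 F2 : E2 → E2}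
    (h1 : ContDiffOn ℝ k₀ F1 (ball 0 2)) (h2 : ContDiffOn ℝ k₀ F2 (ball 0 2))
    (h3 : ContDiffOn ℝ k₀ (fun u => T.N w u (F1 u)) (ball 0 2))
    (h4 : ContDiffOn ℝ k₀ (fun u => T.N w u (F2 u)) (ball 0 2)) {u0 : E2}
    (hu0 : u0 ∈ ball (0 : E2) 2) : F1 u0 0 * F2 u0 1 - F1 u0 1 * F2 u0 0 = 0 := by
  by_contra hne
  have c1 := fun i => contDiffOn_coord (k := k₀) h1 i
  have c2 := fun i => contDiffOn_coord (k := k₀) h2 i
  have hD : ContDiffOn ℝ k₀ (fun u => F1 u 0 * F2 u 1 - F1 u 1 * F2 u 0) (ball 0 2) :=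
    ((c1 0).mul (c2 1)).sub ((c1 1).mul (c2 0))
  set O : Set E2 := ball 0 2 ∩ (fun u => F1 u 0 * F2 u 1 - F1 u 1 * F2 u 0) ⁻¹' {0}ᶜ with hO
  have hOo : IsOpen O :=
    hD.continuousOn.isOpen_inter_preimage isOpen_ball isClosed_singleton.isOpen_compl
  have hO2 : O ⊆ ball 0 2 := inter_subset_left
  refine hr w O hOo (hO2.trans (ball_subset_ball (by norm_num))) ⟨u0, hu0, hne⟩ ?_
  set p0 : E2 →L[ℝ] ℝ := EuclideanSpace.proj 0 with hp0
  set p1 : E2 →L[ℝ] ℝ := EuclideanSpace.proj 1 with hp1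
  have hM : ContDiffOn ℝ k₀ (fun u => (F1 u 0 * F2 u 1 - F1 u 1 * F2 u 0)⁻¹ •
      ((F2 u 1 • p0 - F2 u 0 • p1).smulRight (T.N w u (F1 u)) +
        (F1 u 0 • p1 - F1 u 1 • p0).smulRight (T.N w u (F2 u)))) O := by
    refine ((hD.mono hO2).inv fun u hu => hu.2).smul ?_
    refine ContDiffOn.add ?_ ?_
    · exact ((((c2 1).mono hO2).smul contDiffOn_const).sub
        (((c2 0).mono hO2).smul contDiffOn_const)).smulRight (h3.mono hO2)
    · exact ((((c1 0).mono hO2).smul contDiffOn_const).sub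
        (((c1 1).mono hO2).smul contDiffOn_const)).smulRight (h4.mono hO2)
  refine hM.congr fun u hu => ?_
  have hdu : F1 u 0 * F2 u 1 - F1 u 1 * F2 u 0 ≠ 0 := hu.2
  refine ContinuousLinearMap.ext fun x => ?_
  have hx : (F1 u 0 * F2 u 1 - F1 u 1 * F2 u 0) • x =
      (F2 u 1 * x 0 - F2 u 0 * x 1) • F1 u + (F1 u 0 * x 1 - F1 u 1 * x 0) • F2 u := by
    apply H854.ext2
    · simp; ring
    · simp; ring
  have hx2 := congrArg (T.N w u) hx
  rw [map_smul, map_add, map_smul, map_smul] at hx2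
  rw [smul_apply, eq_inv_smul_iff₀ hdu, hx2]
  simp [hp0, hp1]

/-! ### the main lemma -/

theorem inner_grad {F : E2 → ℝ} (u v : E2) : inner ℝ (gradient F u) v = fderiv ℝ F u v :=
  InnerProductSpace.toDual_symm_apply

/-- **the wrong direction** -/
theorem wrong {T : Tens L} {k₀ : ℕ} (hr : Rough T k₀) (n : Nor L o) (i : Fin 2)
    (hW : ∀ y, L.em y = o.neg → ContDiffOn ℝ ∞ (Wf T (fun η => n.x η i) y) (ball 0 3))
    {k : Γ} (hk : k • o.pos ≠ o.neg) {μ : ℝ} (hμ : 1 ≤ |μ|) {C : ℝ}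
    (hb : ∀ᶠ m : ℕ in atTop, ∀ u ∈ ball (0 : E2) 3,
      |n.x (L.e (L.φ (m * o.l) (z0 o k)) u) i - n.x (k • o.pos) i| ≤ C * (|μ| ^ m)⁻¹)
    {P : E2 → ℝ} (hP : ContDiff ℝ ∞ P) {mm : ℕ → ℕ} (hmm : Tendsto mm atTop atTop)
    (hlim : ∀ u ∈ ball (0 : E2) 2, Tendsto (fun j => μ ^ mm j *
      (n.x (L.e (L.φ (mm j * o.l) (z0 o k)) u) i - n.x (k • o.pos) i) -
        P (n.x (L.e (L.rot (o.a ^ mm j)⁻¹ o.x) u))) atTop (𝓝 0)) :
    ∀ᶠ z in 𝓝 (0 : E2), fderiv ℝ P z (ee (1 - i)) = 0 := by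
  set f : B → ℝ := fun η => n.x η i with hfd
  have hf : L.SmoothOn o.neg f := fun y hy => contDiffOn_coord (k := ⊤) (n.smooth y hy) i
  have hz := em_z0 (o := o) hk
  have hep := ep_z0 (o := o) hk
  have hb' : ∀ᶠ m : ℕ in atTop, ∀ u ∈ ball (0 : E2) 3,
      |f (L.e (L.φ (m * o.l) (z0 o k)) u) - f (L.ep (z0 o k))| ≤ C * (|μ| ^ m)⁻¹ := by
    rw [hep]; exact hb
  obtain ⟨C', hC'⟩ := resc_bdd T hf hz (hW _ hz) hμ hb' (k₀ + 1 + 1)
  obtain ⟨m0, hm0⟩ := eventually_atTop.mp hC'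
  obtain ⟨n0, hn0⟩ := eventually_atTop.mp (hmm.eventually_ge_atTop m0)
  set q : ℕ → ℕ := fun j => mm (j + n0) with hq
  have hqm : ∀ j, m0 ≤ q j := fun j => hn0 _ (by omega)
  have hqt : Tendsto q atTop atTop := hmm.comp (tendsto_add_atTop_nat n0)
  set U : Ultrafilter ℕ := Ultrafilter.of atTop with hUd
  have hU : (U : Filter ℕ) ≤ atTop := Ultrafilter.of_le _
  set y : ℕ → X := fun j => L.rot (o.a ^ q j)⁻¹ o.x with hy
  have hyA : ∀ j, y j ∈ Ax0 o := fun j => rot_mem_Ax0 _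
  obtain ⟨w, hwA, hw⟩ := (isCompact_Ax0 o).ultrafilter_le_nhds (U.map y) (by
    rw [Ultrafilter.coe_map, le_principal_iff, mem_map]
    exact Filter.univ_mem' hyA)
  have hyw : Tendsto y U (𝓝 w) := by simpa [Tendsto] using hw
  -- the frames modulo the group
  set g : ℕ → Γ := fun j => (k * o.β ^ q j)⁻¹ with hg
  have hgy : ∀ j, g j • L.φ (q j * o.l) (z0 o k) =
      L.hol ((o.β ^ q j)⁻¹ • k⁻¹ • o.neg) (y j) := by
    intro j
    have h1 := hol_rot_kb hk (q j) (o.a ^ q j)⁻¹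
    rw [mul_inv_cancel, L.rot_one] at h1
    have h2 := hol_kb hk (hyA j).2.1 (q j)
    rw [← h1, hg]
    simp only
    rw [inv_smul_eq_iff]
    exact h2
  have hζ : Tendsto (fun j => (o.β ^ q j)⁻¹ • k⁻¹ • o.neg) U (𝓝 o.neg) := by
    intro V hV
    have h1 := H147.Ax.south o.ax (K := {k⁻¹ • o.neg}) isCompact_singleton
      (fun h => inv_smul_ne hk h.symm) (V := V) hV
    have h2 := hU (hqt.eventually h1)
    refine Filter.mem_map.mpr (mem_of_superset h2 fun j hj => ?_)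
    exact hj _ rfl
  have hholw : Tendsto (fun j => g j • L.φ (q j * o.l) (z0 o k)) U (𝓝 w) := by
    have hmem : ((o.neg, w) : B × X) ∈ {p : B × X | p.1 ≠ L.ep p.2} := by
      show o.neg ≠ L.ep w
      rw [hwA.2.1]; exact (H854.pos_ne_neg o).symm
    have h1 : Tendsto (fun j => L.hol ((o.β ^ q j)⁻¹ • k⁻¹ • o.neg) (y j)) U
        (𝓝 (L.hol o.neg w)) := by
      have h2 : Tendsto (fun j => (((o.β ^ q j)⁻¹ • k⁻¹ • o.neg, y j) : B × X)) U
          (𝓝[{p : B × X | p.1 ≠ L.ep p.2}] (o.neg, w)) := by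
        refine tendsto_nhdsWithin_iff.mpr ⟨hζ.prodMk_nhds hyw, Eventually.of_forall fun j => ?_⟩
        show (o.β ^ q j)⁻¹ • k⁻¹ • o.neg ≠ L.ep (y j)
        rw [(hyA j).2.1]
        exact inv_pow_ne (inv_smul_ne hk) _
      exact (L.hol_cont (o.neg, w) hmem).tendsto.comp h2
    have h3 : L.hol o.neg w = w := by
      rw [← hwA.1]; exact L.hol_self w
    rw [h3] at h1
    exact h1.congr fun j => (hgy j).symm
  -- the limit rule
  set F : ℕ → E2 → ℝ := fun j u =>
    μ ^ q j * (f (L.e (L.φ (q j * o.l) (z0 o k)) u) - f (L.ep (z0 o k))) with hF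
  set G : E2 → ℝ := fun u => P (n.x (L.e w u)) with hG
  have hFG : ∀ u ∈ ball (0 : E2) 2, Tendsto (fun j => F j u) U (𝓝 (G u)) := by
    intro u hu
    have hu3 : u ∈ closedBall (0 : E2) 3 :=
      ball_subset_closedBall (ball_subset_ball (by norm_num) hu)
    have h1 : Tendsto (fun j => L.e (y j) u) U (𝓝 (L.e w u)) := by
      have h2 : Tendsto (fun j => ((y j, u) : X × E2)) U
          (𝓝[univ ×ˢ closedBall (0 : E2) 3] (w, u)) :=
        tendsto_nhdsWithin_iff.mpr ⟨hyw.prodMk_nhds tendsto_const_nhds,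
          Eventually.of_forall fun j => ⟨mem_univ _, hu3⟩⟩
      exact (L.e_cont (w, u) ⟨mem_univ _, hu3⟩).tendsto.comp h2
    have hne : L.e w u ≠ o.neg := by rw [← hwA.1]; exact L.e_ne w u hu3
    have h3 : Tendsto (fun j => P (n.x (L.e (y j) u))) U (𝓝 (G u)) :=
      (hP.continuous.continuousAt.tendsto).comp ((x_contAt n hne).tendsto.comp h1)
    have h4 := (((hlim u hu).comp (tendsto_add_atTop_nat n0)).mono_left hU).add h3
    rw [zero_add] at h4
    refine h4.congr fun j => ?_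
    simp only [Function.comp, hF, hfd, hy, hq]
    rw [hep]
    ring
  obtain ⟨h1, h2, -⟩ := H545.lim_rule T hholw (k := k₀ + 1) (by omega)
    (fun j => (hm0 (q j) (hqm j)).1) hFG (fun j => (hm0 (q j) (hqm j)).2)
  -- the normal coordinate near `0`
  set h : E2 → E2 := fun u => n.x (L.e w u) with hh
  have hhs : ∀ u ∈ ball (0 : E2) 3, ContDiffAt ℝ ∞ h u := fun u hu =>
    H854.jj_contDiffAt n hwA.1 hu
  have hhd : ∀ u ∈ ball (0 : E2) 3, (fderiv ℝ h u).det ≠ 0 := fun u hu => n.deriv w hwA.1 u hu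
  have hh0 : h 0 = 0 := by
    simp only [hh]
    rw [L.e_zero, hwA.2.1, n.base]
  have h0b : (0 : E2) ∈ ball (0 : E2) 3 := by simp
  have hmap : Filter.map h (𝓝 0) = 𝓝 0 := by
    have h5 : HasStrictFDerivAt h
        (H854.equivOfDet (fderiv ℝ h 0) (hhd 0 h0b) : E2 →L[ℝ] E2) 0 := by
      rw [H854.coe_equivOfDet]
      exact (hhs 0 h0b).hasStrictFDerivAt (by simp)
    have h6 := h5.map_nhds_eq_of_equiv
    rwa [hh0] at h6
  by_contra hcon
  rw [not_eventually, ← hmap, frequently_map] at hcon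
  obtain ⟨u0, hu0, hu0b⟩ := (hcon.and_eventually
    (isOpen_ball.mem_nhds (show (0 : E2) ∈ ball (0 : E2) 2 by simp))).exists
  have hu03 : u0 ∈ ball (0 : E2) 3 := ball_subset_ball (by norm_num) hu0b
  have hGs : ∀ u ∈ ball (0 : E2) 3, ContDiffAt ℝ ∞ G u := fun u hu =>
    hP.contDiffAt.comp u (hhs u hu)
  have hle : (k₀ : WithTop ℕ∞) ≤ ∞ := by exact_mod_cast le_top
  have hfs : ∀ u ∈ ball (0 : E2) 3, ContDiffAt ℝ ∞ (fun u => f (L.e w u)) u := fun u hu =>
    (hf w hwA.1).contDiffAt (isOpen_ball.mem_nhds hu)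
  have hsub : ball (0 : E2) 2 ⊆ ball 0 3 := ball_subset_ball (by norm_num)
  have key := rough_contra hr (w := w) (F1 := gradient G) (F2 := gradient (fun u => f (L.e w u)))
    (fun u hu => ((grad_smooth (hGs u (hsub hu))).of_le hle).contDiffWithinAt)
    (fun u hu => ((grad_smooth (hfs u (hsub hu))).of_le hle).contDiffWithinAt)
    (h2.1.of_le (by exact_mod_cast (by omega : k₀ ≤ k₀ + 1)))
    (((hW w hwA.1).mono hsub).of_le hle) hu0b
  -- the test vectors
  set E := H854.equivOfDet (fderiv ℝ h u0) (hhd u0 hu03) with hE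
  have hEv : ∀ v, fderiv ℝ h u0 (E.symm v) = v := by
    intro v
    have := E.apply_symm_apply v
    rwa [hE, H854.equivOfDet_apply, ← hE] at this
  have hdh : HasFDerivAt h (fderiv ℝ h u0) u0 :=
    ((hhs u0 hu03).differentiableAt (by simp)).hasFDerivAt
  have hdG : ∀ v, fderiv ℝ G u0 v = fderiv ℝ P (h u0) (fderiv ℝ h u0 v) := by
    intro v
    have hPd : HasFDerivAt P (fderiv ℝ P (h u0)) (h u0) :=
      (hP.differentiable (by simp) (h u0)).hasFDerivAt
    have := (hPd.comp u0 hdh).fderiv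
    have h7 : G = P ∘ h := rfl
    rw [h7, this]
    rfl
  have hdf : ∀ v, fderiv ℝ (fun u => f (L.e w u)) u0 v = (fderiv ℝ h u0 v) i := by
    intro v
    have := ((EuclideanSpace.proj (𝕜 := ℝ) i : E2 →L[ℝ] ℝ).hasFDerivAt.comp u0 hdh).fderiv
    have h7 : (fun u => f (L.e w u)) = (EuclideanSpace.proj (𝕜 := ℝ) i : E2 →L[ℝ] ℝ) ∘ h := rfl
    rw [h7, this]
    rfl
  have i1 : inner ℝ (gradient G u0) (E.symm (ee (1 - i))) = fderiv ℝ P (h u0) (ee (1 - i)) := by
    rw [inner_grad, hdG, hEv]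
  have i2 : inner ℝ (gradient (fun u => f (L.e w u)) u0) (E.symm (ee (1 - i))) = 0 := by
    rw [inner_grad, hdf, hEv]
    fin_cases i
    · exact H854.ee_10
    · exact H854.ee_01
  have i3 : inner ℝ (gradient (fun u => f (L.e w u)) u0) (E.symm (ee i)) = 1 := by
    rw [inner_grad, hdf, hEv]
    exact H854.ee_same i
  set p := gradient G u0
  set r := gradient (fun u => f (L.e w u)) u0
  set v0 := E.symm (ee (1 - i))
  set v1 := E.symm (ee i)
  have hid : inner ℝ p v0 * inner ℝ r v1 - inner ℝ p v1 * inner ℝ r v0 =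
      (p 0 * r 1 - p 1 * r 0) * (v0 0 * v1 1 - v0 1 * v1 0) := by
    rw [H854.inner2, H854.inner2, H854.inner2, H854.inner2]; ring
  rw [key, i2, i3, i1, zero_mul, mul_one, mul_zero, sub_zero] at hid
  exact hu0 hid

end Vale.Agent.P207.N3.H158
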