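import Vale.Agent.P207.N3.H854.Basic
import Vale.Agent.P207.N3.H738.Inv

/-!
# P207, line N3, package P14 (4.3): expansion of a smooth function along a diagonal contraction
-/

open Set Filter Topology Metric
open scoped ContDiff

set_option maxSynthPendingDepth 3
set_option linter.unusedSectionVars false

noncomputable section

namespace Vale.Agent.P207.N3.H158

open Vale.Agent.P207.N3
open Vale.Agent.P207.N3.H854 (ee)

/-! ### one variable -/

theorem abs_eval_le (r : Polynomial ℝ) : ∃ K : ℝ, 0 ≤ K ∧ ∀ t : ℝ, |t| ≤ 1 → |r.eval t| ≤ K := by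
  obtain ⟨K, hK⟩ := (isCompact_Icc (a := (-1 : ℝ)) (b := 1)).exists_bound_of_continuousOn
    r.continuous.continuousOn
  refine ⟨|K|, abs_nonneg _, fun t ht => ?_⟩
  have := hK t (abs_le.1 ht)
  rw [Real.norm_eq_abs] at this
  exact this.trans (le_abs_self _)

/-- the leading term of a polynomial at `0` -/
theorem poly_lead (p : Polynomial ℝ) (hp : p ≠ 0) (h0 : p.eval 0 = 0) {J : ℕ}
    (hd : p.degree < (J + 1 : ℕ)) : ∃ (j : ℕ) (c : ℝ), 1 ≤ j ∧ j ≤ J ∧ c ≠ 0 ∧ ∃ K : ℝ, 0 ≤ K ∧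
      ∀ t : ℝ, |t| ≤ 1 → |p.eval t - c * t ^ j| ≤ K * |t| ^ (j + 1) := by
  obtain ⟨q, hq, hq0⟩ := Polynomial.exists_eq_pow_rootMultiplicity_mul_and_not_dvd p hp 0
  set j := p.rootMultiplicity 0 with hj
  rw [map_zero, sub_zero] at hq hq0
  have hqe : q.eval 0 ≠ 0 := by
    intro h
    apply hq0
    have h2 : (Polynomial.X : Polynomial ℝ) = Polynomial.X - Polynomial.C 0 := by simp
    rw [h2, Polynomial.dvd_iff_isRoot]
    exact h
  have hj1 : 1 ≤ j := by
    by_contra hc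
    have : j = 0 := by omega
    rw [this, pow_zero, one_mul] at hq
    rw [hq] at h0
    exact hqe h0
  have hq' : q ≠ 0 := by
    rintro rfl
    simp at hqe
  have hjJ : j ≤ J := by
    have h1 : p.natDegree < J + 1 := (Polynomial.natDegree_lt_iff_degree_lt hp).2 hd
    have h2 : p.natDegree = j + q.natDegree := by
      conv_lhs => rw [hq]
      rw [Polynomial.natDegree_mul (pow_ne_zero _ Polynomial.X_ne_zero) hq',
        Polynomial.natDegree_pow, Polynomial.natDegree_X, mul_one]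
    omega
  obtain ⟨K, hK0, hK⟩ := abs_eval_le q.divX
  refine ⟨j, q.eval 0, hj1, hjJ, hqe, K, hK0, fun t ht => ?_⟩
  have e1 : p.eval t = t ^ j * q.eval t := by
    conv_lhs => rw [hq]
    simp
  have e2 : q.eval t = q.divX.eval t * t + q.eval 0 := by
    conv_lhs => rw [← Polynomial.divX_mul_X_add q]
    simp [Polynomial.coeff_zero_eq_eval_zero]
  have e3 : p.eval t - q.eval 0 * t ^ j = q.divX.eval t * t ^ (j + 1) := by
    rw [e1, e2]; ring
  rw [e3, abs_mul, abs_pow]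
  exact mul_le_mul_of_nonneg_right (hK t ht) (by positivity)

/-- the order of vanishing is at most `J`, or larger than `J` -/
theorem dich1 {g : ℝ → ℝ} (hg : ContDiffAt ℝ ∞ g 0) (h0 : g 0 = 0) (J : ℕ) :
    (∃ (j : ℕ) (c : ℝ), 1 ≤ j ∧ j ≤ J ∧ c ≠ 0 ∧ ∃ K δ : ℝ, 0 ≤ K ∧ 0 < δ ∧
      ∀ t : ℝ, |t| < δ → |g t - c * t ^ j| ≤ K * |t| ^ (j + 1)) ∨
    ∃ K δ : ℝ, 0 ≤ K ∧ 0 < δ ∧ ∀ t : ℝ, |t| < δ → |g t| ≤ K * |t| ^ (J + 1) := by
  -- a neighbourhood with bounded derivative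
  have h1 : ContDiffAt ℝ ((J + 1 : ℕ) : ℕ∞) g 0 := hg.of_le (by exact_mod_cast le_top)
  have h1' : ContDiffAt ℝ (((J + 1 : ℕ) : ℕ∞) + 1) g 0 := hg.of_le (by exact_mod_cast le_top)
  obtain ⟨ε1, hε1, hb1⟩ : ∃ ε > 0, ContDiffOn ℝ ((J + 1 : ℕ) : ℕ∞) g (ball 0 ε) := by
    have h2 := h1.eventually (by simp)
    obtain ⟨ε, hε, hb⟩ := Metric.eventually_nhds_iff.mp h2
    exact ⟨ε, hε, fun x hx => (hb hx).contDiffWithinAt⟩
  have hc : ContinuousAt (iteratedDeriv (J + 1) g) 0 := by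
    have h3 : ContDiffAt ℝ 0 (iteratedFDeriv ℝ (J + 1) g) 0 :=
      h1.iteratedFDeriv_right (m := 0) (by simp)
    have h4 : iteratedDeriv (J + 1) g = fun s => iteratedFDeriv ℝ (J + 1) g s (fun _ => 1) := by
      funext s; rfl
    rw [h4]
    exact (ContinuousMultilinearMap.apply ℝ (fun _ : Fin (J + 1) => ℝ) ℝ
      (fun _ => (1 : ℝ))).continuous.continuousAt.comp h3.continuousAt
  obtain ⟨ε2, hε2, hb2⟩ : ∃ ε > 0, ∀ s ∈ ball (0 : ℝ) ε,
      |iteratedDeriv (J + 1) g s| ≤ |iteratedDeriv (J + 1) g 0| + 1 := by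
    have h5 : ∀ᶠ s in 𝓝 (0 : ℝ), |iteratedDeriv (J + 1) g s| < |iteratedDeriv (J + 1) g 0| + 1 :=
      hc.abs.eventually (gt_mem_nhds (by linarith))
    obtain ⟨ε, hε, hb⟩ := Metric.eventually_nhds_iff.mp h5
    exact ⟨ε, hε, fun s hs => (hb hs).le⟩
  set ε := min ε1 ε2 with hεd
  have hε : 0 < ε := lt_min hε1 hε2
  have hsub : ∀ s ∈ Ioo (-ε) ε, s ∈ ball (0 : ℝ) ε := by
    intro s hs
    rw [mem_ball_zero_iff, Real.norm_eq_abs]
    exact abs_lt.2 hs
  set K := |iteratedDeriv (J + 1) g 0| + 1 with hKd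
  have hK : 0 ≤ K := by positivity
  obtain ⟨p, hpd, hp⟩ := H738.exists_taylor (J + 1) (G := g) (K := K) hε
    (fun s hs => (hb1 s (ball_subset_ball (min_le_left _ _) (hsub s hs))).mono
      (fun s hs => ball_subset_ball (min_le_left _ _) (hsub s hs)))
    (fun s hs => hb2 s (ball_subset_ball (min_le_right _ _) (hsub s hs)))
  have hp0 : p.eval 0 = 0 := by
    have := hp 0 ⟨by linarith, hε⟩
    rw [h0, abs_zero, zero_pow (by omega), mul_zero, zero_sub, abs_neg] at this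
    exact abs_nonpos_iff.1 this
  by_cases hpz : p = 0
  · right
    refine ⟨K, ε, hK, hε, fun t ht => ?_⟩
    have := hp t (abs_lt.1 ht)
    rwa [hpz, Polynomial.eval_zero, sub_zero] at this
  · left
    obtain ⟨j, c, hj1, hjJ, hc0, K', hK', hKp⟩ := poly_lead p hpz hp0 hpd
    refine ⟨j, c, hj1, hjJ, hc0, K + K', min ε 1, by positivity, lt_min hε one_pos,
      fun t ht => ?_⟩
    have ht1 : |t| < ε := ht.trans_le (min_le_left _ _)
    have ht2 : |t| ≤ 1 := (ht.trans_le (min_le_right _ _)).le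
    have e1 := hp t (abs_lt.1 ht1)
    have e2 := hKp t ht2
    have e3 : |t| ^ (J + 1) ≤ |t| ^ (j + 1) := pow_le_pow_of_le_one (abs_nonneg _) ht2 (by omega)
    calc |g t - c * t ^ j| = |(g t - p.eval t) + (p.eval t - c * t ^ j)| := by ring_nf
      _ ≤ |g t - p.eval t| + |p.eval t - c * t ^ j| := abs_add_le _ _
      _ ≤ K * |t| ^ (J + 1) + K' * |t| ^ (j + 1) := add_le_add e1 e2
      _ ≤ K * |t| ^ (j + 1) + K' * |t| ^ (j + 1) := by gcongr
      _ = (K + K') * |t| ^ (j + 1) := by ring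

/-! ### two variables -/

theorem eq_sum_ee (i : Fin 2) (x : E2) : x = x i • ee i + x (1 - i) • ee (1 - i) := by
  fin_cases i
  · exact H854.eq_ee x
  · show x = x 1 • ee 1 + x (1 - 1) • ee (1 - 1)
    have : (1 - 1 : Fin 2) = 0 := rfl
    rw [this, add_comm]; exact H854.eq_ee x

theorem ee_ne (i : Fin 2) : ee (1 - i) i = 0 := by
  fin_cases i
  · exact H854.ee_10
  · exact H854.ee_01

theorem ee_ne' (i : Fin 2) : ee i (1 - i) = 0 := by
  fin_cases i
  · exact H854.ee_01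
  · exact H854.ee_10

theorem norm_ee (i : Fin 2) : ‖ee i‖ = 1 := by simp [ee]

theorem abs_coord_le (x : E2) (i : Fin 2) : |x i| ≤ ‖x‖ := by
  have := PiLp.norm_apply_le x i
  rwa [Real.norm_eq_abs] at this

theorem norm_le_coord (i : Fin 2) (x : E2) : ‖x‖ ≤ |x i| + |x (1 - i)| := by
  conv_lhs => rw [eq_sum_ee i x]
  refine (norm_add_le _ _).trans ?_
  rw [norm_smul, norm_smul, norm_ee, norm_ee, mul_one, mul_one, Real.norm_eq_abs,
    Real.norm_eq_abs]

/-- first order expansion in one variable -/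
theorem tay2 {ph : E2 → ℝ} (hph : ContDiffAt ℝ ∞ ph 0) (i : Fin 2) :
    ∃ K δ : ℝ, 0 ≤ K ∧ 0 < δ ∧ ∀ x : E2, ‖x‖ < δ →
      |ph x - ph (x (1 - i) • ee (1 - i)) - fderiv ℝ ph 0 (ee i) * x i| ≤
        K * |x i| * (|x i| + |x (1 - i)|) := by
  have h1 : ContDiffAt ℝ 1 (fderiv ℝ ph) 0 := hph.fderiv_right (m := 1) (by norm_cast)
  obtain ⟨K, t, ht, hK⟩ := h1.exists_lipschitzOnWith
  have h2 : ∀ᶠ x in 𝓝 (0 : E2), DifferentiableAt ℝ ph x := by
    have h3 : ContDiffAt ℝ 1 ph 0 := hph.of_le (by norm_cast)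
    filter_upwards [h3.eventually (by simp)] with x hx
    exact hx.differentiableAt (by simp)
  obtain ⟨δ, hδ, hδ'⟩ := Metric.eventually_nhds_iff.mp (h2.and ht)
  refine ⟨K, δ, K.2, hδ, fun x hx => ?_⟩
  have h0t : (0 : E2) ∈ t := (hδ' (by simpa using hδ)).2
  set y : E2 := x (1 - i) • ee (1 - i) with hy
  have hyx : ‖y‖ ≤ ‖x‖ := by
    rw [hy, norm_smul, norm_ee, mul_one, Real.norm_eq_abs]
    exact abs_coord_le x _
  have hin : ∀ z ∈ closedBall (0 : E2) ‖x‖, dist z 0 < δ := fun z hz =>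
    (mem_closedBall.1 hz).trans_lt hx
  have h3 : ∀ z ∈ closedBall (0 : E2) ‖x‖, ‖fderiv ℝ ph z - fderiv ℝ ph 0‖ ≤
      K * (|x i| + |x (1 - i)|) := by
    intro z hz
    have h4 := hK.norm_sub_le (hδ' (hin z hz)).2 h0t
    rw [sub_zero] at h4
    refine h4.trans ?_
    gcongr
    exact (mem_closedBall_zero_iff.1 hz).trans (norm_le_coord i x)
  have h5 := (convex_closedBall (0 : E2) ‖x‖).norm_image_sub_le_of_norm_fderiv_le' (𝕜 := ℝ)
    (f := ph) (φ := fderiv ℝ ph 0) (fun z hz => (hδ' (hin z hz)).1) h3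
    (x := y) (y := x) (mem_closedBall_zero_iff.2 hyx) (mem_closedBall_zero_iff.2 le_rfl)
  have e1 : x - y = x i • ee i := by
    conv_lhs => rw [eq_sum_ee i x]
    rw [hy]; abel
  rw [e1, map_smul, smul_eq_mul, norm_smul, norm_ee, mul_one, Real.norm_eq_abs,
    Real.norm_eq_abs] at h5
  rw [mul_comm (fderiv ℝ ph 0 (ee i))]
  refine h5.trans (le_of_eq ?_)
  ring

end Vale.Agent.P207.N3.H158
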