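import Vale.Agent.P207.N3.H158.RegC

/-!
# P207, line N3, package P14 (4.3): a smooth function along a diagonal contraction, limits
-/

open Set Filter Topology Metric
open scoped ContDiff

set_option maxSynthPendingDepth 3
set_option linter.unusedSectionVars false

noncomputable section

namespace Vale.Agent.P207.N3.H158

open Vale.Agent.P207.N3
open Vale.Agent.P207.N3.H854 (ee)

/-- diagonal contractions -/
structure Dg (i : Fin 2) (a b : ℝ) (D : ℕ → E2 → E2) : Prop where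
  ha : 1 < |a|
  hb : 1 < |b|
  di : ∀ m v, D m v i = (a ^ m)⁻¹ * v i
  dj : ∀ m v, D m v (1 - i) = (b ^ m)⁻¹ * v (1 - i)

namespace Dg

variable {i : Fin 2} {a b : ℝ} {D : ℕ → E2 → E2} (h : Dg i a b D)

include h

theorem a_pos : 0 < |a| := one_pos.trans h.ha
theorem b_pos : 0 < |b| := one_pos.trans h.hb
theorem a_ne : a ≠ 0 := abs_pos.1 h.a_pos
theorem b_ne : b ≠ 0 := abs_pos.1 h.b_pos

theorem abs_di {R : ℝ} {v : E2} (hv : ‖v‖ ≤ R) (m : ℕ) : |D m v i| ≤ (|a| ^ m)⁻¹ * R := by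
  rw [h.di, abs_mul, abs_inv, abs_pow]
  exact mul_le_mul_of_nonneg_left ((abs_coord_le v i).trans hv) (by positivity)

theorem abs_dj {R : ℝ} {v : E2} (hv : ‖v‖ ≤ R) (m : ℕ) :
    |D m v (1 - i)| ≤ (|b| ^ m)⁻¹ * R := by
  rw [h.dj, abs_mul, abs_inv, abs_pow]
  exact mul_le_mul_of_nonneg_left ((abs_coord_le v (1 - i)).trans hv) (by positivity)

theorem inv_a : Tendsto (fun m : ℕ => (|a| ^ m)⁻¹) atTop (𝓝 0) :=
  tendsto_inv_atTop_zero.comp (tendsto_pow_atTop_atTop_of_one_lt h.ha)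

theorem inv_b : Tendsto (fun m : ℕ => (|b| ^ m)⁻¹) atTop (𝓝 0) :=
  tendsto_inv_atTop_zero.comp (tendsto_pow_atTop_atTop_of_one_lt h.hb)

theorem small (R : ℝ) {δ : ℝ} (hδ : 0 < δ) :
    ∀ᶠ m : ℕ in atTop, ∀ v : E2, ‖v‖ ≤ R → ‖D m v‖ < δ := by
  have h1 : Tendsto (fun m : ℕ => (|a| ^ m)⁻¹ * R + (|b| ^ m)⁻¹ * R) atTop (𝓝 0) := by
    have := (h.inv_a.mul_const R).add (h.inv_b.mul_const R)
    simpa using this
  filter_upwards [h1.eventually (gt_mem_nhds hδ)] with m hm v hv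
  exact ((norm_le_coord i _).trans (add_le_add (h.abs_di hv m) (h.abs_dj hv m))).trans_lt hm

/-- the main estimate -/
theorem est {ph : E2 → ℝ} (hph : ContDiffAt ℝ ∞ ph 0) {j : ℕ} {c K' δ' : ℝ} (hK' : 0 ≤ K')
    (hδ' : 0 < δ')
    (hg : ∀ t : ℝ, |t| < δ' → |ph (t • ee (1 - i)) - ph 0 - c * t ^ j| ≤ K' * |t| ^ (j + 1))
    {ν : ℝ} (h1 : |ν| < |a| ^ 2) (h2 : |ν| < |a| * |b|) (h3 : |ν| < |b| ^ (j + 1)) {R ε : ℝ}
    (hR : 0 ≤ R) (hε : 0 < ε) :
    ∀ᶠ m : ℕ in atTop, ∀ v : E2, ‖v‖ ≤ R →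
      |ν ^ m * (ph (D m v) - ph 0) - ((ν / a) ^ m * fderiv ℝ ph 0 (ee i) * v i +
        (ν / b ^ j) ^ m * c * v (1 - i) ^ j)| ≤ ε := by
  obtain ⟨K, δ, hK, hδ, ht⟩ := tay2 hph i
  have ha := h.a_pos
  have hb := h.b_pos
  have hane := h.a_ne
  have hbne := h.b_ne
  have hq : ∀ x y : ℝ, 0 < y → |x| < y → Tendsto (fun m : ℕ => (|x| / y) ^ m) atTop (𝓝 0) := by
    intro x y hy hxy
    exact tendsto_pow_atTop_nhds_zero_of_lt_one (by positivity) ((div_lt_one hy).2 hxy)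
  have hlim : Tendsto (fun m : ℕ => K * R ^ 2 * ((|ν| / |a| ^ 2) ^ m + (|ν| / (|a| * |b|)) ^ m) +
      K' * R ^ (j + 1) * (|ν| / |b| ^ (j + 1)) ^ m) atTop (𝓝 0) := by
    have := (((hq ν _ (by positivity) h1).add (hq ν _ (by positivity) h2)).const_mul
      (K * R ^ 2)).add ((hq ν _ (by positivity) h3).const_mul (K' * R ^ (j + 1)))
    simpa using this
  filter_upwards [hlim.eventually (gt_mem_nhds hε), h.small R (lt_min hδ hδ')] with m hm hs v hv
  have hs1 := hs v hv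
  have e1 := ht (D m v) (hs1.trans_le (min_le_left _ _))
  have e2 := hg (D m v (1 - i)) ((abs_coord_le _ _).trans_lt (hs1.trans_le (min_le_right _ _)))
  have f1 := h.abs_di hv m
  have f2 := h.abs_dj hv m
  set x := D m v with hx
  set d := fderiv ℝ ph 0 (ee i) with hd
  have e3 : ν ^ m * (ph x - ph 0) - ((ν / a) ^ m * d * v i +
      (ν / b ^ j) ^ m * c * v (1 - i) ^ j) =
      ν ^ m * ((ph x - ph (x (1 - i) • ee (1 - i)) - d * x i) +
        (ph (x (1 - i) • ee (1 - i)) - ph 0 - c * x (1 - i) ^ j)) := by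
    have g1 : (ν / a) ^ m * d * v i = ν ^ m * (d * x i) := by
      rw [hx, h.di, div_pow]; ring
    have g2 : (ν / b ^ j) ^ m * c * v (1 - i) ^ j = ν ^ m * (c * x (1 - i) ^ j) := by
      rw [hx, h.dj, div_pow, mul_pow, inv_pow, ← pow_mul, ← pow_mul, mul_comm j m]; ring
    rw [g1, g2]; ring
  rw [e3, abs_mul, abs_pow]
  have e4 : |ph x - ph (x (1 - i) • ee (1 - i)) - d * x i +
      (ph (x (1 - i) • ee (1 - i)) - ph 0 - c * x (1 - i) ^ j)| ≤
      K * ((|a| ^ m)⁻¹ * R) * ((|a| ^ m)⁻¹ * R + (|b| ^ m)⁻¹ * R) +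
        K' * ((|b| ^ m)⁻¹ * R) ^ (j + 1) := by
    refine (abs_add_le _ _).trans (add_le_add (e1.trans ?_) (e2.trans ?_))
    · gcongr
    · gcongr
  refine (mul_le_mul_of_nonneg_left e4 (by positivity)).trans (le_trans (le_of_eq ?_) hm.le)
  rw [div_pow, div_pow, div_pow, mul_pow |a| |b|, mul_pow, inv_pow, ← pow_mul, ← pow_mul, ← pow_mul,
    mul_comm 2 m, mul_comm (j + 1) m]
  have hA : |a| ^ m ≠ 0 := by positivity
  have hB : |b| ^ m ≠ 0 := by positivity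
  have hA2 : |a| ^ (m * 2) = |a| ^ m * |a| ^ m := by ring
  rw [hA2]
  field_simp

end Dg

/-- the subsequence of even numbers: `(ν / a)^{2n} d` converges -/
theorem even_lim {a ν d : ℝ} (ha : 0 < |a|) (h : d = 0 ∨ |ν| ≤ |a|) :
    ∃ δ : ℝ, Tendsto (fun n : ℕ => (ν / a) ^ (2 * n) * d) atTop (𝓝 δ) := by
  rcases h with rfl | h
  · exact ⟨0, by simp⟩
  · rcases h.lt_or_eq with h1 | h1
    · refine ⟨0, ?_⟩
      have h2 : |(ν / a) ^ 2| < 1 := by
        rw [abs_pow, abs_div]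
        have : |ν| / |a| < 1 := (div_lt_one ha).2 h1
        exact pow_lt_one₀ (by positivity) this (by norm_num)
      have h3 := (tendsto_pow_atTop_nhds_zero_of_abs_lt_one h2).mul_const d
      rw [zero_mul] at h3
      refine h3.congr fun n => ?_
      rw [pow_mul]
    · refine ⟨d, ?_⟩
      have h2 : (ν / a) ^ 2 = 1 := by
        rw [← sq_abs, abs_div, h1, div_self ha.ne', one_pow]
      have h3 : (fun n : ℕ => (ν / a) ^ (2 * n) * d) = fun _ => d := by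
        funext n
        rw [pow_mul, h2, one_pow, one_mul]
      rw [h3]
      exact tendsto_const_nhds

end Vale.Agent.P207.N3.H158
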