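import Vale.Agent.P207.N3.H158.RegB
import Vale.Agent.P207.N3.H158.RegD

/-!
# P207, line N3, package P14 (4.3): the level function near a homoclinic point, diagonal forms

`exists_reg`: if the normal form is diagonal, `f = x_i` with multiplier `a`, the other multiplier
is `b` with `|b| < |a|²`, then the rescaled functions `a^m (f - f(κ))` at the homoclinic point `κ`
converge to `d f`, `d ≠ 0`.
-/

open Set Filter Topology Metric
open scoped ContDiff

set_option maxSynthPendingDepth 3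
set_option linter.unusedSectionVars false

noncomputable section

namespace Vale.Agent.P207.N3.H158

open Vale.Agent.P207.N3
open Vale.Agent.P207.N3.H854 (ee)
open Vale.Agent.P207.N3.H545 (CkB Wf)

/-- values of a continuous function at close points -/
theorem tendsto_sub_of_close {P : E2 → ℝ} (hP : Continuous P) {R : ℝ} {v x : ℕ → E2}
    (hv : ∀ᶠ m in atTop, ‖v m‖ ≤ R) (hx : ∀ᶠ m in atTop, ‖x m‖ ≤ R)
    (h : Tendsto (fun m => v m - x m) atTop (𝓝 0)) :
    Tendsto (fun m => P (v m) - P (x m)) atTop (𝓝 0) := by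
  have hu := (isCompact_closedBall (0 : E2) R).uniformContinuousOn_of_continuous hP.continuousOn
  rw [Metric.uniformContinuousOn_iff] at hu
  rw [Metric.tendsto_atTop]
  intro ε hε
  obtain ⟨δ, hδ, hu'⟩ := hu ε hε
  have h1 : ∀ᶠ m in atTop, ‖v m - x m‖ < δ := by
    have := h.norm
    rw [norm_zero] at this
    exact this.eventually (gt_mem_nhds hδ)
  obtain ⟨N, hN⟩ := eventually_atTop.mp ((hv.and hx).and h1)
  refine ⟨N, fun m hm => ?_⟩
  obtain ⟨⟨h2, h3⟩, h4⟩ := hN m hm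
  have := hu' (v m) (mem_closedBall_zero_iff.2 h2) (x m) (mem_closedBall_zero_iff.2 h3)
    (by rwa [dist_eq_norm])
  rwa [dist_zero_right, ← dist_eq_norm]

theorem tendsto_zero_of_le {F : ℕ → ℝ} (h : ∀ ε > 0, ∀ᶠ m in atTop, |F m| ≤ ε) :
    Tendsto F atTop (𝓝 0) := by
  rw [Metric.tendsto_atTop]
  intro ε hε
  obtain ⟨N, hN⟩ := eventually_atTop.mp (h (ε / 2) (by positivity))
  refine ⟨N, fun m hm => ?_⟩
  rw [dist_zero_right, Real.norm_eq_abs]
  exact (hN m hm).trans_lt (by linarith)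

variable {Γ X B : Type} [Group Γ] [MetricSpace X] [ProperSpace X] [MulAction Γ X]
  [IsIsometricSMul Γ X] [TopologicalSpace B] [CompactSpace B] [T2Space B] [MulAction Γ B]
  [ContinuousConstSMul Γ B] {L : Leaf Γ X B} {o : Orb L}

/-- the data at a homoclinic point -/
structure Hd (n : Nor L o) (k : Γ) (Φ : E2 → E2) (V : ℕ → O2 → E2 → E2) : Prop where
  smooth : ContDiffAt ℝ ∞ Φ 0
  zero : Φ 0 = n.x (k • o.pos)
  close : ∀ ε > 0, ∀ᶠ m : ℕ in atTop, ∀ b : O2, ∀ u ∈ ball (0 : E2) 3,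
    ‖V m b u - n.x (L.e (L.rot b o.x) u)‖ ≤ ε
  eq : ∀ᶠ m : ℕ in atTop, ∀ b : O2, ∀ u ∈ ball (0 : E2) 3,
    n.x (L.e (L.rot (o.a ^ m * b) (L.φ (m * o.l) (z0 o k))) u) = Φ (n.N.inv^[m] (V m b u))

/-- the expansion at a homoclinic point -/
theorem Hd.exp {n : Nor L o} {k : Γ} {Φ : E2 → E2} {V : ℕ → O2 → E2 → E2} (H : Hd n k Φ V)
    {i : Fin 2} {a b : ℝ} (hD : Dg i a b (fun m => n.N.inv^[m])) {j : ℕ} {c K' δ' : ℝ}
    (hK' : 0 ≤ K') (hδ' : 0 < δ')
    (hg : ∀ t : ℝ, |t| < δ' →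
      |Φ (t • ee (1 - i)) i - Φ 0 i - c * t ^ j| ≤ K' * |t| ^ (j + 1))
    {ν : ℝ} (h1 : |ν| < |a| ^ 2) (h2 : |ν| < |a| * |b|) (h3 : |ν| < |b| ^ (j + 1)) {R ε : ℝ}
    (hR0 : 0 ≤ R) (hR : ∀ b : O2, ∀ u ∈ ball (0 : E2) 3, ‖n.x (L.e (L.rot b o.x) u)‖ ≤ R)
    (hε : 0 < ε) :
    ∀ᶠ m : ℕ in atTop, ∀ q : O2, ∀ u ∈ ball (0 : E2) 3, ‖V m q u‖ ≤ R + 1 ∧
      |ν ^ m * (n.x (L.e (L.rot (o.a ^ m * q) (L.φ (m * o.l) (z0 o k))) u) i -
        n.x (k • o.pos) i) - ((ν / a) ^ m * fderiv ℝ (fun x => Φ x i) 0 (ee i) * V m q u i +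
        (ν / b ^ j) ^ m * c * V m q u (1 - i) ^ j)| ≤ ε := by
  have hph : ContDiffAt ℝ ∞ (fun x => Φ x i) 0 :=
    (EuclideanSpace.proj (𝕜 := ℝ) i : E2 →L[ℝ] ℝ).contDiff.contDiffAt.comp 0 H.smooth
  filter_upwards [hD.est hph hK' hδ' hg h1 h2 h3 (by linarith : 0 ≤ R + 1) hε,
    H.close 1 one_pos, H.eq] with m hm1 hm2 hm3 q u hu
  have hV : ‖V m q u‖ ≤ R + 1 := by
    have e1 := hm2 q u hu
    have e2 := hR q u hu
    calc ‖V m q u‖ = ‖(V m q u - n.x (L.e (L.rot q o.x) u)) + n.x (L.e (L.rot q o.x) u)‖ := by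
          rw [sub_add_cancel]
      _ ≤ 1 + R := (norm_add_le _ _).trans (add_le_add e1 e2)
      _ = R + 1 := add_comm _ _
  refine ⟨hV, ?_⟩
  rw [hm3 q u hu, ← H.zero]
  exact hm1 _ hV

/-- the contribution of the other coordinate vanishes -/
theorem Hd.kill {n : Nor L o} {k : Γ} {Φ : E2 → E2} {V : ℕ → O2 → E2 → E2} (H : Hd n k Φ V)
    (hk : k • o.pos ≠ o.neg) {T : Tens L} {k₀ : ℕ} (hr : Rough T k₀)
    {i : Fin 2} (hW : ∀ y, L.em y = o.neg → ContDiffOn ℝ ∞ (Wf T (fun η => n.x η i) y) (ball 0 3))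
    {a b : ℝ} (hD : Dg i a b (fun m => n.N.inv^[m])) {j : ℕ} (hj : 1 ≤ j) {c K' δ' : ℝ}
    (hK' : 0 ≤ K') (hδ' : 0 < δ')
    (hg : ∀ t : ℝ, |t| < δ' →
      |Φ (t • ee (1 - i)) i - Φ 0 i - c * t ^ j| ≤ K' * |t| ^ (j + 1))
    (h1 : |b| ^ j < |a| ^ 2) (h2 : |b| ^ j < |a| * |b|)
    (hd : fderiv ℝ (fun x => Φ x i) 0 (ee i) = 0 ∨ |b| ^ j ≤ |a|) : c = 0 := by
  obtain ⟨R, hR0, hR⟩ := exists_bd n
  set d := fderiv ℝ (fun x => Φ x i) 0 (ee i) with hdd
  set ν : ℝ := b ^ j with hν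
  have hνa : |ν| = |b| ^ j := abs_pow b j
  have hb0 := hD.b_pos
  have ha0 := hD.a_pos
  have hb1 := hD.hb
  have hν0 : 1 ≤ |ν| := by rw [hνa]; exact one_le_pow₀ hb1.le
  have hνne : ν ≠ 0 := by
    intro h
    rw [h, abs_zero] at hν0
    linarith
  have h3 : |ν| < |b| ^ (j + 1) := by
    rw [hνa]; exact pow_lt_pow_right₀ hb1 (by omega)
  rw [← hνa] at h1 h2 hd
  have hexp := fun {ε : ℝ} (hε : 0 < ε) =>
    H.exp hD hK' hδ' hg h1 h2 h3 hR0 hR (ε := ε) hε
  simp only [← hdd, ← hν, div_self hνne, one_pow, one_mul] at hexp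
  have hνd : ∀ m : ℕ, |(ν / a) ^ m * d| ≤ |d| := by
    intro m
    rcases hd with h | h
    · rw [h]; simp
    · rw [abs_mul, abs_pow, abs_div]
      have : |ν| / |a| ≤ 1 := (div_le_one ha0).2 h
      exact mul_le_of_le_one_left (abs_nonneg _) (pow_le_one₀ (by positivity) this)
  -- the frames
  have hfr : ∀ m : ℕ, L.rot (o.a ^ m * (o.a ^ m)⁻¹) (L.φ (m * o.l) (z0 o k)) =
      L.φ (m * o.l) (z0 o k) := by
    intro m; rw [mul_inv_cancel, L.rot_one]
  -- the bound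
  have hb : ∀ᶠ m : ℕ in atTop, ∀ u ∈ ball (0 : E2) 3,
      |n.x (L.e (L.φ (m * o.l) (z0 o k)) u) i - n.x (k • o.pos) i| ≤
        (1 + |d| * (R + 1) + |c| * (R + 1) ^ j) * (|ν| ^ m)⁻¹ := by
    filter_upwards [hexp one_pos] with m hm u hu
    obtain ⟨e1, e2⟩ := hm (o.a ^ m)⁻¹ u hu
    rw [hfr] at e2
    set v := V m (o.a ^ m)⁻¹ u
    set D := n.x (L.e (L.φ (m * o.l) (z0 o k)) u) i - n.x (k • o.pos) i
    have e3 : |v i| ≤ R + 1 := (abs_coord_le v i).trans e1
    have e4 : |v (1 - i)| ≤ R + 1 := (abs_coord_le v (1 - i)).trans e1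
    have e5 : |ν ^ m * D| ≤ 1 + |d| * (R + 1) + |c| * (R + 1) ^ j := by
      calc |ν ^ m * D| = |(ν ^ m * D - ((ν / a) ^ m * d * v i + c * v (1 - i) ^ j)) +
            ((ν / a) ^ m * d * v i + c * v (1 - i) ^ j)| := by rw [sub_add_cancel]
        _ ≤ |ν ^ m * D - ((ν / a) ^ m * d * v i + c * v (1 - i) ^ j)| +
            (|(ν / a) ^ m * d * v i| + |c * v (1 - i) ^ j|) :=
          (abs_add_le _ _).trans (add_le_add le_rfl (abs_add_le _ _))
        _ ≤ 1 + (|d| * (R + 1) + |c| * (R + 1) ^ j) := by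
          refine add_le_add e2 (add_le_add ?_ ?_)
          · rw [abs_mul]
            exact mul_le_mul (hνd m) e3 (abs_nonneg _) (abs_nonneg _)
          · rw [abs_mul, abs_pow]
            gcongr
        _ = _ := by ring
    rw [abs_mul, abs_pow] at e5
    have hpos : 0 < |ν| ^ m := by positivity
    rw [← div_eq_mul_inv, le_div_iff₀ hpos, mul_comm]
    exact e5
  obtain ⟨δ, hδ⟩ := even_lim (a := a) (ν := ν) (d := d) ha0 hd
  set P : E2 → ℝ := fun z => c * z (1 - i) ^ j + δ * z i with hP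
  have hPs : ContDiff ℝ ∞ P := by
    have hc : ∀ i : Fin 2, ContDiff ℝ ∞ fun x : E2 => x i := fun i =>
      (EuclideanSpace.proj (𝕜 := ℝ) i : E2 →L[ℝ] ℝ).contDiff
    exact (contDiff_const.mul ((hc _).pow j)).add (contDiff_const.mul (hc i))
  have hmm : Tendsto (fun n : ℕ => 2 * n) atTop atTop :=
    tendsto_id.const_mul_atTop' (by norm_num)
  have hlim : ∀ u ∈ ball (0 : E2) 2, Tendsto (fun q : ℕ => ν ^ (2 * q) *
      (n.x (L.e (L.φ ((2 * q : ℕ) * o.l) (z0 o k)) u) i - n.x (k • o.pos) i) -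
        P (n.x (L.e (L.rot (o.a ^ (2 * q))⁻¹ o.x) u))) atTop (𝓝 0) := by
    intro u hu
    have hu3 : u ∈ ball (0 : E2) 3 := ball_subset_ball (by norm_num) hu
    set v : ℕ → E2 := fun q => V (2 * q) (o.a ^ (2 * q))⁻¹ u with hv
    set x : ℕ → E2 := fun q => n.x (L.e (L.rot (o.a ^ (2 * q))⁻¹ o.x) u) with hx
    have hvR : ∀ᶠ m in atTop, ‖v m‖ ≤ R + 1 := by
      filter_upwards [hmm.eventually (hexp one_pos)] with m hm
      exact (hm _ u hu3).1
    have hxR : ∀ᶠ m in atTop, ‖x m‖ ≤ R + 1 := Eventually.of_forall fun m =>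
      (hR _ u hu3).trans (by linarith)
    have hvx : Tendsto (fun m => v m - x m) atTop (𝓝 0) := by
      rw [tendsto_zero_iff_norm_tendsto_zero]
      refine tendsto_zero_of_le fun ε hε => ?_
      filter_upwards [hmm.eventually (H.close ε hε)] with m hm
      rw [abs_of_nonneg (norm_nonneg _)]
      exact hm _ u hu3
    have t1 := tendsto_sub_of_close hPs.continuous hvR hxR hvx
    have t2 : Tendsto (fun q : ℕ => ν ^ (2 * q) *
        (n.x (L.e (L.φ ((2 * q : ℕ) * o.l) (z0 o k)) u) i - n.x (k • o.pos) i) -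
        ((ν / a) ^ (2 * q) * d * v q i + c * v q (1 - i) ^ j)) atTop (𝓝 0) := by
      refine tendsto_zero_of_le fun ε hε => ?_
      filter_upwards [hmm.eventually (hexp hε)] with m hm
      have := (hm (o.a ^ (2 * m))⁻¹ u hu3).2
      rw [hfr] at this
      exact this
    have t3 : Tendsto (fun q : ℕ => ((ν / a) ^ (2 * q) * d - δ) * v q i) atTop (𝓝 0) := by
      have h5 : Tendsto (fun q : ℕ => (ν / a) ^ (2 * q) * d - δ) atTop (𝓝 0) := by
        have := hδ.sub_const δ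
        rwa [sub_self] at this
      refine h5.zero_mul_isBoundedUnder_le ⟨R + 1, ?_⟩
      rw [eventually_map]
      filter_upwards [hvR] with m hm
      simp only [Function.comp, Real.norm_eq_abs]
      exact (abs_coord_le _ i).trans hm
    have t4 := (t2.add t3).add t1
    rw [zero_add, zero_add] at t4
    refine t4.congr fun q => ?_
    simp only [hP]
    ring
  have hw := wrong hr n i hW hk hν0 hb hPs hmm hlim
  -- the derivative of `P` in the other direction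
  have hder : ∀ z : E2, fderiv ℝ P z (ee (1 - i)) = c * (j * z (1 - i) ^ (j - 1)) := by
    intro z
    have g1 : HasFDerivAt (fun x : E2 => x (1 - i))
        (EuclideanSpace.proj (𝕜 := ℝ) (1 - i) : E2 →L[ℝ] ℝ) z := H854.hasFDerivAt_coord _ z
    have g2 : HasFDerivAt (fun x : E2 => x i)
        (EuclideanSpace.proj (𝕜 := ℝ) i : E2 →L[ℝ] ℝ) z := H854.hasFDerivAt_coord _ z
    have g3 := ((g1.pow j).const_mul c).add (g2.const_mul δ)
    have g4 : HasFDerivAt P _ z := g3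
    rw [g4.fderiv]
    have e1 : (ee (1 - i) : E2) i = 0 := ee_ne i
    have e2 : (ee (1 - i) : E2) (1 - i) = 1 := H854.ee_same _
    simp [e1, e2]
  by_contra hc
  obtain ⟨r, hr0, hr1⟩ := Metric.eventually_nhds_iff.mp hw
  have e1 := hr1 (y := (r / 2) • ee (1 - i)) (by
    rw [dist_zero_right, norm_smul, norm_ee, mul_one, Real.norm_eq_abs,
      abs_of_pos (by positivity)]
    linarith)
  rw [hder] at e1
  have e2 : ((r / 2) • ee (1 - i) : E2) (1 - i) = r / 2 := by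
    simp [ee]
  rw [e2] at e1
  have e3 : (j : ℝ) ≠ 0 := by
    have : 0 < j := hj
    positivity
  have e4 : (r / 2) ^ (j - 1) ≠ 0 := by positivity
  exact mul_ne_zero hc (mul_ne_zero e3 e4) e1

/-- **the rescaled level function at a homoclinic point** -/
theorem exists_reg {n : Nor L o} {c₀ : ℝ} (W : H147.Fwd o n.x n.N.fn c₀) {k : Γ}
    (hk : k • o.pos ≠ o.neg) {T : Tens L} {k₀ : ℕ} (hr : Rough T k₀) {i : Fin 2}
    (hW : ∀ y, L.em y = o.neg → ContDiffOn ℝ ∞ (Wf T (fun η => n.x η i) y) (ball 0 3))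
    {a b : ℝ} (hD : Dg i a b (fun m => n.N.inv^[m])) (hab : |b| < |a| ^ 2) :
    ∃ d : ℝ, d ≠ 0 ∧ ∀ ε > 0, ∀ᶠ m : ℕ in atTop, ∀ u ∈ ball (0 : E2) 3, |a ^ m *
      (n.x (L.e (L.hol o.neg (k • o.β ^ m • o.x)) u) i - n.x (k • o.pos) i) -
        d * n.x (L.e o.x u) i| ≤ ε := by
  obtain ⟨Φ, V, hΦ, hΦ0, hΦd, hcl, heq⟩ := exists_Phi n W hk
  have H : Hd n k Φ V := ⟨hΦ, hΦ0, hcl, heq⟩
  obtain ⟨R, hR0, hR⟩ := exists_bd n
  have ha0 := hD.a_pos
  have ha1 := hD.ha
  have hb1 := hD.hb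
  set ph : E2 → ℝ := fun x => Φ x i with hphd
  have hph : ContDiffAt ℝ ∞ ph 0 :=
    (EuclideanSpace.proj (𝕜 := ℝ) i : E2 →L[ℝ] ℝ).contDiff.contDiffAt.comp 0 hΦ
  have hphf : HasFDerivAt ph (fderiv ℝ ph 0) 0 := (hph.differentiableAt (by simp)).hasFDerivAt
  set d := fderiv ℝ ph 0 (ee i) with hdd
  set c := fderiv ℝ ph 0 (ee (1 - i)) with hcd
  set g : ℝ → ℝ := fun t => ph (t • ee (1 - i)) - ph 0 with hgd
  have hline : ContDiff ℝ ∞ fun t : ℝ => t • ee (1 - i) := contDiff_id.smul contDiff_const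
  have h00 : (0 : ℝ) • ee (1 - i) = 0 := zero_smul _ _
  have hg : ContDiffAt ℝ ∞ g 0 := by
    refine ContDiffAt.sub (ContDiffAt.comp (0 : ℝ) (g := ph) ?_ hline.contDiffAt) contDiffAt_const
    rw [h00]; exact hph
  have hg0 : g 0 = 0 := by
    simp only [hgd]
    rw [h00, sub_self]
  have hgder : HasDerivAt g c 0 := by
    have h1 : HasDerivAt (fun t : ℝ => t • ee (1 - i)) (ee (1 - i)) 0 := by
      simpa using (hasDerivAt_id (0 : ℝ)).smul_const (ee (1 - i))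
    have h2 : HasFDerivAt ph (fderiv ℝ ph 0) ((0 : ℝ) • ee (1 - i)) := by rw [h00]; exact hphf
    exact (h2.comp_hasDerivAt (0 : ℝ) h1).sub_const _
  -- a quadratic bound kills the derivative
  have hquad : ∀ K δ : ℝ, 0 < δ → (∀ t : ℝ, |t| < δ → |g t| ≤ K * |t| ^ 2) → c = 0 := by
    intro K δ hδ hq
    have h1 : HasDerivAt g 0 0 := by
      rw [hasDerivAt_iff_isLittleO_nhds_zero]
      simp only [zero_add, hg0, sub_zero, smul_zero]
      have h2 : g =O[𝓝 0] fun t : ℝ => t ^ 2 := by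
        refine Asymptotics.IsBigO.of_bound K ?_
        filter_upwards [ball_mem_nhds (0 : ℝ) hδ] with t ht
        rw [mem_ball_zero_iff, Real.norm_eq_abs] at ht
        rw [Real.norm_eq_abs, norm_pow, Real.norm_eq_abs]
        exact hq t ht
      exact h2.trans_isLittleO (Asymptotics.isLittleO_pow_id (by norm_num))
    exact hgder.unique h1
  obtain ⟨J, hJ1, hJ2⟩ := exists_nat_pow_near ha1.le hb1
  rcases dich1 hg hg0 J with ⟨j, c', hj1, hjJ, hc, K', δ', hK', hδ', hgj⟩ | ⟨K', δ', hK', hδ', hgJ⟩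
  · exfalso
    have hbj : |b| ^ j ≤ |a| := (pow_le_pow_right₀ hb1.le hjJ).trans hJ1
    exact hc (H.kill hk hr hW hD hj1 hK' hδ' hgj (by nlinarith) (by nlinarith) (Or.inr hbj))
  · have hne : d ≠ 0 := by
      intro hd0
      have hc0 : c ≠ 0 := by
        intro hc0
        set E := H854.equivOfDet (fderiv ℝ Φ 0) hΦd with hE
        have hEv : fderiv ℝ Φ 0 (E.symm (ee i)) = ee i := by
          have := E.apply_symm_apply (ee i)
          rwa [hE, H854.equivOfDet_apply, ← hE] at this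
        have hrow : ∀ v, fderiv ℝ ph 0 v = (fderiv ℝ Φ 0 v) i := by
          intro v
          have := ((EuclideanSpace.proj (𝕜 := ℝ) i : E2 →L[ℝ] ℝ).hasFDerivAt.comp (0 : E2)
            (hΦ.differentiableAt (by simp)).hasFDerivAt).fderiv
          have h7 : ph = (EuclideanSpace.proj (𝕜 := ℝ) i : E2 →L[ℝ] ℝ) ∘ Φ := rfl
          rw [h7, this]
          rfl
        have h1 := hrow (E.symm (ee i))
        rw [hEv, H854.ee_same, eq_sum_ee i (E.symm (ee i)), map_add, map_smul, map_smul, ← hdd,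
          ← hcd, hd0, hc0] at h1
        simp at h1
      rcases Nat.eq_zero_or_pos J with hJ | hJ
      · rcases dich1 hg hg0 1 with ⟨j, c', hj1, hjJ, hc, K', δ', hK', hδ', hgj⟩ |
          ⟨K', δ', hK', hδ', hgJ⟩
        · have hj : j = 1 := by omega
          subst hj
          exact hc (H.kill hk hr hW hD le_rfl hK' hδ' hgj (by rwa [pow_one])
            (by rw [pow_one]; nlinarith) (Or.inl hd0))
        · exact hc0 (hquad K' δ' hδ' hgJ)
      · refine hc0 (hquad K' (min δ' 1) (lt_min hδ' one_pos) fun t ht => ?_)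
        refine (hgJ t (ht.trans_le (min_le_left _ _))).trans ?_
        have h1 : |t| ≤ 1 := (ht.trans_le (min_le_right _ _)).le
        exact mul_le_mul_of_nonneg_left
          (pow_le_pow_of_le_one (abs_nonneg _) h1 (by omega)) hK'
    refine ⟨d, hne, fun ε hε => ?_⟩
    have hane := hD.a_ne
    have hexp := fun {ε : ℝ} (hε : 0 < ε) =>
      H.exp hD (c := 0) hK' hδ' (j := J) (fun t ht => by
        rw [zero_mul, sub_zero]; exact hgJ t ht) (ν := a) (by nlinarith) (by nlinarith) hJ2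
        hR0 hR (ε := ε) hε
    simp only [← hphd, ← hdd, div_self hane, one_pow, one_mul, mul_zero, zero_mul,
      add_zero] at hexp
    have hfr : ∀ m : ℕ, L.rot (o.a ^ m * 1) (L.φ (m * o.l) (z0 o k)) =
        L.hol o.neg (k • o.β ^ m • o.x) := by
      intro m
      rw [← hol_rot_kb hk m 1, L.rot_one]
    have hd0 : 0 < |d| := abs_pos.2 hne
    filter_upwards [hexp (half_pos hε), hcl (ε / 2 / |d|) (by positivity)] with m hm1 hm2 u hu
    have e1 := (hm1 1 u hu).2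
    rw [hfr] at e1
    have e2 := hm2 1 u hu
    rw [L.rot_one] at e2
    have e3 : |V m 1 u i - n.x (L.e o.x u) i| ≤ ε / 2 / |d| :=
      (abs_coord_le (V m 1 u - n.x (L.e o.x u)) i).trans e2
    have e4 : |d * V m 1 u i - d * n.x (L.e o.x u) i| ≤ ε / 2 := by
      rw [← mul_sub, abs_mul]
      calc |d| * |V m 1 u i - n.x (L.e o.x u) i| ≤ |d| * (ε / 2 / |d|) := by gcongr
        _ = ε / 2 := by field_simp
    calc _ = |(a ^ m * (n.x (L.e (L.hol o.neg (k • o.β ^ m • o.x)) u) i -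
          n.x (k • o.pos) i) - d * V m 1 u i) +
          (d * V m 1 u i - d * n.x (L.e o.x u) i)| := by ring_nf
      _ ≤ ε / 2 + ε / 2 := (abs_add_le _ _).trans (add_le_add e1 e4)
      _ = ε := by ring

end Vale.Agent.P207.N3.H158
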